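import Crest.Agent.R167.Defs

/-! # Row 167: lattice geometry (basic facts, cut-off functions) -/

set_option autoImplicit false

namespace Crest.Agent.R167

open MeasureTheory Matrix Crest.ProbabilityR.SpinModel

theorem dinf_self (p : Z2) : dinf p p = 0 := by simp [dinf]

theorem dinf_comm (p q : Z2) : dinf p q = dinf q p := by unfold dinf; omega

theorem dinf_triangle (p q r : Z2) : dinf p r ≤ dinf p q + dinf q r := by unfold dinf; omega

theorem dinf_eq_zero {p q : Z2} (h : dinf p q = 0) : p = q := by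
  unfold dinf at h
  ext <;> omega

theorem dinf_src_tgt {V : Finset Z2} (e : Edge V) : dinf (src e) (tgt e) = 1 := by
  obtain ⟨⟨x, i⟩, h⟩ := e
  fin_cases i <;> simp [src, tgt, dinf, latticeDir]

theorem mem_box {V : Finset Z2} {u : Z2} {r : ℕ} {x : V} : x ∈ box V u r ↔ dinf x u ≤ r := by
  simp [box]

theorem Lip.dd {V : Finset Z2} {θ : Z2 → ℝ} {g : ℝ} (h : Lip θ g) (e : Edge V) :
    |dd θ e| ≤ g := by
  have := h (src e) (tgt e)
  rw [dinf_src_tgt] at this
  simpa [Crest.Agent.R167.dd] using this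

theorem Lip.nonneg {θ : Z2 → ℝ} {g : ℝ} (h : Lip θ g) : 0 ≤ g := by
  have := h (0, 0) (1, 0)
  have h1 : dinf ((0, 0) : Z2) (1, 0) = 1 := by simp [dinf]
  rw [h1] at this
  simpa using (abs_nonneg _).trans this

theorem cut_nonneg (c : Z2) (R l : ℕ) (p : Z2) : 0 ≤ cut c R l p := le_max_left _ _

theorem cut_le_one (c : Z2) (R l : ℕ) (p : Z2) : cut c R l p ≤ 1 :=
  max_le zero_le_one (min_le_left _ _)

theorem cut_eq_one {c : Z2} {R l : ℕ} (hl : 1 ≤ l) {p : Z2} (h : dinf p c ≤ R) :
    cut c R l p = 1 := by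
  have hl' : (0 : ℝ) < l := by exact_mod_cast hl
  have h' : (dinf p c : ℝ) ≤ R := by exact_mod_cast h
  have : 1 ≤ ((R : ℝ) + l - dinf p c) / l := by rw [le_div_iff₀ hl']; linarith
  rw [cut, min_eq_left this, max_eq_right zero_le_one]

theorem cut_eq_zero {c : Z2} {R l : ℕ} {p : Z2} (h : R + l ≤ dinf p c) : cut c R l p = 0 := by
  have h' : (R : ℝ) + l ≤ dinf p c := by exact_mod_cast h
  have : ((R : ℝ) + l - dinf p c) / l ≤ 0 :=
    div_nonpos_of_nonpos_of_nonneg (by linarith) (Nat.cast_nonneg _)
  rw [cut, max_eq_left ((min_le_right _ _).trans this)]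

theorem lip_cut (c : Z2) (R : ℕ) {l : ℕ} (hl : 1 ≤ l) : Lip (cut c R l) (1 / l) := by
  intro p q
  have hl' : (0 : ℝ) < l := by exact_mod_cast hl
  have h1 : (dinf p c : ℝ) ≤ dinf p q + dinf q c := by exact_mod_cast dinf_triangle p q c
  have h2 : (dinf q c : ℝ) ≤ dinf p q + dinf p c := by
    have := dinf_triangle q p c
    rw [dinf_comm q p] at this
    exact_mod_cast this
  have h3 : |((R : ℝ) + l - dinf p c) / l - ((R : ℝ) + l - dinf q c) / l| ≤
      1 / l * (dinf p q : ℝ) := by
    rw [← sub_div, abs_div, abs_of_pos hl', one_div_mul_eq_div]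
    gcongr
    rw [abs_le]; constructor <;> linarith
  refine le_trans ?_ h3
  unfold cut
  refine (abs_max_sub_max_le_max _ _ _ _).trans ?_
  rw [sub_self, abs_zero, max_eq_right (abs_nonneg _)]
  refine (abs_min_sub_min_le_max _ _ _ _).trans ?_
  rw [sub_self, abs_zero, max_eq_right (abs_nonneg _)]

/-- A bounded Lipschitz cut-off times an increment.  Used for `phi` and for the localisation
in `Loc`.  If both cut-off values vanish the Lipschitz bound is trivial; otherwise, say the value
at `q` is nonzero, so `dinf q c ≤ R + l`, write the difference as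
`cut p * (η p - η q) + (cut p - cut q) * (η q - η c)`. -/
theorem cutoff_spec (c : Z2) (R : ℕ) {l : ℕ} (hl : 1 ≤ l) {η : Z2 → ℝ} {g : ℝ} (hη : Lip η g) :
    (∀ p, |cut c R l p * (η p - η c)| ≤ g * (R + l)) ∧
      Lip (fun p => cut c R l p * (η p - η c)) (g * ((R + l) / l + 1)) := by
  have hl' : (0 : ℝ) < l := by exact_mod_cast hl
  have hg := hη.nonneg
  have hb : ∀ p, cut c R l p ≠ 0 → |η p - η c| ≤ g * (R + l) := by
    intro p hp
    have : dinf p c ≤ R + l := by
      by_contra h
      exact hp (cut_eq_zero (by omega))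
    have h' : (dinf p c : ℝ) ≤ R + l := by exact_mod_cast this
    exact (hη p c).trans (by gcongr)
  have key : ∀ p q, cut c R l q ≠ 0 →
      |cut c R l p * (η p - η c) - cut c R l q * (η q - η c)| ≤
        g * ((R + l) / l + 1) * (dinf p q : ℝ) := by
    intro p q hq
    have e : cut c R l p * (η p - η c) - cut c R l q * (η q - η c) =
        cut c R l p * (η p - η q) + (cut c R l p - cut c R l q) * (η q - η c) := by ring
    rw [e]
    refine (abs_add_le _ _).trans ?_
    rw [abs_mul, abs_mul, abs_of_nonneg (cut_nonneg _ _ _ _)]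
    have h1 : cut c R l p * |η p - η q| ≤ 1 * (g * dinf p q) :=
      mul_le_mul (cut_le_one _ _ _ _) (hη p q) (abs_nonneg _) zero_le_one
    have h2 : |cut c R l p - cut c R l q| * |η q - η c| ≤ (1 / l * dinf p q) * (g * (R + l)) :=
      mul_le_mul (lip_cut c R hl p q) (hb q hq) (abs_nonneg _) (by positivity)
    have e2 : g * ((R + l) / l + 1) * (dinf p q : ℝ) =
        1 * (g * dinf p q) + (1 / l * dinf p q) * (g * (R + l)) := by ring
    linarith
  refine ⟨fun p => ?_, fun p q => ?_⟩
  · by_cases hp : cut c R l p = 0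
    · rw [hp]; simp; positivity
    · rw [abs_mul, abs_of_nonneg (cut_nonneg _ _ _ _)]
      have := mul_le_mul (cut_le_one c R l p) (hb p hp) (abs_nonneg _) zero_le_one
      linarith
  · by_cases hq : cut c R l q = 0
    · by_cases hp : cut c R l p = 0
      · simp only [hp, hq]; simp; positivity
      · rw [abs_sub_comm, dinf_comm]; exact key q p hp
    · exact key p q hq

end Crest.Agent.R167
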