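import Crest.Agent.R167.Bil
import Crest.Agent.R167.Geo

/-! # Row 167: the commutator score -/

set_option autoImplicit false

namespace Crest.Agent.R167

open MeasureTheory Matrix Crest.ProbabilityR.SpinModel

variable {n : ℕ} {V : Finset Z2} {c : Fin 3 ↪ Fin n} {β : Edge V → ℝ} {Λ : Finset V}
  {μ : Measure (SpinConfig n V)} {β₀ : ℝ}

variable {T T' : Finset Ix} {θ φ θ' φ' : Ix → Z2 → ℝ} {ψ ψ' : Z2 → ℝ}

theorem alg_s1 (h : Adm T θ φ ψ) (e : Edge V) :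
    ∑ k ∈ T, θ k (tgt e) * φ k (src e) = dd ψ e :=
  h _ _ (dinf_src_tgt e).le

theorem alg_s2 (h : Adm T θ φ ψ) (e : Edge V) :
    ∑ k ∈ T, θ k (src e) * φ k (tgt e) = -dd ψ e := by
  rw [h _ _ (by rw [dinf_comm]; exact (dinf_src_tgt e).le), dd]; ring

theorem alg_s0 (h : Adm T θ φ ψ) (p : Z2) : ∑ k ∈ T, θ k p * φ k p = 0 := by
  rw [h _ _ (by rw [dinf_self]; exact zero_le_one)]; ring

theorem alg_comb (h : Adm T θ φ ψ) (e : Edge V) (P Q R S : M3) :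
    ∑ k ∈ T, ((θ k (src e) * φ k (src e)) • P + (θ k (tgt e) * φ k (src e)) • Q +
      (θ k (src e) * φ k (tgt e)) • R + (θ k (tgt e) * φ k (tgt e)) • S) =
      dd ψ e • (Q - R) := by
  simp only [Finset.sum_add_distrib, ← Finset.sum_smul, alg_s1 h, alg_s2 h, alg_s0 h]
  module

/-- The four scalar sums: with `x = src e`, `y = tgt e` (`dinf_src_tgt`, `dinf_comm`,
`dinf_self`), `∑ θ y φ x = dd ψ e`, `∑ θ x φ y = - dd ψ e`, `∑ θ x φ x = 0 = ∑ θ y φ y`. -/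
theorem alg1 (h : Adm T θ φ ψ) (a b : Fin 3) (M : Edge V → M3) (e : Edge V) :
    ∑ k ∈ T, dX b (φ k) (dX a (θ k) M) e =
      dd ψ e • (Lm b * M e * Lm a - Lm a * M e * Lm b) := by
  have := alg_comb h e (M e * Lm a * Lm b) (-(Lm a * M e * Lm b)) (-(Lm b * M e * Lm a))
    (Lm b * Lm a * M e)
  rw [show Lm b * M e * Lm a - Lm a * M e * Lm b =
    -(Lm a * M e * Lm b) - -(Lm b * M e * Lm a) by abel, ← this]
  refine Finset.sum_congr rfl fun k _ => ?_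
  simp only [dX, sub_mul, mul_sub, smul_mul_assoc, mul_smul_comm, mul_assoc]
  module

theorem alg2 (h : Adm T θ φ ψ) (b : Fin 3) (N : Edge V → M3) (e : Edge V) :
    ∑ k ∈ T, dX b (φ k) (fun e => (-dd (θ k) e) • N e) e =
      dd ψ e • (N e * Lm b - Lm b * N e) := by
  have := alg_comb h e (-(N e * Lm b)) (N e * Lm b) (Lm b * N e) (-(Lm b * N e))
  rw [← this]
  refine Finset.sum_congr rfl fun k _ => ?_
  simp only [dX, dd, smul_mul_assoc, mul_smul_comm]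
  module

theorem alg3 (h : Adm T θ φ ψ) (a : Fin 3) (N : Edge V → M3) (e : Edge V) :
    ∑ k ∈ T, dX a (θ k) (fun e => (-dd (φ k) e) • N e) e =
      (-dd ψ e) • (N e * Lm a - Lm a * N e) := by
  have := alg_comb h e (-(N e * Lm a)) (Lm a * N e) (N e * Lm a) (-(Lm a * N e))
  rw [show (-dd ψ e) • (N e * Lm a - Lm a * N e) = dd ψ e • (Lm a * N e - N e * Lm a) by module,
    ← this]
  refine Finset.sum_congr rfl fun k _ => ?_
  simp only [dX, dd, smul_mul_assoc, mul_smul_comm]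
  module

/-- `alg3` with `N = Lm (a + 1)`, `Lm_comm` -/
theorem sum_Yf (h : Adm T θ φ ψ) (a : Fin 3) (σ : SpinConfig n V) :
    ∑ k ∈ T, Yf c β a (θ k) (a + 1) (φ k) σ = -sc c β (a + 2) ψ σ := by
  unfold Yf sc
  rw [← bil_sum, ← bil_neg]
  congr 1
  funext e
  have := alg3 h a (fun _ : Edge V => Lm (a + 1)) e
  unfold sM
  rw [this, ← Lm_comm]
  module

/-- For each `k`: Ward `(a, θ k)` for `G * sc (a+1) (φ k)`, then Ward `(a+1, φ k)` for `G1 k`,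
give `E (G * sc a (θ k) * sc (a+1) (φ k)) = E (G2 k) + E (G * Yf a (θ k) (a+1) (φ k))`; sum over
`k` and use `sum_Yf`. -/
theorem score [IsFiniteMeasure μ] (hW : Ward c β Λ μ) (h : Adm T θ φ ψ)
    (hs : ∀ k ∈ T, Supp Λ (θ k) ∧ Supp Λ (φ k)) (a : Fin 3) {G : SpinConfig n V → ℝ}
    {G1 G2 : Ix → SpinConfig n V → ℝ} (hG : Bdd G)
    (h1 : ∀ k ∈ T, Bdd (G1 k) ∧ Bdd (G2 k) ∧ HasX c a (θ k) G (G1 k) ∧
      HasX c (a + 1) (φ k) (G1 k) (G2 k)) :
    ∫ σ, G σ * (Qf c β a T θ φ σ + sc c β (a + 2) ψ σ) ∂μ = ∑ k ∈ T, ∫ σ, G2 k σ ∂μ := by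
  have key : ∀ k ∈ T, ∫ σ, G σ * (sc c β a (θ k) σ * sc c β (a + 1) (φ k) σ -
      Yf c β a (θ k) (a + 1) (φ k) σ) ∂μ = ∫ σ, G2 k σ ∂μ := by
    intro k hk
    obtain ⟨b1, b2, x1, x2⟩ := h1 k hk
    have bs := bdd_sc c β (a + 1) (φ k)
    have bs' := bdd_sc c β a (θ k)
    have bY := bdd_Yf c β a (θ k) (a + 1) (φ k)
    have e1 := hW a (θ k) (hs k hk).1 _ _ (hG.mul bs) ((b1.mul bs).add (hG.mul bY))
      (x1.mul (hasX_sc c β a (θ k) (a + 1) (φ k)))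
    have e2 := hW (a + 1) (φ k) (hs k hk).2 _ _ b1 b2 x2
    rw [integral_add ((b1.mul bs).integrable μ) ((hG.mul bY).integrable μ)] at e1
    have e3 : ∫ σ, G σ * (sc c β a (θ k) σ * sc c β (a + 1) (φ k) σ -
        Yf c β a (θ k) (a + 1) (φ k) σ) ∂μ =
        ∫ σ, G σ * sc c β (a + 1) (φ k) σ * sc c β a (θ k) σ ∂μ -
          ∫ σ, G σ * Yf c β a (θ k) (a + 1) (φ k) σ ∂μ := by
      rw [← integral_sub (((hG.mul bs).mul bs').integrable μ) ((hG.mul bY).integrable μ)]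
      congr 1; funext σ; ring
    rw [e3, e2, ← e1]; ring
  rw [← Finset.sum_congr rfl key, ← integral_finsetSum]
  · congr 1
    funext σ
    rw [← Finset.mul_sum, Finset.sum_sub_distrib, sum_Yf h, Qf]
    ring
  · intro k _
    exact (hG.mul (((bdd_sc c β _ _).mul (bdd_sc c β _ _)).sub (bdd_Yf c β _ _ _ _))).integrable μ

end Crest.Agent.R167
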