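import Crest.Agent.R167.Defs

/-! # Row 167: the reference law -/

set_option autoImplicit false

namespace Crest.Agent.R167

open MeasureTheory Matrix Crest.ProbabilityR.SpinModel

variable {n : ℕ} {V : Finset Z2}

instance finite_ref (n : ℕ) (V : Finset Z2) : IsFiniteMeasure (referenceLaw n V) := by
  unfold referenceLaw; infer_instance

/-- `Measure.toSphere_ne_zero`, `Measure.pi_univ` -/
theorem ref_neZero (hn : 1 ≤ n) (V : Finset Z2) : NeZero (referenceLaw n V) := by
  have : Nonempty (Fin n) := ⟨⟨0, hn⟩⟩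
  refine ⟨fun h => ?_⟩
  have h1 : referenceLaw n V Set.univ = 0 := by rw [h]; rfl
  rw [referenceLaw, Measure.pi_univ, Finset.prod_eq_zero_iff] at h1
  obtain ⟨_, _, h2⟩ := h1
  exact Measure.toSphere_ne_zero (volume : Measure (Sp n)) (Measure.measure_univ_eq_zero.1 h2)

theorem Meas_continuous_actS (R : Sp n ≃ₗᵢ[ℝ] Sp n) : Continuous (actS R) :=
  (R.continuous.comp continuous_subtype_val).subtype_mk _

theorem continuous_act (c : Fin 3 ↪ Fin n) (O : V → M3) :
    Continuous (act c O : SpinConfig n V → SpinConfig n V) := by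
  exact continuous_pi fun x => (Meas_continuous_actS _).comp (continuous_apply x)

theorem measurable_act (c : Fin 3 ↪ Fin n) (O : V → M3) :
    Measurable (act c O : SpinConfig n V → SpinConfig n V) :=
  (continuous_act c O).measurable

/-- `Measure.toSphere_apply'` and `LinearIsometryEquiv.measurePreserving`; see
`Crest/Agent/R322/Sphere.lean`, `sig_reflect`, for the same computation. -/
theorem measurePreserving_actS (R : Sp n ≃ₗᵢ[ℝ] Sp n) :
    MeasurePreserving (actS R) (volume : Measure (Sp n)).toSphere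
      (volume : Measure (Sp n)).toSphere := by
  have hm := (Meas_continuous_actS R).measurable
  refine ⟨hm, Measure.ext fun A hA => ?_⟩
  rw [Measure.map_apply hm hA, Measure.toSphere_apply' _ (hm hA), Measure.toSphere_apply' _ hA]
  congr 1
  refine Eq.trans ?_
    (R.measurePreserving.measure_preimage_emb R.toHomeomorph.measurableEmbedding _)
  congr 1
  ext x
  simp only [Set.mem_preimage, Set.mem_smul, Set.mem_image]
  constructor
  · rintro ⟨t, ht, _, ⟨y, hy, rfl⟩, rfl⟩
    exact ⟨t, ht, _, ⟨_, hy, rfl⟩, by simp [actS]⟩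
  · rintro ⟨t, ht, _, ⟨y, hy, rfl⟩, h⟩
    refine ⟨t, ht, _, ⟨actS R.symm y, ?_, rfl⟩, ?_⟩
    · convert hy using 1
      ext1
      simp [actS]
    · apply R.injective
      simpa [actS] using h

/-- `measurePreserving_pi` -/
theorem measurePreserving_act (c : Fin 3 ↪ Fin n) (O : V → M3) :
    MeasurePreserving (act c O) (referenceLaw n V) (referenceLaw n V) := by
  exact measurePreserving_pi _ _ fun x => measurePreserving_actS (iso c (O x))

theorem continuous_En (β : Edge V → ℝ) : Continuous (En β : SpinConfig n V → ℝ) := by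
  unfold En
  fun_prop

theorem continuous_co (c : Fin 3 ↪ Fin n) (x : V) :
    Continuous (fun σ : SpinConfig n V => co c σ x) := by
  unfold co
  fun_prop

theorem continuous_bil (c : Fin 3 ↪ Fin n) (β : Edge V → ℝ) (M : Edge V → M3) :
    Continuous (bil c β M : SpinConfig n V → ℝ) := by
  unfold bil v3
  simp only [dotProduct, mulVec]
  fun_prop

/-- continuous functions on the compact configuration space -/
theorem Bdd.of_continuous {f : SpinConfig n V → ℝ} (hf : Continuous f) : Bdd f := by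
  obtain ⟨C, hC⟩ := (isCompact_range hf).isBounded.exists_norm_le
  exact ⟨hf.measurable, C, fun σ => hC _ ⟨σ, rfl⟩⟩

theorem Bdd.integrable {f : SpinConfig n V → ℝ} (hf : Bdd f) (μ : Measure (SpinConfig n V))
    [IsFiniteMeasure μ] : Integrable f μ := by
  obtain ⟨h1, C, hC⟩ := hf
  exact Integrable.of_bound h1.aestronglyMeasurable C (Filter.Eventually.of_forall hC)

theorem Bdd.const (r : ℝ) : Bdd (fun _ : SpinConfig n V => r) := by
  exact ⟨measurable_const, |r|, fun _ => le_rfl⟩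

theorem Bdd.add {f g : SpinConfig n V → ℝ} (hf : Bdd f) (hg : Bdd g) :
    Bdd (fun σ => f σ + g σ) := by
  obtain ⟨h1, C, hC⟩ := hf
  obtain ⟨h2, D, hD⟩ := hg
  exact ⟨h1.add h2, C + D, fun σ => (abs_add_le _ _).trans (add_le_add (hC σ) (hD σ))⟩

theorem Bdd.mul {f g : SpinConfig n V → ℝ} (hf : Bdd f) (hg : Bdd g) :
    Bdd (fun σ => f σ * g σ) := by
  obtain ⟨h1, C, hC⟩ := hf
  obtain ⟨h2, D, hD⟩ := hg
  refine ⟨h1.mul h2, C * D, fun σ => ?_⟩
  rw [abs_mul]
  exact mul_le_mul (hC σ) (hD σ) (abs_nonneg _) ((abs_nonneg _).trans (hC σ))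

theorem Bdd.neg {f : SpinConfig n V → ℝ} (hf : Bdd f) : Bdd (fun σ => -f σ) := by
  obtain ⟨h1, C, hC⟩ := hf
  exact ⟨h1.neg, C, fun σ => (abs_neg _).trans_le (hC σ)⟩

theorem Bdd.sub {f g : SpinConfig n V → ℝ} (hf : Bdd f) (hg : Bdd g) :
    Bdd (fun σ => f σ - g σ) := by
  simpa only [sub_eq_add_neg] using hf.add hg.neg

theorem Bdd.pow {f : SpinConfig n V → ℝ} (hf : Bdd f) (k : ℕ) : Bdd (fun σ => f σ ^ k) := by
  obtain ⟨h1, C, hC⟩ := hf
  refine ⟨h1.pow_const k, C ^ k, fun σ => ?_⟩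
  rw [abs_pow]
  exact pow_le_pow_left₀ (abs_nonneg _) (hC σ) k

theorem Bdd.abs {f : SpinConfig n V → ℝ} (hf : Bdd f) : Bdd (fun σ => |f σ|) := by
  obtain ⟨h1, C, hC⟩ := hf
  exact ⟨h1.abs, C, fun σ => (abs_abs _).trans_le (hC σ)⟩

theorem Bdd.exp {f : SpinConfig n V → ℝ} (hf : Bdd f) : Bdd (fun σ => Real.exp (f σ)) := by
  obtain ⟨h1, C, hC⟩ := hf
  refine ⟨h1.exp, Real.exp C, fun σ => ?_⟩
  rw [abs_of_pos (Real.exp_pos _)]
  exact Real.exp_le_exp.2 ((le_abs_self _).trans (hC σ))

theorem Bdd.sum {ι : Type*} {s : Finset ι} {f : ι → SpinConfig n V → ℝ}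
    (hf : ∀ i ∈ s, Bdd (f i)) : Bdd (fun σ => ∑ i ∈ s, f i σ) := by
  classical
  induction s using Finset.induction_on with
  | empty => simpa using Bdd.const 0
  | insert i s hi ih =>
    simp only [Finset.sum_insert hi]
    exact (hf i (Finset.mem_insert_self _ _)).add
      (ih fun j hj => hf j (Finset.mem_insert_of_mem hj))

theorem Bdd.prod {ι : Type*} {s : Finset ι} {f : ι → SpinConfig n V → ℝ}
    (hf : ∀ i ∈ s, Bdd (f i)) : Bdd (fun σ => ∏ i ∈ s, f i σ) := by
  classical
  induction s using Finset.induction_on with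
  | empty => simpa using Bdd.const 1
  | insert i s hi ih =>
    simp only [Finset.prod_insert hi]
    exact (hf i (Finset.mem_insert_self _ _)).mul
      (ih fun j hj => hf j (Finset.mem_insert_of_mem hj))

theorem Bdd.comp {f : SpinConfig n V → ℝ} (hf : Bdd f) {g : SpinConfig n V → SpinConfig n V}
    (hg : Measurable g) : Bdd (fun σ => f (g σ)) := by
  obtain ⟨h1, C, hC⟩ := hf
  exact ⟨h1.comp hg, C, fun σ => hC _⟩

theorem bdd_bil (c : Fin 3 ↪ Fin n) (β : Edge V → ℝ) (M : Edge V → M3) : Bdd (bil c β M) :=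
  Bdd.of_continuous (continuous_bil c β M)

theorem bdd_En (β : Edge V → ℝ) : Bdd (En β : SpinConfig n V → ℝ) :=
  Bdd.of_continuous (continuous_En β)

theorem bdd_co (c : Fin 3 ↪ Fin n) (x : V) : Bdd (fun σ : SpinConfig n V => co c σ x) :=
  Bdd.of_continuous (continuous_co c x)

/-- `Real.sign` is measurable (a piecewise constant function) and bounded by `1` -/
theorem bdd_sign (c : Fin 3 ↪ Fin n) (x : V) :
    Bdd (fun σ : SpinConfig n V => Real.sign (co c σ x)) := by
  have hm : Measurable Real.sign := by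
    unfold Real.sign
    exact Measurable.ite measurableSet_Iio measurable_const
      (Measurable.ite measurableSet_Ioi measurable_const measurable_const)
  refine ⟨hm.comp (continuous_co c x).measurable, 1, fun σ => ?_⟩
  rcases Real.sign_apply_eq (co c σ x) with h | h | h <;> simp [h]

theorem gibbs_prob (hn : 1 ≤ n) (β : Edge V → ℝ) : IsProbabilityMeasure (gibbs n β) := by
  have := ref_neZero hn V
  exact isProbabilityMeasure_tilted ((bdd_En β).exp.integrable _)

/-- `integral_tilted` -/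
theorem integral_gibbs (β : Edge V → ℝ) (F : SpinConfig n V → ℝ) :
    ∫ σ, F σ ∂gibbs n β = (∫ σ, F σ * Real.exp (En β σ) ∂referenceLaw n V) /
      ∫ σ, Real.exp (En β σ) ∂referenceLaw n V := by
  rw [gibbs, integral_tilted, ← integral_div]
  refine integral_congr_ae (ae_of_all _ fun σ => ?_)
  simp only [smul_eq_mul]
  ring

/-- Cauchy–Schwarz in the form used below: `2 |f g| ≤ t f² + g² / t`, optimise in `t`
(or `integral_mul_le_Lp_mul_Lq`, or the discriminant). -/
theorem abs_integral_mul_le (μ : Measure (SpinConfig n V)) [IsFiniteMeasure μ]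
    {f g : SpinConfig n V → ℝ} (hf : Bdd f) (hg : Bdd g) {A B : ℝ} (hA : 0 ≤ A) (hB : 0 ≤ B)
    (h1 : ∫ σ, f σ ^ 2 ∂μ ≤ A ^ 2) (h2 : ∫ σ, g σ ^ 2 ∂μ ≤ B ^ 2) :
    |∫ σ, f σ * g σ ∂μ| ≤ A * B := by
  have i1 := (hf.pow 2).integrable μ
  have i2 := (hg.pow 2).integrable μ
  have i3 := (hf.mul hg).integrable μ
  have hd : discrim (∫ σ, f σ ^ 2 ∂μ) (2 * ∫ σ, f σ * g σ ∂μ) (∫ σ, g σ ^ 2 ∂μ) ≤ 0 := by
    apply discrim_le_zero
    intro t
    have e : (∫ σ, f σ ^ 2 ∂μ) * (t * t) + (2 * ∫ σ, f σ * g σ ∂μ) * t + ∫ σ, g σ ^ 2 ∂μ =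
        ∫ σ, (t * f σ + g σ) ^ 2 ∂μ := by
      have e1 : ∀ σ, (t * f σ + g σ) ^ 2 =
          t * t * f σ ^ 2 + 2 * t * (f σ * g σ) + g σ ^ 2 := fun σ => by ring
      simp only [e1]
      have i4 : Integrable (fun σ => t * t * f σ ^ 2 + 2 * t * (f σ * g σ)) μ :=
        (i1.const_mul _).add (i3.const_mul _)
      rw [integral_add i4 i2, integral_add (i1.const_mul _) (i3.const_mul _), integral_const_mul,
        integral_const_mul]
      ring
    rw [e]
    exact integral_nonneg fun σ => sq_nonneg _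
  have n2 : 0 ≤ ∫ σ, g σ ^ 2 ∂μ := integral_nonneg fun σ => sq_nonneg _
  apply abs_le_of_sq_le_sq _ (mul_nonneg hA hB)
  unfold discrim at hd
  have := mul_le_mul h1 h2 n2 (sq_nonneg A)
  nlinarith

end Crest.Agent.R167
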