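import Crest.Agent.R167.Rot
import Crest.Agent.R167.Meas

/-! # Row 167: bilinear observables and derivatives along flows -/

set_option autoImplicit false

namespace Crest.Agent.R167

open MeasureTheory Matrix Crest.ProbabilityR.SpinModel

variable {n : ℕ} {V : Finset Z2} (c : Fin 3 ↪ Fin n) (β : Edge V → ℝ)

theorem bil_zero (σ : SpinConfig n V) : bil c β (fun _ => 0) σ = 0 := by
  simp [bil]

theorem bil_add (M N : Edge V → M3) (σ : SpinConfig n V) :
    bil c β (fun e => M e + N e) σ = bil c β M σ + bil c β N σ := by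
  simp only [bil, Matrix.add_mulVec, dotProduct_add, mul_add, Finset.sum_add_distrib]

theorem bil_neg (M : Edge V → M3) (σ : SpinConfig n V) :
    bil c β (fun e => -M e) σ = -bil c β M σ := by
  simp only [bil, Matrix.neg_mulVec, dotProduct_neg, mul_neg, Finset.sum_neg_distrib]

theorem bil_sub (M N : Edge V → M3) (σ : SpinConfig n V) :
    bil c β (fun e => M e - N e) σ = bil c β M σ - bil c β N σ := by
  simp only [bil, Matrix.sub_mulVec, dotProduct_sub, mul_sub, Finset.sum_sub_distrib]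

theorem bil_smul (r : ℝ) (M : Edge V → M3) (σ : SpinConfig n V) :
    bil c β (fun e => r • M e) σ = r * bil c β M σ := by
  simp only [bil, Matrix.smul_mulVec, dotProduct_smul, smul_eq_mul, Finset.mul_sum]
  exact Finset.sum_congr rfl fun e _ => by ring

theorem bil_sum {ι : Type*} (s : Finset ι) (M : ι → Edge V → M3) (σ : SpinConfig n V) :
    bil c β (fun e => ∑ i ∈ s, M i e) σ = ∑ i ∈ s, bil c β (M i) σ := by
  classical
  induction s using Finset.induction_on with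
  | empty => simpa using bil_zero c β σ
  | insert a s ha ih => simp only [Finset.sum_insert ha, bil_add, ih]

theorem sc_sum {ι : Type*} (s : Finset ι) (a : Fin 3) (θ : ι → Z2 → ℝ) (σ : SpinConfig n V) :
    sc c β a (fun p => ∑ i ∈ s, θ i p) σ = ∑ i ∈ s, sc c β a (θ i) σ := by
  unfold sc
  rw [← bil_sum]
  congr 1
  funext e
  simp only [sM, dd, ← Finset.sum_smul, Finset.sum_neg_distrib, Finset.sum_sub_distrib]

/-- all coordinates are at most `1` in absolute value (`abs_v3_le`) -/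
theorem abs_bil_le {β₀ : ℝ} (hβ : Adm0 β₀ β) (M : Edge V → M3) (σ : SpinConfig n V) :
    |bil c β M σ| ≤ β₀ * ∑ e, ∑ i, ∑ j, |M e i j| := by
  unfold bil
  rw [Finset.mul_sum]
  refine (Finset.abs_sum_le_sum_abs _ _).trans (Finset.sum_le_sum fun e _ => ?_)
  rw [abs_mul, abs_of_nonneg (hβ e).1]
  refine mul_le_mul (hβ e).2 ?_ (abs_nonneg _) ((hβ e).1.trans (hβ e).2)
  refine (Finset.abs_sum_le_sum_abs _ _).trans (Finset.sum_le_sum fun i _ => ?_)
  rw [abs_mul]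
  refine (mul_le_of_le_one_left (abs_nonneg _) (abs_v3_le c _ i)).trans ?_
  unfold Matrix.mulVec dotProduct
  refine (Finset.abs_sum_le_sum_abs _ _).trans (Finset.sum_le_sum fun j _ => ?_)
  rw [abs_mul]
  exact mul_le_of_le_one_right (abs_nonneg _) (abs_v3_le c _ j)

theorem bdd_sc (a : Fin 3) (θ : Z2 → ℝ) : Bdd (sc c β a θ) := bdd_bil c β _

theorem bdd_Yf (a : Fin 3) (θ : Z2 → ℝ) (b : Fin 3) (η : Z2 → ℝ) : Bdd (Yf c β a θ b η) :=
  bdd_bil c β _

theorem bdd_Qf (a : Fin 3) (T : Finset Ix) (θ φ : Ix → Z2 → ℝ) : Bdd (Qf c β a T θ φ) :=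
  Bdd.sum fun _ _ => (bdd_sc c β _ _).mul (bdd_sc c β _ _)

theorem bil_hasDerivAt_pair (a : Fin 3) (r s : ℝ) (M : M3) (v w : Fin 3 → ℝ) :
    HasDerivAt (fun t : ℝ => (Rm a (t * s) *ᵥ w) ⬝ᵥ (M *ᵥ (Rm a (t * r) *ᵥ v)))
      (w ⬝ᵥ ((r • (M * Lm a) - s • (Lm a * M)) *ᵥ v)) 0 := by
  have hw : HasDerivAt (fun t : ℝ => Rm a (t * s) *ᵥ w) (s • (Lm a *ᵥ w)) 0 :=
    hasDerivAt_pi.2 fun j => hasDerivAt_Rm a s w j
  have hv : HasDerivAt (fun t : ℝ => Rm a (t * r) *ᵥ v) (r • (Lm a *ᵥ v)) 0 :=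
    hasDerivAt_pi.2 fun j => hasDerivAt_Rm a r v j
  have hz : ∀ i, HasDerivAt (fun t : ℝ => (M *ᵥ (Rm a (t * r) *ᵥ v)) i)
      ((M *ᵥ (r • (Lm a *ᵥ v))) i) 0 := by
    intro i
    simp only [Matrix.mulVec, dotProduct]
    exact HasDerivAt.fun_sum (u := Finset.univ) fun j _ =>
      (hasDerivAt_pi.1 hv j).const_mul (M i j)
  have h := HasDerivAt.fun_sum (u := Finset.univ) fun i _ => (hasDerivAt_pi.1 hw i).fun_mul (hz i)
  refine HasDerivAt.congr_deriv h ?_
  simp only [zero_mul, Rm_zero, Matrix.one_mulVec]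
  rw [Finset.sum_add_distrib]
  change (s • (Lm a *ᵥ w)) ⬝ᵥ (M *ᵥ v) + w ⬝ᵥ (M *ᵥ (r • (Lm a *ᵥ v))) = _
  have h2 : (Lm a *ᵥ w) ⬝ᵥ (M *ᵥ v) = -(w ⬝ᵥ (Lm a *ᵥ (M *ᵥ v))) := by
    rw [Matrix.dotProduct_mulVec w, ← Matrix.mulVec_transpose, Lm_transpose, Matrix.neg_mulVec,
      neg_dotProduct, neg_neg]
  rw [Matrix.sub_mulVec, Matrix.smul_mulVec, Matrix.smul_mulVec, dotProduct_sub,
    smul_dotProduct, h2, Matrix.mulVec_smul, ← Matrix.mulVec_mulVec, ← Matrix.mulVec_mulVec,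
    dotProduct_smul, dotProduct_smul]
  simp only [smul_eq_mul]
  ring

/-- `v3_act`, `Rm_orth`, `hasDerivAt_Rm`, product rule, `Lm_transpose`:
`d/dt (w ⬝ᵥ M *ᵥ v) = θ_x w ⬝ᵥ M (L v) + θ_y (L w) ⬝ᵥ M v`, and `(L w) ⬝ᵥ z = - w ⬝ᵥ L z`. -/
theorem hasX_bil (a : Fin 3) (θ : Z2 → ℝ) (M : Edge V → M3) :
    HasX c a θ (bil c β M) (bil c β (dX a θ M)) := by
  intro σ
  unfold bil
  have key : ∀ e : Edge V, HasDerivAt
      (fun t : ℝ => β e * (v3 c (flow c a θ t σ (tgt e)) ⬝ᵥ (M e *ᵥ v3 c (flow c a θ t σ (src e)))))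
      (β e * (v3 c (σ (tgt e)) ⬝ᵥ (dX a θ M e *ᵥ v3 c (σ (src e))))) 0 := by
    intro e
    have h1 : ∀ t : ℝ, ∀ x : V, v3 c (flow c a θ t σ x : Sp n) =
        Rm a (t * θ x) *ᵥ v3 c (σ x : Sp n) := fun t x =>
      v3_act c (O := fun x => Rm a (t * θ x)) σ (Rm_orth _ _)
    simp only [h1]
    exact (bil_hasDerivAt_pair a (θ (src e)) (θ (tgt e)) (M e) _ _).const_mul (β e)
  exact HasDerivAt.fun_sum (u := Finset.univ) fun e _ => key e

theorem hasX_sc (a : Fin 3) (θ : Z2 → ℝ) (b : Fin 3) (η : Z2 → ℝ) :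
    HasX c a θ (sc c β b η) (Yf c β a θ b η) := hasX_bil c β a θ _

/-- `En_eq`, `perp_act` -/
theorem hasX_En (a : Fin 3) (θ : Z2 → ℝ) :
    HasX c a θ (En β) (fun σ => -sc c β a θ σ) := by
  intro σ
  have h1 : (fun t : ℝ => En β (flow c a θ t σ)) = fun t =>
      bil c β (fun _ => 1) (flow c a θ t σ) +
        ∑ e, β e * perp c (σ (src e) : Sp n) (σ (tgt e)) := by
    funext t
    rw [En_eq c]
    unfold flow
    simp only [perp_act]
  rw [h1]
  refine ((hasX_bil c β a θ (fun _ => 1) σ).add_const _).congr_deriv ?_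
  simp only [sc, bil]
  rw [← Finset.sum_neg_distrib]
  refine Finset.sum_congr rfl fun e _ => ?_
  simp only [dX, sM, dd, Matrix.one_mul, Matrix.mul_one, ← sub_smul, Matrix.smul_mulVec,
    dotProduct_smul, smul_eq_mul]
  ring

variable {c}

theorem HasX.const (a : Fin 3) (θ : Z2 → ℝ) (r : ℝ) :
    HasX c a θ (fun _ : SpinConfig n V => r) (fun _ => 0) := by
  exact fun _ => hasDerivAt_const _ _

theorem HasX.add {a : Fin 3} {θ : Z2 → ℝ} {f f' g g' : SpinConfig n V → ℝ}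
    (hf : HasX c a θ f f') (hg : HasX c a θ g g') :
    HasX c a θ (fun σ => f σ + g σ) (fun σ => f' σ + g' σ) := by
  exact fun σ => (hf σ).add (hg σ)

/-- uses `flow_zero` -/
theorem HasX.mul {a : Fin 3} {θ : Z2 → ℝ} {f f' g g' : SpinConfig n V → ℝ}
    (hf : HasX c a θ f f') (hg : HasX c a θ g g') :
    HasX c a θ (fun σ => f σ * g σ) (fun σ => f' σ * g σ + f σ * g' σ) := by
  intro σ
  have h := (hf σ).fun_mul (hg σ)
  rwa [flow_zero] at h

theorem HasX.sum {ι : Type*} {s : Finset ι} {a : Fin 3} {θ : Z2 → ℝ}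
    {f f' : ι → SpinConfig n V → ℝ} (hf : ∀ i ∈ s, HasX c a θ (f i) (f' i)) :
    HasX c a θ (fun σ => ∑ i ∈ s, f i σ) (fun σ => ∑ i ∈ s, f' i σ) := by
  exact fun σ => HasDerivAt.fun_sum fun i hi => hf i hi σ

/-- the derivative at every time, by the flow property -/
theorem HasX.hasDerivAt {a : Fin 3} {θ : Z2 → ℝ} {f f' : SpinConfig n V → ℝ}
    (hf : HasX c a θ f f') (σ : SpinConfig n V) (t : ℝ) :
    HasDerivAt (fun s => f (flow c a θ s σ)) (f' (flow c a θ t σ)) t := by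
  have h := hf (flow c a θ t σ)
  rw [← sub_self t] at h
  have h2 := h.comp_sub_const t t
  simpa only [flow_add, sub_add_cancel] using h2

/-- the flow does not move the spins in `U` -/
theorem hasX_of_dependsOn (a : Fin 3) {θ : Z2 → ℝ} {U : Set V} (hθ : ∀ x ∈ U, θ x = 0)
    {G : SpinConfig n V → ℝ} (hG : DependsOn G U) : HasX c a θ G (fun _ => 0) := by
  intro σ
  have h : (fun t => G (flow c a θ t σ)) = fun _ => G σ :=
    funext fun t => hG fun x hx => flow_apply_of_zero c a t σ (hθ x hx)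
  rw [h]
  exact hasDerivAt_const _ _

end Crest.Agent.R167
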