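import Crest.Agent.R167.Geo

/-! # Row 167: the tent partition of unity -/

set_option autoImplicit false

namespace Crest.Agent.R167

open MeasureTheory Matrix Crest.ProbabilityR.SpinModel

theorem chi_tent_nonneg (t : ℝ) : 0 ≤ tent t := le_max_left _ _

theorem chi_tent_le_one (t : ℝ) : tent t ≤ 1 :=
  max_le zero_le_one (by linarith [abs_nonneg t])

theorem chi_tent_zero {l : ℕ} (hl : 1 ≤ l) {z : ℤ} (h : l ≤ z.natAbs) :
    tent ((z : ℝ) / l) = 0 := by
  have hl' : (0 : ℝ) < l := by exact_mod_cast hl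
  have h1 : (l : ℝ) ≤ |(z : ℝ)| := by
    rw [← Int.cast_abs, ← Int.natCast_natAbs]
    exact_mod_cast h
  refine max_eq_left ?_
  rw [abs_div, abs_of_pos hl', sub_nonpos, le_div_iff₀ hl', one_mul]
  exact h1

theorem chi_tent_lip (s t : ℝ) : |tent s - tent t| ≤ |s - t| := by
  unfold tent
  rw [max_comm 0, max_comm 0]
  refine (abs_max_sub_max_le_abs _ _ _).trans ?_
  rw [sub_sub_sub_cancel_left, abs_sub_comm s]
  exact abs_abs_sub_abs_le_abs_sub _ _

theorem chi_tent_lip' {l : ℕ} (hl : 1 ≤ l) (x y c : ℤ) {d : ℕ} (h : (x - y).natAbs ≤ d) :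
    |tent (((x - c : ℤ) : ℝ) / l) - tent (((y - c : ℤ) : ℝ) / l)| ≤ d / l := by
  have hl' : (0 : ℝ) < l := by exact_mod_cast hl
  refine (chi_tent_lip _ _).trans ?_
  rw [← sub_div, abs_div, abs_of_pos hl', ← Int.cast_sub, sub_sub_sub_cancel_right,
    ← Int.cast_abs, ← Int.natCast_natAbs]
  gcongr
  exact_mod_cast h

theorem chi_tent_sum {l : ℕ} (hl : 1 ≤ l) {r : ℤ} (h0 : 0 ≤ r) (h1 : r ≤ l) :
    tent ((r : ℝ) / l) + tent (((r - l : ℤ) : ℝ) / l) = 1 := by
  have hl' : (0 : ℝ) < l := by exact_mod_cast hl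
  have h0' : (0 : ℝ) ≤ (r : ℝ) / l := div_nonneg (by exact_mod_cast h0) hl'.le
  have h1' : (r : ℝ) / l ≤ 1 := (div_le_one hl').2 (by exact_mod_cast h1)
  have e : ((r - l : ℤ) : ℝ) / l = r / l - 1 := by
    push_cast
    rw [sub_div, div_self hl'.ne']
  unfold tent
  rw [e, abs_of_nonneg h0', abs_of_nonpos (by linarith), max_eq_right (by linarith),
    max_eq_right (by linarith)]
  ring

theorem chi_nonneg (u : Z2) (l : ℕ) (b p : Z2) : 0 ≤ chi u l b p :=
  mul_nonneg (chi_tent_nonneg _) (chi_tent_nonneg _)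

theorem chi_le_one (u : Z2) (l : ℕ) (b p : Z2) : chi u l b p ≤ 1 :=
  mul_le_one₀ (chi_tent_le_one _) (chi_tent_nonneg _) (chi_tent_le_one _)

theorem chi_eq_zero (u : Z2) {l : ℕ} (hl : 1 ≤ l) {b p : Z2} (h : l ≤ dinf p (cen u l b)) :
    chi u l b p = 0 := by
  unfold chi
  rcases le_max_iff.1 h with h | h
  · rw [chi_tent_zero hl h, zero_mul]
  · rw [chi_tent_zero hl h, mul_zero]

/-- `tent` is `1`-Lipschitz with values in `[0, 1]` -/
theorem lip_chi (u : Z2) {l : ℕ} (hl : 1 ≤ l) (b : Z2) : Lip (chi u l b) (2 / l) := by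
  intro p q
  have h1 := chi_tent_lip' hl p.1 q.1 (cen u l b).1 (d := dinf p q) (le_max_left _ _)
  have h2 := chi_tent_lip' hl p.2 q.2 (cen u l b).2 (d := dinf p q) (le_max_right _ _)
  unfold chi
  have a1 := chi_tent_nonneg (((q.1 - (cen u l b).1 : ℤ) : ℝ) / l)
  have a2 := chi_tent_le_one (((q.1 - (cen u l b).1 : ℤ) : ℝ) / l)
  have a3 := chi_tent_nonneg (((p.2 - (cen u l b).2 : ℤ) : ℝ) / l)
  have a4 := chi_tent_le_one (((p.2 - (cen u l b).2 : ℤ) : ℝ) / l)
  generalize tent (((p.1 - (cen u l b).1 : ℤ) : ℝ) / l) = x at *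
  generalize tent (((q.1 - (cen u l b).1 : ℤ) : ℝ) / l) = x' at *
  generalize tent (((p.2 - (cen u l b).2 : ℤ) : ℝ) / l) = y at *
  generalize tent (((q.2 - (cen u l b).2 : ℤ) : ℝ) / l) = y' at *
  calc |x * y - x' * y'| = |(x - x') * y + x' * (y - y')| := by ring_nf
    _ ≤ |x - x'| * y + x' * |y - y'| := by
      refine (abs_add_le _ _).trans ?_
      rw [abs_mul, abs_mul, abs_of_nonneg a1, abs_of_nonneg a3]
    _ ≤ |x - x'| * 1 + 1 * |y - y'| := by gcongr
    _ ≤ 2 / l * (dinf p q : ℝ) := by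
      have : 2 / l * (dinf p q : ℝ) = dinf p q / l + dinf p q / l := by ring
      linarith

theorem chi_floor {l : ℕ} (hl : 1 ≤ l) (x a : ℤ) :
    ∃ k : ℤ, (∀ b, b = k ∨ b = k + 1 → (a + l * b - x).natAbs ≤ l) ∧
      (∀ b, ¬ (b = k ∨ b = k + 1) → l ≤ (x - (a + l * b)).natAbs) ∧
      tent (((x - (a + l * k) : ℤ) : ℝ) / l) + tent (((x - (a + l * (k + 1)) : ℤ) : ℝ) / l) = 1 := by
  have hl' : (0 : ℤ) < l := by exact_mod_cast hl
  have h0 := Int.emod_nonneg (x - a) hl'.ne'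
  have h1 := Int.emod_lt_of_pos (x - a) hl'
  have h2 := Int.emod_add_mul_ediv (x - a) l
  refine ⟨(x - a) / l, ?_, ?_, ?_⟩
  · rintro b (rfl | rfl)
    · omega
    · rw [mul_add]; omega
  · intro b hb
    generalize (x - a) / l = k at *
    rcases lt_or_gt_of_ne (fun e => hb (Or.inl e)) with h | h
    · have : (l : ℤ) * (b + 1) ≤ l * k := by gcongr; omega
      rw [mul_add] at this
      omega
    · have : (l : ℤ) * (k + 2) ≤ l * b := by gcongr; omega
      rw [mul_add] at this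
      omega
  · have e1 : x - (a + l * ((x - a) / l)) = (x - a) % l := by omega
    have e2 : x - (a + l * ((x - a) / l + 1)) = (x - a) % l - l := by rw [mul_add]; omega
    rw [e1, e2]
    exact chi_tent_sum hl h0 h1.le

/-- Partition of unity.  With `k = ⌊z / l⌋`, `tent (z / l - k) + tent (z / l - (k + 1)) = 1` and
the other terms vanish; so the sum over any finite set `B` containing all cells whose centre is
within `l` of `p` equals the sum over the four cells `{k₁, k₁ + 1} ×ˢ {k₂, k₂ + 1}`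
(`Finset.sum_subset`, `Finset.sum_product`, `Finset.sum_mul_sum`). -/
theorem sum_chi (u : Z2) {l : ℕ} (hl : 1 ≤ l) (p : Z2) (B : Finset Z2)
    (hB : ∀ b, dinf (cen u l b) p ≤ l → b ∈ B) : ∑ b ∈ B, chi u l b p = 1 := by
  obtain ⟨k1, a1, b1, c1⟩ := chi_floor hl p.1 u.1
  obtain ⟨k2, a2, b2, c2⟩ := chi_floor hl p.2 u.2
  rw [← Finset.sum_subset (s₁ := ({k1, k1 + 1} : Finset ℤ) ×ˢ ({k2, k2 + 1} : Finset ℤ))]
  · rw [Finset.sum_product, Finset.sum_pair (by omega), Finset.sum_pair (by omega),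
      Finset.sum_pair (by omega)]
    simp only [chi, cen]
    rw [← mul_add, ← mul_add, ← add_mul, c1, c2, one_mul]
  · intro b hb
    simp only [Finset.mem_product, Finset.mem_insert, Finset.mem_singleton] at hb
    exact hB b (max_le (a1 _ hb.1) (a2 _ hb.2))
  · intro b _ hb
    simp only [Finset.mem_product, Finset.mem_insert, Finset.mem_singleton, not_and_or] at hb
    refine chi_eq_zero u hl ?_
    rcases hb with hb | hb
    · exact le_max_of_le_left (b1 _ hb)
    · exact le_max_of_le_right (b2 _ hb)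

end Crest.Agent.R167
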