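import Crest.Agent.R167.Geo

/-! # Row 167: counting edges and sites -/

set_option autoImplicit false

namespace Crest.Agent.R167

open MeasureTheory Matrix Crest.ProbabilityR.SpinModel

/-- `e ↦ (src e, direction)` is injective into `Icc ×ˢ Icc ×ˢ univ`. -/
theorem card_edges_near (V : Finset Z2) (c : Z2) (r : ℕ) :
    (Finset.univ.filter fun e : Edge V => dinf (src e) c ≤ r).card ≤ 2 * (2 * r + 1) ^ 2 := by
  have h : (Finset.univ.filter fun e : Edge V => dinf (src e) c ≤ r).card ≤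
      ((Finset.Icc (c.1 - r) (c.1 + r) ×ˢ Finset.Icc (c.2 - r) (c.2 + r)) ×ˢ
        (Finset.univ : Finset (Fin 2))).card := by
    refine Finset.card_le_card_of_injOn (fun e : Edge V => ((e.1.1 : Z2), e.1.2)) ?_ ?_
    · intro e he
      have h1 := (Finset.mem_filter.1 (Finset.mem_coe.1 he)).2
      simp only [dinf, src] at h1
      simp only [Finset.coe_product, Set.mem_prod, Finset.mem_coe, Finset.mem_Icc, Finset.mem_univ,
        and_true]
      omega
    · intro e _ e' _ h
      simp only [Prod.mk.injEq] at h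
      exact Subtype.ext (Prod.ext (Subtype.ext h.1) h.2)
  refine h.trans (le_of_eq ?_)
  simp only [Finset.card_product, Int.card_Icc, Finset.card_univ, Fintype.card_fin]
  have e1 : (c.1 + r + 1 - (c.1 - r)).toNat = 2 * r + 1 := by omega
  have e2 : (c.2 + r + 1 - (c.2 - r)).toNat = 2 * r + 1 := by omega
  rw [e1, e2]
  ring

/-- only edges with `dinf (src e) c ≤ r + 1` contribute (`dinf_src_tgt`), each at most `g ^ 2`
(`Lip.dd`). -/
theorem D2_le (V : Finset Z2) {θ : Z2 → ℝ} {c : Z2} {r : ℕ} {g : ℝ}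
    (h0 : ∀ p, r < dinf p c → θ p = 0) (hg : Lip θ g) :
    D2 V θ ≤ 2 * (2 * r + 3) ^ 2 * g ^ 2 := by
  have h1 : D2 V θ = ∑ e ∈ Finset.univ.filter (fun e : Edge V => dinf (src e) c ≤ r + 1),
      (dd θ e) ^ 2 := by
    refine (Finset.sum_filter_of_ne fun e _ he => ?_).symm
    by_contra hc
    apply he
    have h2 := dinf_src_tgt e
    have h3 : r < dinf (tgt e) c := by
      simp only [dinf] at hc h2 ⊢
      omega
    rw [dd, h0 _ (by omega), h0 _ h3]
    simp
  rw [h1]
  refine (Finset.sum_le_card_nsmul _ _ (g ^ 2) fun e _ => ?_).trans ?_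
  · have := hg.dd e
    rw [← sq_abs]
    exact pow_le_pow_left₀ (abs_nonneg _) this 2
  · rw [nsmul_eq_mul]
    refine mul_le_mul_of_nonneg_right ?_ (sq_nonneg g)
    have := card_edges_near V c (r + 1)
    have h3 : ((2 * (2 * (r + 1) + 1) ^ 2 : ℕ) : ℝ) = 2 * (2 * r + 3) ^ 2 := by push_cast; ring
    rw [← h3]
    exact_mod_cast this

/-- the boundary of a square lies in four segments of `2 R + 1` points (no need for the sharp
`8 R`). -/
theorem card_sphere_le (V : Finset Z2) (c : Z2) (R : ℕ) :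
    (Finset.univ.filter fun x : V => dinf x c = R).card ≤ 4 * (2 * R + 1) := by
  have h : (Finset.univ.filter fun x : V => dinf x c = R).card ≤
      ((({c.1 - R, c.1 + R} : Finset ℤ) ×ˢ Finset.Icc (c.2 - R) (c.2 + R)) ∪
        (Finset.Icc (c.1 - R) (c.1 + R) ×ˢ ({c.2 - R, c.2 + R} : Finset ℤ))).card := by
    refine Finset.card_le_card_of_injOn (fun x : V => (x : Z2)) ?_ Subtype.val_injective.injOn
    intro x hx
    have h1 := (Finset.mem_filter.1 (Finset.mem_coe.1 hx)).2
    simp only [dinf] at h1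
    simp only [Finset.mem_coe, Finset.mem_union, Finset.mem_product, Finset.mem_Icc,
      Finset.mem_insert, Finset.mem_singleton]
    omega
  refine h.trans ((Finset.card_union_le _ _).trans ?_)
  simp only [Finset.card_product, Int.card_Icc]
  have e1 : (c.1 + R + 1 - (c.1 - R)).toNat = 2 * R + 1 := by omega
  have e2 : (c.2 + R + 1 - (c.2 - R)).toNat = 2 * R + 1 := by omega
  rw [e1, e2]
  have c1 : ({c.1 - R, c.1 + R} : Finset ℤ).card ≤ 2 := Finset.card_le_two
  have c2 : ({c.2 - R, c.2 + R} : Finset ℤ).card ≤ 2 := Finset.card_le_two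
  nlinarith

/-- `cells` injects into a square of side `2 ⌊7 L / (2 l)⌋ + 1`, and `(7 L + l) ≤ 8 L`. -/
theorem card_cells (u : Z2) {L l : ℕ} (hl : 1 ≤ l) (hL : 10 * l ≤ L) :
    (cells u L l).card * l ^ 2 ≤ 64 * L ^ 2 := by
  set K : ℕ := 7 * L / (2 * l) with hK
  have hb : ∀ z : ℤ, 2 * ((l : ℤ) * z).natAbs ≤ 7 * L → z ∈ Finset.Icc (-(K : ℤ)) K := by
    intro z hz
    rw [Int.natAbs_mul, Int.natAbs_natCast] at hz
    have : z.natAbs ≤ K := (Nat.le_div_iff_mul_le (by omega)).2 (by nlinarith)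
    rw [Finset.mem_Icc]
    omega
  have h : cells u L l ⊆ Finset.Icc (-(K : ℤ)) K ×ˢ Finset.Icc (-(K : ℤ)) K := by
    intro b hb'
    have h1 := (Finset.mem_filter.1 hb').2.2
    simp only [dinf, cen, add_sub_cancel_left] at h1
    exact Finset.mem_product.2 ⟨hb _ (by omega), hb _ (by omega)⟩
  have h2 := Finset.card_le_card h
  simp only [Finset.card_product, Int.card_Icc] at h2
  have e1 : ((K : ℤ) + 1 - -(K : ℤ)).toNat = 2 * K + 1 := by omega
  rw [e1] at h2
  have h3 : K * (2 * l) ≤ 7 * L := Nat.div_mul_le_self _ _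
  have h4 : (2 * K + 1) * l ≤ 8 * L := by nlinarith
  calc (cells u L l).card * l ^ 2 ≤ (2 * K + 1) * (2 * K + 1) * l ^ 2 :=
        Nat.mul_le_mul_right _ h2
    _ = ((2 * K + 1) * l) ^ 2 := by ring
    _ ≤ (8 * L) ^ 2 := Nat.pow_le_pow_left h4 2
    _ = 64 * L ^ 2 := by ring

/-- `|u.1 + l * b.1 - p.1| ≤ 7 l` leaves at most `15` values of `b.1` (they lie in
`Icc (k - 7) (k + 7)` for `k = ⌈(p.1 - u.1) / l⌉` or so). -/
theorem card_cells_near (u p : Z2) (L : ℕ) {l : ℕ} (hl : 1 ≤ l) :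
    ((cells u L l).filter fun b => dinf (cen u l b) p ≤ 7 * l).card ≤ 225 := by
  have hb : ∀ a z : ℤ, (a + (l : ℤ) * z).natAbs ≤ 7 * l →
      z ∈ Finset.Icc (-(a / l) - 7) (-(a / l) + 7) := by
    intro a z hz
    have hl' : (0 : ℤ) < l := by exact_mod_cast hl
    have h1 := Int.mul_ediv_add_emod a l
    have h2 := Int.emod_nonneg a hl'.ne'
    have h3 := Int.emod_lt_of_pos a hl'
    have h4 : -(7 * (l : ℤ)) ≤ a + l * z := by omega
    have h5 : a + l * z ≤ 7 * (l : ℤ) := by omega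
    rw [Finset.mem_Icc]
    constructor
    · by_contra hc
      have : (l : ℤ) * (z + a / l + 8) ≤ 0 := mul_nonpos_of_nonneg_of_nonpos hl'.le (by omega)
      nlinarith
    · by_contra hc
      have : 0 ≤ (l : ℤ) * (z + a / l - 8) := mul_nonneg hl'.le (by omega)
      nlinarith
  have h : ((cells u L l).filter fun b => dinf (cen u l b) p ≤ 7 * l) ⊆
      Finset.Icc (-((u.1 - p.1) / l) - 7) (-((u.1 - p.1) / l) + 7) ×ˢ
        Finset.Icc (-((u.2 - p.2) / l) - 7) (-((u.2 - p.2) / l) + 7) := by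
    intro b hb'
    have h1 := (Finset.mem_filter.1 hb').2
    simp only [dinf, cen] at h1
    exact Finset.mem_product.2 ⟨hb _ _ (by omega), hb _ _ (by omega)⟩
  refine (Finset.card_le_card h).trans (le_of_eq ?_)
  simp only [Finset.card_product, Int.card_Icc]
  have e : ∀ k : ℤ, (k + 7 + 1 - (k - 7)).toNat = 15 := fun k => by omega
  rw [e, e]

end Crest.Agent.R167
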