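import Crest.Agent.R167.Chi
import Crest.Agent.R167.Count

/-! # Row 167: existence of the commutator families -/

set_option autoImplicit false

namespace Crest.Agent.R167

open MeasureTheory Matrix Crest.ProbabilityR.SpinModel

/-- In the active zone all the neighbouring cells belong to `cells`. -/
theorem mem_cells_of_near (u : Z2) {L l : ℕ} (hl : 1 ≤ l) (hL : 10 * l ≤ L) {p b : Z2}
    (h1 : 2 * L ≤ dinf p u) (h2 : dinf p u ≤ 3 * L) (hb : dinf (cen u l b) p ≤ l) :
    b ∈ cells u L l := by
  have t1 := dinf_triangle p (cen u l b) u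
  have t2 := dinf_triangle (cen u l b) p u
  rw [dinf_comm p (cen u l b)] at t1
  have key : ∀ z : ℤ, ((l : ℤ) * z).natAbs ≤ 4 * L → -(4 * L : ℤ) ≤ z ∧ z ≤ 4 * L := by
    intro z hz
    rw [Int.natAbs_mul, Int.natAbs_natCast] at hz
    have : z.natAbs ≤ l * z.natAbs := Nat.le_mul_of_pos_left _ hl
    omega
  have e : dinf (cen u l b) u = max ((l : ℤ) * b.1).natAbs ((l : ℤ) * b.2).natAbs := by
    simp [dinf, cen]
  simp only [cells, Finset.mem_filter, Finset.mem_product, Finset.mem_Icc]
  exact ⟨⟨key _ (by omega), key _ (by omega)⟩, by omega, by omega⟩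

theorem fam_chi_phi (u : Z2) (L : ℕ) {l : ℕ} (hl : 1 ≤ l) (b : Z2) {p q : Z2}
    (hpq : dinf p q ≤ 1) : chi u l b q * phi u L l b p =
      chi u l b q * (cut u (2 * L) L p - cut u (2 * L) L (cen u l b)) := by
  by_cases h : l ≤ dinf q (cen u l b)
  · rw [chi_eq_zero u hl h, zero_mul, zero_mul]
  · have := dinf_triangle p q (cen u l b)
    rw [phi, cut_eq_one hl (by omega), one_mul]

/-- Write `ψ₀ = cut u (2 L) L`.  If `chi b q ≠ 0` then `dinf q (cen b) < l`, so
`cut (cen b) (2 l) l p = 1`; hence the summand is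
`chi b q * (ψ₀ p - ψ₀ (cen b)) - chi b p * (ψ₀ q - ψ₀ (cen b))`, and the sum is
`(∑ chi b q + ∑ chi b p) * (ψ₀ p - ψ₀ q) - (ρ p - ρ q)`.  If `ψ₀ p ≠ ψ₀ q` then both `p`, `q`
satisfy `2 L ≤ dinf · u ≤ 3 L` (`cut_eq_one`, `cut_eq_zero`), so both sums are `1`
(`sum_chi`, `mem_cells_of_near`). -/
theorem fam_adm (u : Z2) {L l : ℕ} (hl : 1 ≤ l) (hL : 10 * l ≤ L) (p q : Z2)
    (hpq : dinf p q ≤ 1) :
    ∑ b ∈ cells u L l, (chi u l b q * phi u L l b p - phi u L l b q * chi u l b p) =
      psiS u L l p - psiS u L l q := by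
  have hqp : dinf q p ≤ 1 := by rwa [dinf_comm]
  have e : ∀ b ∈ cells u L l, chi u l b q * phi u L l b p - phi u L l b q * chi u l b p =
      (chi u l b q + chi u l b p) * (cut u (2 * L) L p - cut u (2 * L) L q) +
        chi u l b q * (cut u (2 * L) L q - cut u (2 * L) L (cen u l b)) -
        chi u l b p * (cut u (2 * L) L p - cut u (2 * L) L (cen u l b)) := by
    intro b _
    rw [fam_chi_phi u L hl b hpq, mul_comm (phi u L l b q), fam_chi_phi u L hl b hqp]
    ring
  rw [Finset.sum_congr rfl e, Finset.sum_sub_distrib, Finset.sum_add_distrib, ← Finset.sum_mul,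
    Finset.sum_add_distrib, psiS, psiS]
  by_cases h : cut u (2 * L) L p = cut u (2 * L) L q
  · rw [h]; ring
  · have hL1 : 1 ≤ L := by omega
    have t1 := dinf_triangle p q u
    have t2 := dinf_triangle q p u
    have a1 : 2 * L ≤ dinf p u := by
      by_contra h'
      exact h (by rw [cut_eq_one hL1 (by omega), cut_eq_one hL1 (by omega)])
    have a2 : 2 * L ≤ dinf q u := by
      by_contra h'
      exact h (by rw [cut_eq_one hL1 (by omega), cut_eq_one hL1 (by omega)])
    have a3 : dinf p u ≤ 3 * L := by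
      by_contra h'
      exact h (by rw [cut_eq_zero (by omega), cut_eq_zero (by omega)])
    have a4 : dinf q u ≤ 3 * L := by
      by_contra h'
      exact h (by rw [cut_eq_zero (by omega), cut_eq_zero (by omega)])
    rw [sum_chi u hl p _ fun b hb => mem_cells_of_near u hl hL a1 a3 hb,
      sum_chi u hl q _ fun b hb => mem_cells_of_near u hl hL a2 a4 hb]
    ring

/-- all `chi b p`, `b ∈ cells`, vanish (`chi_eq_zero`) -/
theorem psiS_in (u : Z2) {L l : ℕ} (hl : 1 ≤ l) (hL : 10 * l ≤ L) {p : Z2}
    (hp : dinf p u ≤ L) : psiS u L l p = 2 := by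
  rw [psiS, cut_eq_one (by omega) (by omega), Finset.sum_eq_zero]
  · norm_num
  · intro b hb
    simp only [cells, Finset.mem_filter] at hb
    have t := dinf_triangle (cen u l b) p u
    rw [dinf_comm (cen u l b) p] at t
    rw [chi_eq_zero u hl (by omega), zero_mul]

theorem psiS_out (u : Z2) {L l : ℕ} (hl : 1 ≤ l) (hL : 10 * l ≤ L) {p : Z2}
    (hp : 4 * L < dinf p u) : psiS u L l p = 0 := by
  rw [psiS, cut_eq_zero (by omega), Finset.sum_eq_zero]
  · norm_num
  · intro b hb
    simp only [cells, Finset.mem_filter] at hb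
    have t := dinf_triangle p (cen u l b) u
    rw [chi_eq_zero u hl (by omega), zero_mul]

/-- `T = cells ×ˢ univ`, `θ (b, true) = chi b`, `φ (b, true) = phi b`, `θ (b, false) = phi b`,
`φ (b, false) = - chi b`, sizes `2` for `chi` and `4 l / L` for `phi` (`cutoff_spec` with
`lip_cut u (2 L)`), `ctr (b, _) = cen u l b`, `ψ = psiS u L l`. -/
theorem exists_SF (u : Z2) {L l : ℕ} (hl : 1 ≤ l) (hL : 10 * l ≤ L) : Nonempty (SF u L l) := by
  have hL1 : 1 ≤ L := by omega
  have hl0 : (0 : ℝ) < l := by exact_mod_cast hl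
  have hL0 : (0 : ℝ) < L := by exact_mod_cast hL1
  have hs := fun b => cutoff_spec (cen u l b) (2 * l) hl (lip_cut u (2 * L) hL1)
  have c0 : ∀ b p, 3 * l < dinf p (cen u l b) → chi u l b p = 0 := fun b p h =>
    chi_eq_zero u hl (by omega)
  have p0 : ∀ b p, 3 * l < dinf p (cen u l b) → phi u L l b p = 0 := fun b p h => by
    unfold phi
    rw [cut_eq_zero (by omega), zero_mul]
  have cb : ∀ b p, |chi u l b p| ≤ 2 := fun b p => by
    rw [abs_of_nonneg (chi_nonneg u l b p)]
    exact (chi_le_one u l b p).trans one_le_two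
  have pb : ∀ b p, |phi u L l b p| ≤ 4 * l / L := fun b p => by
    refine ((hs b).1 p).trans ?_
    push_cast
    rw [one_div_mul_eq_div]
    gcongr
    linarith
  have pl : ∀ b, Lip (phi u L l b) (4 * l / L / l) := fun b => by
    have e : (4 * l / L / l : ℝ) = 1 / L * ((((2 * l : ℕ) : ℝ) + l) / l + 1) := by
      push_cast
      field_simp
      ring
    rw [e]
    exact (hs b).2
  have cl : ∀ b, Lip (fun p => -chi u l b p) (2 / l) := fun b p q => by
    have := lip_chi u hl b p q
    rwa [neg_sub_neg, abs_sub_comm]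
  refine ⟨
    { T := cells u L l ×ˢ Finset.univ
      θ := fun k => if k.2 then chi u l k.1 else phi u L l k.1
      φ := fun k => if k.2 then phi u L l k.1 else fun p => -chi u l k.1 p
      mθ := fun k => if k.2 then 2 else 4 * l / L
      mφ := fun k => if k.2 then 4 * l / L else 2
      ctr := fun k => cen u l k.1
      ψ := psiS u L l
      adm := fun p q hpq => ?_
      suppθ := ?_
      suppφ := ?_
      bθ := ?_
      bφ := ?_
      lipθ := ?_
      lipφ := ?_
      mm := ?_
      ctr_lo := fun k hk => (Finset.mem_filter.1 (Finset.mem_product.1 hk).1).2.1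
      ctr_hi := fun k hk => (Finset.mem_filter.1 (Finset.mem_product.1 hk).1).2.2
      card := ?_
      near := fun p => ?_
      ψ_in := fun p hp => psiS_in u hl hL hp
      ψ_out := fun p hp => psiS_out u hl hL hp }⟩
  · rw [← fam_adm u hl hL p q hpq, Finset.sum_product]
    refine Finset.sum_congr rfl fun b _ => ?_
    simp only [Fintype.sum_bool, if_true, Bool.false_eq_true, if_false]
    ring
  · rintro ⟨b, _ | _⟩ p h
    · exact p0 b p h
    · exact c0 b p h
  · rintro ⟨b, _ | _⟩ p h
    · exact neg_eq_zero.2 (c0 b p h)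
    · exact p0 b p h
  · rintro ⟨b, _ | _⟩ p
    · exact pb b p
    · exact cb b p
  · rintro ⟨b, _ | _⟩ p
    · exact (abs_neg _).trans_le (cb b p)
    · exact pb b p
  · rintro ⟨b, _ | _⟩
    · exact pl b
    · exact lip_chi u hl b
  · rintro ⟨b, _ | _⟩
    · exact cl b
    · exact pl b
  · rintro ⟨b, _ | _⟩
    · change (4 * l / L : ℝ) * 2 ≤ _
      apply le_of_eq
      ring
    · change (2 : ℝ) * (4 * l / L) ≤ _
      apply le_of_eq
      ring
  · have := card_cells u hl hL
    rw [Finset.card_product, Finset.card_univ, Fintype.card_bool]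
    nlinarith
  · have := card_cells_near u p L hl
    rw [Finset.filter_product_left (fun b => dinf (cen u l b) p ≤ 7 * l), Finset.card_product,
      Finset.card_univ, Fintype.card_bool]
    omega

end Crest.Agent.R167
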