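import Crest.Agent.R167.Bil

/-! # Row 167: Ward identities from quasi-invariance -/

set_option autoImplicit false

namespace Crest.Agent.R167

open MeasureTheory Matrix Crest.ProbabilityR.SpinModel

variable {n : ℕ} {V : Finset Z2} {c : Fin 3 ↪ Fin n} {β : Edge V → ℝ} {Λ : Finset V}
  {μ : Measure (SpinConfig n V)} {β₀ : ℝ}

/-- differentiation under the integral for bounded families -/
theorem ward_deriv [IsFiniteMeasure μ] {G G' : ℝ → SpinConfig n V → ℝ} (hG : ∀ s, Bdd (G s))
    (hG' : ∀ s, Measurable (G' s)) {C : ℝ} (hC : ∀ s σ, |G' s σ| ≤ C)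
    (hd : ∀ s σ, HasDerivAt (fun s => G s σ) (G' s σ) s) (t : ℝ) :
    HasDerivAt (fun s => ∫ σ, G s σ ∂μ) (∫ σ, G' t σ ∂μ) t :=
  (hasDerivAt_integral_of_dominated_loc_of_deriv_le (μ := μ) (F := G) (F' := G') (s := Set.univ)
    (bound := fun _ => C) Filter.univ_mem
    (Filter.Eventually.of_forall fun s => (hG s).1.aestronglyMeasurable) ((hG t).integrable μ)
    (hG' t).aestronglyMeasurable (Filter.Eventually.of_forall fun σ s _ => hC s σ)
    (integrable_const C) (Filter.Eventually.of_forall fun σ s _ => hd s σ)).2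

theorem ward_meas (c : Fin 3 ↪ Fin n) (a : Fin 3) (θ : Z2 → ℝ) (t : ℝ) :
    Measurable (flow c a θ t : SpinConfig n V → SpinConfig n V) := measurable_act c _

/-- By `QI` the function is `s ↦ ∫ F σ * exp (En (flow (-s) σ) - En σ)`.  Differentiate under the
integral (`hasDerivAt_integral_of_dominated_loc_of_deriv_le`, all functions are bounded;
`(hasX_En ..).hasDerivAt`): the derivative is `∫ F σ * sc (flow (-t) σ) * exp (..)`, which by `QI`
applied to `fun σ => F σ * sc (flow (-t) σ)` (and `flow_add`, `flow_zero`) is the claimed value. -/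
theorem QI.hasDerivAt [IsFiniteMeasure μ] (h : QI c β Λ μ) (a : Fin 3) {θ : Z2 → ℝ}
    (hθ : Supp Λ θ) {F : SpinConfig n V → ℝ} (hF : Bdd F) (t : ℝ) :
    HasDerivAt (fun s => ∫ σ, F (flow c a θ s σ) ∂μ)
      (∫ σ, F (flow c a θ t σ) * sc c β a θ σ ∂μ) t := by
  have hE : ∀ s, Bdd fun σ : SpinConfig n V => Real.exp (En β (flow c a θ (-s) σ) - En β σ) :=
    fun s => (((bdd_En β).comp (ward_meas c a θ (-s))).sub (bdd_En β)).exp
  have hS : ∀ s, Bdd fun σ : SpinConfig n V => F σ * sc c β a θ (flow c a θ (-s) σ) :=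
    fun s => hF.mul ((bdd_sc c β a θ).comp (ward_meas c a θ (-s)))
  obtain ⟨C1, h1⟩ := hF.2
  obtain ⟨C2, h2⟩ := (bdd_sc c β a θ).2
  obtain ⟨C3, h3⟩ := (bdd_En (n := n) β).2
  have key := ward_deriv (μ := μ)
    (G := fun s σ => F σ * Real.exp (En β (flow c a θ (-s) σ) - En β σ))
    (G' := fun s σ => F σ * sc c β a θ (flow c a θ (-s) σ) *
      Real.exp (En β (flow c a θ (-s) σ) - En β σ))
    (fun s => hF.mul (hE s)) (fun s => ((hS s).mul (hE s)).1) (C := C1 * C2 * Real.exp (C3 + C3))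
    (fun s σ => by
      rw [abs_mul, abs_mul, abs_of_pos (Real.exp_pos _)]
      have h4 : En β (flow c a θ (-s) σ) - En β σ ≤ C3 + C3 := by
        linarith [(abs_le.1 (h3 (flow c a θ (-s) σ))).2, (abs_le.1 (h3 σ)).1]
      have h5 : 0 ≤ C1 := (abs_nonneg _).trans (h1 σ)
      have h6 : 0 ≤ C2 := (abs_nonneg _).trans (h2 σ)
      exact mul_le_mul (mul_le_mul (h1 σ) (h2 _) (abs_nonneg _) h5) (Real.exp_le_exp.2 h4)
        (Real.exp_pos _).le (mul_nonneg h5 h6))
    (fun s σ => by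
      have h4 := ((hasX_En c β a θ).hasDerivAt σ (-s)).comp s (hasDerivAt_neg s)
      have h5 := ((h4.sub_const (En β σ)).exp).const_mul (F σ)
      refine h5.congr_deriv ?_
      simp only [Function.comp]
      ring) t
  have e1 : (fun s => ∫ σ, F (flow c a θ s σ) ∂μ) =
      fun s => ∫ σ, F σ * Real.exp (En β (flow c a θ (-s) σ) - En β σ) ∂μ :=
    funext fun s => h a θ hθ s F hF
  have e2 := h a θ hθ t _ (hS t)
  simp only [flow_add, neg_add_cancel, flow_zero] at e2
  rw [e1, e2]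
  exact key

/-- Differentiate `s ↦ ∫ f (flow s σ)` under the integral at `0` (`HasX.hasDerivAt`) and compare
with `QI.hasDerivAt` (`HasDerivAt.unique`). -/
theorem QI.ward [IsFiniteMeasure μ] (h : QI c β Λ μ) : Ward c β Λ μ := by
  intro a θ hθ f f' hf hf' hX
  obtain ⟨C, hC⟩ := hf'.2
  have h1 := ward_deriv (μ := μ) (G := fun s σ => f (flow c a θ s σ))
    (G' := fun s σ => f' (flow c a θ s σ)) (fun s => hf.comp (ward_meas c a θ s))
    (fun s => (hf'.comp (ward_meas c a θ s)).1) (C := C) (fun s σ => hC _)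
    (fun s σ => hX.hasDerivAt σ s) 0
  have h2 := h1.unique (h.hasDerivAt a hθ hf 0)
  simpa only [flow_zero] using h2

end Crest.Agent.R167
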