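import Crest.Agent.R167.Est
import Crest.Agent.R167.Ward
import Crest.Agent.R167.Fam

/-! # Row 167: contraction of odd observables across an annulus -/

set_option autoImplicit false

namespace Crest.Agent.R167

open MeasureTheory Matrix Crest.ProbabilityR.SpinModel

variable {n : ℕ} {V : Finset Z2} {c : Fin 3 ↪ Fin n} {β : Edge V → ℝ} {Λ : Finset V}
  {μ : Measure (SpinConfig n V)} {β₀ : ℝ}

/-- `g t = ∫ F (flow c 2 ψ t σ)` has derivative `∫ F (flow ..) * sc 2 ψ = - ∫ F (flow ..) * Q`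
(`QI.hasDerivAt`, `horth` for `G = F ∘ flow`, which depends only on `U`), of absolute value at most
`M * ε` (`abs_integral_mul_le`).  `F (flow (π / lam) σ) = F (halfTurn σ) = - F σ`.  Mean value
inequality (`Convex.norm_image_sub_le_of_norm_hasDerivWithin_le` on `univ`). -/
theorem contr_abs [IsProbabilityMeasure μ] (h : QI c β Λ μ) {ψ : Z2 → ℝ} (hψ : Supp Λ ψ)
    {U : Set V} {lam : ℝ} (hlam : 0 < lam) (hU : ∀ x ∈ U, ψ x = lam)
    {Q : SpinConfig n V → ℝ} (hQ : Bdd Q) {ε : ℝ} (hε : 0 ≤ ε) (hQ2 : ∫ σ, Q σ ^ 2 ∂μ ≤ ε ^ 2)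
    (horth : ∀ G : SpinConfig n V → ℝ, Bdd G → DependsOn G U →
      ∫ σ, G σ * (Q σ + sc c β 2 ψ σ) ∂μ = 0)
    {F : SpinConfig n V → ℝ} {M : ℝ} (hF : Bdd F) (hM : ∀ σ, |F σ| ≤ M) (hFU : DependsOn F U)
    (hodd : ∀ σ, F (halfTurn c σ) = -F σ) :
    |∫ σ, F σ ∂μ| ≤ Real.pi / (2 * lam) * M * ε := by
  have hG : ∀ t, Bdd fun σ => F (flow c 2 ψ t σ) := fun t => hF.comp (measurable_act c _)
  have hM0 : ∀ _ : SpinConfig n V, 0 ≤ M := fun σ => (abs_nonneg _).trans (hM σ)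
  have hM1 : 0 ≤ M := by
    obtain ⟨σ, -⟩ := nonempty_of_measure_ne_zero (μ := μ) (s := Set.univ) (by simp)
    exact hM0 σ
  have hder : ∀ t, ‖∫ σ, F (flow c 2 ψ t σ) * sc c β 2 ψ σ ∂μ‖ ≤ M * ε := by
    intro t
    have h1 := horth _ (hG t) fun σ σ' hσ => hFU fun x hx => by
      simp only [flow, act, hσ x hx]
    simp only [mul_add] at h1
    rw [integral_add (((hG t).mul hQ).integrable μ) (((hG t).mul (bdd_sc c β 2 ψ)).integrable μ)] at h1
    rw [eq_neg_of_add_eq_zero_right h1, norm_neg, Real.norm_eq_abs]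
    refine abs_integral_mul_le μ (hG t) hQ hM1 hε ?_ hQ2
    refine (integral_mono (((hG t).pow 2).integrable μ) (integrable_const (M ^ 2)) fun σ => ?_).trans
      (by simp)
    exact sq_le_sq' (abs_le.1 (hM _)).1 (abs_le.1 (hM _)).2
  have hmv := (convex_univ (𝕜 := ℝ) (E := ℝ)).norm_image_sub_le_of_norm_hasDerivWithin_le
    (f := fun s => ∫ σ, F (flow c 2 ψ s σ) ∂μ)
    (fun t _ => (h.hasDerivAt 2 hψ hF t).hasDerivWithinAt) (fun t _ => hder t)
    (Set.mem_univ 0) (Set.mem_univ (Real.pi / lam))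
  have h0 : ∫ σ, F (flow c 2 ψ 0 σ) ∂μ = ∫ σ, F σ ∂μ := by simp only [flow_zero]
  have h1 : ∫ σ, F (flow c 2 ψ (Real.pi / lam) σ) ∂μ = -∫ σ, F σ ∂μ := by
    rw [← integral_neg]
    refine integral_congr_ae (Filter.Eventually.of_forall fun σ => ?_)
    refine Eq.trans (hFU fun x hx => ?_) (hodd σ)
    simp only [flow, halfTurn, act, hU x hx, div_mul_cancel₀ _ hlam.ne']
  rw [h0, h1, sub_zero, Real.norm_eq_abs, Real.norm_of_nonneg (by positivity),
    show -∫ σ, F σ ∂μ - ∫ σ, F σ ∂μ = -(2 * ∫ σ, F σ ∂μ) by ring, abs_neg, abs_mul,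
    abs_two] at hmv
  rw [show Real.pi / (2 * lam) * M * ε = M * ε * (Real.pi / lam) / 2 by field_simp]
  linarith

/-- Take `N ≥ 300 * Kc β₀`, `N ≥ 1`, `L₀ = 10 * 2 ^ N`, families `F j` from `exists_SF`,
`Q = ∑ j, Qf 0 (F j)`, `ψ = ∑ j, (F j).ψ` (`sc_sum`), `lam = 2 N`, `ε = √(3 Kc N)` (`tot`).
Orthogonality: `score` with `a = 0`, `G1 = G2 = 0` (`hasX_of_dependsOn`, `SF.zero_in`,
`HasX.const`). -/
theorem contraction (β₀ : ℝ) (hβ₀ : 0 ≤ β₀) : ∃ L₀ : ℕ, 1 ≤ L₀ ∧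
    ∀ (n : ℕ) (V : Finset Z2) (c : Fin 3 ↪ Fin n) (β : Edge V → ℝ), Adm0 β₀ β →
    ∀ (u : Z2) (L : ℕ), L₀ ≤ L → ∀ (μ : Measure (SpinConfig n V)), IsProbabilityMeasure μ →
    QI c β (box V u (4 * L)) μ → ∀ (F : SpinConfig n V → ℝ) (M : ℝ), Bdd F → (∀ σ, |F σ| ≤ M) →
    DependsOn F (box V u L : Set V) → (∀ σ, F (halfTurn c σ) = -F σ) →
    |∫ σ, F σ ∂μ| ≤ M / 10 := by
  obtain ⟨N, hN1, hN⟩ : ∃ N : ℕ, 1 ≤ N ∧ 300 * Kc β₀ ≤ N :=
    ⟨⌈300 * Kc β₀⌉₊ + 1, by omega, by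
      push_cast
      linarith [Nat.le_ceil (300 * Kc β₀)]⟩
  have hNpos : (0 : ℝ) < N := by exact_mod_cast hN1
  refine ⟨10 * 2 ^ N, Nat.succ_le_of_lt (by positivity), ?_⟩
  intro n V c β hβ u L hL μ hμ hQI F M hF hM hFU hodd
  have hj1 : ∀ j : Fin N, 1 ≤ 2 ^ (j : ℕ) := fun j => Nat.one_le_two_pow
  have hj2 : ∀ j : Fin N, 10 * 2 ^ (j : ℕ) ≤ L := fun j =>
    le_trans (Nat.mul_le_mul_left _ (Nat.pow_le_pow_right (by norm_num) j.2.le)) hL
  let S : ∀ j : Fin N, SF u L (2 ^ (j : ℕ)) := fun j => (exists_SF u (hj1 j) (hj2 j)).some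
  have hW := hQI.ward
  have hM0 : 0 ≤ M := by
    obtain ⟨σ⟩ := nonempty_of_isProbabilityMeasure μ
    exact (abs_nonneg _).trans (hM σ)
  have hbox : ∀ x ∈ (box V u L : Set V), dinf x u ≤ L := fun x hx => by
    simpa [box] using hx
  have key := contr_abs (c := c) (β := β) (μ := μ) hQI (ψ := fun p => ∑ j, (S j).ψ p)
    (fun x hx => Finset.sum_eq_zero fun j _ => (S j).supp_ψ x hx)
    (U := (box V u L : Set V)) (lam := 2 * N) (by positivity)
    (fun x hx => by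
      rw [Finset.sum_congr rfl fun j _ => (S j).ψ_in _ (hbox x hx)]
      simp [mul_comm])
    (Q := fun σ => ∑ j, Qf c β 0 (S j).T (S j).θ (S j).φ σ)
    (Bdd.sum fun j _ => bdd_Qf c β _ _ _ _) (ε := N / 10) (by positivity)
    ((tot hβ hβ₀ hW hL S).trans (by nlinarith))
    (fun G hG hGU => by
      have h1 : ∀ j : Fin N, ∫ σ, G σ * (Qf c β 0 (S j).T (S j).θ (S j).φ σ +
          sc c β 2 (S j).ψ σ) ∂μ = 0 := fun j => by
        have := score hW (S j).adm (fun k hk => (S j).supp (hj2 j) hk) 0 (G := G)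
          (G1 := fun _ _ => 0) (G2 := fun _ _ => 0) hG (fun k hk =>
            ⟨Bdd.const 0, Bdd.const 0, hasX_of_dependsOn 0
              (fun x hx => ((S j).zero_in (hj1 j) (hj2 j) hk (hbox x hx)).1) hGU,
              HasX.const _ _ 0⟩)
        simpa using this
      have h2 : ∀ σ, G σ * (∑ j, Qf c β 0 (S j).T (S j).θ (S j).φ σ +
          sc c β 2 (fun p => ∑ j, (S j).ψ p) σ) =
          ∑ j, G σ * (Qf c β 0 (S j).T (S j).θ (S j).φ σ + sc c β 2 (S j).ψ σ) := fun σ => by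
        rw [sc_sum, ← Finset.sum_add_distrib, Finset.mul_sum]
      simp only [h2]
      rw [integral_finsetSum _ fun j _ =>
        (hG.mul ((bdd_Qf c β _ _ _ _).add (bdd_sc c β _ _))).integrable μ]
      exact Finset.sum_eq_zero fun j _ => h1 j)
    hF hM hFU hodd
  refine key.trans ?_
  have e : Real.pi / (2 * (2 * N)) * M * (N / 10) = Real.pi / 4 * (M / 10) := by
    field_simp
    ring
  rw [e]
  have : Real.pi / 4 ≤ 1 := by linarith [Real.pi_le_four]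
  exact mul_le_of_le_one_left (by positivity) this

end Crest.Agent.R167
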