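import Crest.Agent.R167.Alg

/-! # Row 167: the cyclic identity -/

set_option autoImplicit false

namespace Crest.Agent.R167

open MeasureTheory Matrix Crest.ProbabilityR.SpinModel

variable {n : ℕ} {V : Finset Z2} {c : Fin 3 ↪ Fin n} {β : Edge V → ℝ} {Λ : Finset V}
  {μ : Measure (SpinConfig n V)} {β₀ : ℝ}

variable {T T' : Finset Ix} {θ φ θ' φ' : Ix → Z2 → ℝ} {ψ ψ' : Z2 → ℝ}

/-- the cross terms that remain in `E (Q Q')` -/
noncomputable def Cr (c : Fin 3 ↪ Fin n) (β : Edge V → ℝ) (a : Fin 3) (θ φ θ' φ' : Z2 → ℝ)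
    (σ : SpinConfig n V) : ℝ :=
  Yf c β a θ a θ' σ * Yf c β (a + 1) φ (a + 1) φ' σ +
    Yf c β (a + 1) φ a θ' σ * Yf c β a θ (a + 1) φ' σ

def Mtwo (a : Fin 3) : M3 :=
  Lm a * Lm (a + 2) * Lm (a + 1) - Lm (a + 1) * Lm (a + 2) * Lm a + Lm (a + 2) * Lm (a + 2)

def Nst (a b : Fin 3) : M3 := Lm b * Lm a * Lm a - Lm a * Lm a * Lm b

def Nnd (a b : Fin 3) : M3 := Lm b * Lm b * Lm a - Lm a * Lm b * Lm b

def Mthree (a : Fin 3) : M3 :=
  (Nst a (a + 1) * Lm (a + 1) - Lm (a + 1) * Nst a (a + 1)) -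
    (Nnd a (a + 1) * Lm a - Lm a * Nnd a (a + 1))

theorem bdd_Cr (a : Fin 3) (θ φ θ' φ' : Z2 → ℝ) : Bdd (Cr c β a θ φ θ' φ') :=
  ((bdd_Yf c β _ _ _ _).mul (bdd_Yf c β _ _ _ _)).add
    ((bdd_Yf c β _ _ _ _).mul (bdd_Yf c β _ _ _ _))

/-- the cyclic sum vanishes (each `Mthree a - Mtwo a` is `diag (3, 3, -6)` up to rotation) -/
theorem sum_Mthree_sub : ∑ a : Fin 3, (Mthree a - Mtwo a) = 0 := by
  have e1 : (0 : Fin 3) + 1 = 1 := rfl
  have e2 : (0 : Fin 3) + 2 = 2 := rfl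
  have e3 : (1 : Fin 3) + 1 = 2 := rfl
  have e4 : (1 : Fin 3) + 2 = 0 := rfl
  have e5 : (2 : Fin 3) + 1 = 0 := rfl
  have e6 : (2 : Fin 3) + 2 = 1 := rfl
  have l0 : Lm 0 = !![0, 0, 0; 0, 0, -1; 0, 1, 0] := rfl
  have l1 : Lm 1 = !![0, 0, 1; 0, 0, 0; -1, 0, 0] := rfl
  have l2 : Lm 2 = !![0, -1, 0; 1, 0, 0; 0, 0, 0] := rfl
  rw [Fin.sum_univ_three]
  simp only [Mthree, Mtwo, Nst, Nnd, e1, e2, e3, e4, e5, e6, l0, l1, l2, sub_mul, mul_sub,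
    Matrix.mul_fin_three]
  ext i j
  fin_cases i <;> fin_cases j <;> norm_num

/-- `score` for the primed family with `G = sc (a+2) ψ`, `G1 k = bil (dX a (θ' k) (sM ..))`,
`G2 k = bil (dX (a+1) (φ' k) (dX a (θ' k) (sM ..)))`, summed with `alg1`; and Ward `(a+2, ψ')`
for `sc (a+2) ψ`, which gives `E (s s') = E bil ((- dd ψ * dd ψ') • C * C)`. -/
theorem sc_mul_Qf [IsFiniteMeasure μ] (hW : Ward c β Λ μ) (h' : Adm T' θ' φ' ψ')
    (hs' : ∀ k ∈ T', Supp Λ (θ' k) ∧ Supp Λ (φ' k)) (hψ' : Supp Λ ψ') (ψ : Z2 → ℝ) (a : Fin 3) :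
    ∫ σ, sc c β (a + 2) ψ σ * Qf c β a T' θ' φ' σ ∂μ =
      ∫ σ, bil c β (fun e => (dd ψ e * dd ψ' e) • Mtwo a) σ ∂μ := by
  have e1 := score hW h' hs' a (G := sc c β (a + 2) ψ)
    (G1 := fun k => bil c β (dX a (θ' k) (sM (a + 2) ψ)))
    (G2 := fun k => bil c β (dX (a + 1) (φ' k) (dX a (θ' k) (sM (a + 2) ψ))))
    (bdd_sc c β _ _) fun k _ => ⟨bdd_bil c β _, bdd_bil c β _, hasX_bil c β _ _ _,
      hasX_bil c β _ _ _⟩
  have e2 := hW (a + 2) ψ' hψ' _ _ (bdd_sc c β (a + 2) ψ) (bdd_Yf c β _ _ _ _)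
    (hasX_sc c β (a + 2) ψ' (a + 2) ψ)
  rw [← integral_finsetSum _ fun k _ => (bdd_bil c β _).integrable μ] at e1
  simp only [mul_add] at e1
  rw [integral_add (((bdd_sc c β _ _).mul (bdd_Qf c β _ _ _ _)).integrable μ)
    (((bdd_sc c β _ _).mul (bdd_sc c β _ _)).integrable μ), ← e2] at e1
  rw [eq_sub_of_add_eq e1, ← integral_sub
    ((Bdd.sum fun k _ => bdd_bil c β _).integrable μ) ((bdd_Yf c β _ _ _ _).integrable μ)]
  congr 1
  funext σ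
  rw [← bil_sum, Yf, ← bil_sub]
  congr 1
  funext e
  rw [alg1 h']
  simp only [dX, sM, Mtwo, smul_mul_assoc, mul_smul_comm]
  have : dd ψ' e = ψ' (src e) - ψ' (tgt e) := rfl
  rw [this]
  module

/-- `score` for the unprimed family with `G = Qf'`.  With `A = a`, `B = a + 1`, `s = sc A (θ' k')`,
`s' = sc B (φ' k')`:
`X_B X_A (s s') = (X_B X_A s) s' + (X_A s) (X_B s') + (X_B s) (X_A s') + s (X_B X_A s')`.
Summing over `k` (`alg1`): `∑ X_B X_A s = bil ((- dd (θ' k')) • (dd ψ • Nst A B))` and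
`∑ X_B X_A s' = bil ((- dd (φ' k')) • (dd ψ • Nnd A B))`.  Then Ward `(B, φ' k')`, resp.
`(A, θ' k')`, and the sums over `k'` by `alg2`, resp. `alg3`. -/
theorem Qf_mul_score [IsFiniteMeasure μ] (hW : Ward c β Λ μ) (h : Adm T θ φ ψ)
    (hs : ∀ k ∈ T, Supp Λ (θ k) ∧ Supp Λ (φ k)) (h' : Adm T' θ' φ' ψ')
    (hs' : ∀ k ∈ T', Supp Λ (θ' k) ∧ Supp Λ (φ' k)) (a : Fin 3) :
    ∫ σ, Qf c β a T' θ' φ' σ * (Qf c β a T θ φ σ + sc c β (a + 2) ψ σ) ∂μ =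
      ∑ k ∈ T, ∑ k' ∈ T', ∫ σ, Cr c β a (θ k) (φ k) (θ' k') (φ' k') σ ∂μ +
        ∫ σ, bil c β (fun e => (dd ψ e * dd ψ' e) • Mthree a) σ ∂μ := by
  -- notation
  obtain ⟨s, hs0⟩ : ∃ s : Ix → SpinConfig n V → ℝ, s = fun k' => sc c β a (θ' k') := ⟨_, rfl⟩
  obtain ⟨s', hs0'⟩ : ∃ s' : Ix → SpinConfig n V → ℝ, s' = fun k' => sc c β (a + 1) (φ' k') :=
    ⟨_, rfl⟩
  obtain ⟨u, hu⟩ : ∃ u : Ix → Ix → SpinConfig n V → ℝ, u = fun k k' =>
    bil c β (dX (a + 1) (φ k) (dX a (θ k) (sM a (θ' k')))) := ⟨_, rfl⟩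
  obtain ⟨u', hu'⟩ : ∃ u' : Ix → Ix → SpinConfig n V → ℝ, u' = fun k k' =>
    bil c β (dX (a + 1) (φ k) (dX a (θ k) (sM (a + 1) (φ' k')))) := ⟨_, rfl⟩
  have bs : ∀ k', Bdd (s k') := fun k' => by rw [hs0]; exact bdd_sc c β _ _
  have bs' : ∀ k', Bdd (s' k') := fun k' => by rw [hs0']; exact bdd_sc c β _ _
  have bu : ∀ k k', Bdd (u k k') := fun k k' => by rw [hu]; exact bdd_bil c β _
  have bu' : ∀ k k', Bdd (u' k k') := fun k k' => by rw [hu']; exact bdd_bil c β _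
  have e1 := score hW h hs a (G := Qf c β a T' θ' φ')
    (G1 := fun k σ => ∑ k' ∈ T', (Yf c β a (θ k) a (θ' k') σ * s' k' σ +
      s k' σ * Yf c β a (θ k) (a + 1) (φ' k') σ))
    (G2 := fun k σ => ∑ k' ∈ T', ((u k k' σ * s' k' σ +
      Yf c β a (θ k) a (θ' k') σ * Yf c β (a + 1) (φ k) (a + 1) (φ' k') σ) +
      (Yf c β (a + 1) (φ k) a (θ' k') σ * Yf c β a (θ k) (a + 1) (φ' k') σ +
        s k' σ * u' k k' σ)))
    (bdd_Qf c β _ _ _ _) fun k _ => by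
      refine ⟨Bdd.sum fun k' _ => ((bdd_Yf c β _ _ _ _).mul (bs' k')).add
        ((bs k').mul (bdd_Yf c β _ _ _ _)), Bdd.sum fun k' _ =>
          (((bu k k').mul (bs' k')).add ((bdd_Yf c β _ _ _ _).mul (bdd_Yf c β _ _ _ _))).add
          (((bdd_Yf c β _ _ _ _).mul (bdd_Yf c β _ _ _ _)).add ((bs k').mul (bu' k k'))), ?_, ?_⟩
      · rw [hs0, hs0']
        exact HasX.sum fun k' _ => (hasX_sc c β a (θ k) a (θ' k')).mul
          (hasX_sc c β a (θ k) (a + 1) (φ' k'))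
      · rw [hs0, hs0', hu, hu']
        exact HasX.sum fun k' _ =>
          ((hasX_bil c β (a + 1) (φ k) (dX a (θ k) (sM a (θ' k')))).mul
            (hasX_sc c β (a + 1) (φ k) (a + 1) (φ' k'))).add
          ((hasX_sc c β (a + 1) (φ k) a (θ' k')).mul
            (hasX_bil c β (a + 1) (φ k) (dX a (θ k) (sM (a + 1) (φ' k')))))
  rw [e1]
  have e2 : ∀ k ∈ T, ∫ σ, ∑ k' ∈ T', ((u k k' σ * s' k' σ +
      Yf c β a (θ k) a (θ' k') σ * Yf c β (a + 1) (φ k) (a + 1) (φ' k') σ) +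
      (Yf c β (a + 1) (φ k) a (θ' k') σ * Yf c β a (θ k) (a + 1) (φ' k') σ +
        s k' σ * u' k k' σ)) ∂μ =
      ∑ k' ∈ T', ∫ σ, Cr c β a (θ k) (φ k) (θ' k') (φ' k') σ ∂μ +
        ∑ k' ∈ T', (∫ σ, u k k' σ * s' k' σ ∂μ + ∫ σ, u' k k' σ * s k' σ ∂μ) := by
    intro k _
    rw [integral_finsetSum _ fun k' _ => ((((bu k k').mul (bs' k')).add
      ((bdd_Yf c β _ _ _ _).mul (bdd_Yf c β _ _ _ _))).add
          (((bdd_Yf c β _ _ _ _).mul (bdd_Yf c β _ _ _ _)).add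
            ((bs k').mul (bu' k k')))).integrable μ, ← Finset.sum_add_distrib]
    refine Finset.sum_congr rfl fun k' _ => ?_
    rw [← integral_add (((bu k k').mul (bs' k')).integrable μ)
      (((bu' k k').mul (bs k')).integrable μ), ← integral_add ((bdd_Cr _ _ _ _ _).integrable μ)
      ((((bu k k').mul (bs' k')).add ((bu' k k').mul (bs k'))).integrable μ)]
    congr 1
    funext σ
    unfold Cr
    ring
  rw [Finset.sum_congr rfl e2, Finset.sum_add_distrib]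
  congr 1
  rw [Finset.sum_comm]
  have e3 : ∀ k' ∈ T', ∑ k ∈ T, (∫ σ, u k k' σ * s' k' σ ∂μ + ∫ σ, u' k k' σ * s k' σ ∂μ) =
      ∫ σ, bil c β (fun e => dX (a + 1) (φ' k')
        (fun e => (-dd (θ' k') e) • (dd ψ e • Nst a (a + 1))) e +
        dX a (θ' k') (fun e => (-dd (φ' k') e) • (dd ψ e • Nnd a (a + 1))) e) σ ∂μ := by
    intro k' hk'
    have f1 : ∀ σ, ∑ k ∈ T, u k k' σ =
        bil c β (fun e => (-dd (θ' k') e) • (dd ψ e • Nst a (a + 1))) σ := by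
      intro σ
      rw [hu, ← bil_sum]
      congr 1
      funext e
      rw [alg1 h]
      simp only [sM, Nst, smul_mul_assoc, mul_smul_comm]
      module
    have f2 : ∀ σ, ∑ k ∈ T, u' k k' σ =
        bil c β (fun e => (-dd (φ' k') e) • (dd ψ e • Nnd a (a + 1))) σ := by
      intro σ
      rw [hu', ← bil_sum]
      congr 1
      funext e
      rw [alg1 h]
      simp only [sM, Nnd, smul_mul_assoc, mul_smul_comm]
      module
    have g1 := hW (a + 1) (φ' k') (hs' k' hk').2 _ _ (bdd_bil c β _) (bdd_bil c β _)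
      (hasX_bil c β (a + 1) (φ' k') (fun e => (-dd (θ' k') e) • (dd ψ e • Nst a (a + 1))))
    have g2 := hW a (θ' k') (hs' k' hk').1 _ _ (bdd_bil c β _) (bdd_bil c β _)
      (hasX_bil c β a (θ' k') (fun e => (-dd (φ' k') e) • (dd ψ e • Nnd a (a + 1))))
    simp only [bil_add]
    rw [integral_add ((bdd_bil c β _).integrable μ) ((bdd_bil c β _).integrable μ), g1, g2,
      Finset.sum_add_distrib,
      ← integral_finsetSum _ fun k _ => ((bu k k').mul (bs' k')).integrable μ,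
      ← integral_finsetSum _ fun k _ => ((bu' k k').mul (bs k')).integrable μ]
    simp only [← Finset.sum_mul, f1, f2, hs0, hs0']
  rw [Finset.sum_congr rfl e3, ← integral_finsetSum _ fun k _ => (bdd_bil c β _).integrable μ]
  congr 1
  funext σ
  rw [← bil_sum]
  congr 1
  funext e
  rw [Finset.sum_add_distrib, alg2 h', alg3 h']
  simp only [Mthree, smul_mul_assoc, mul_smul_comm]
  module

/-- subtract `sc_mul_Qf` from `Qf_mul_score`, sum over `a`, `sum_Mthree_sub` -/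
theorem cross [IsFiniteMeasure μ] (hW : Ward c β Λ μ) (h : Adm T θ φ ψ)
    (hs : ∀ k ∈ T, Supp Λ (θ k) ∧ Supp Λ (φ k)) (h' : Adm T' θ' φ' ψ')
    (hs' : ∀ k ∈ T', Supp Λ (θ' k) ∧ Supp Λ (φ' k)) (hψ' : Supp Λ ψ') :
    ∑ a : Fin 3, ∫ σ, Qf c β a T θ φ σ * Qf c β a T' θ' φ' σ ∂μ =
      ∑ a : Fin 3, ∑ k ∈ T, ∑ k' ∈ T', ∫ σ, Cr c β a (θ k) (φ k) (θ' k') (φ' k') σ ∂μ := by
  have key : ∀ a : Fin 3, ∫ σ, Qf c β a T θ φ σ * Qf c β a T' θ' φ' σ ∂μ =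
      ∑ k ∈ T, ∑ k' ∈ T', ∫ σ, Cr c β a (θ k) (φ k) (θ' k') (φ' k') σ ∂μ +
        ∫ σ, bil c β (fun e => (dd ψ e * dd ψ' e) • (Mthree a - Mtwo a)) σ ∂μ := by
    intro a
    have e1 := Qf_mul_score hW h hs h' hs' a
    have e2 := sc_mul_Qf hW h' hs' hψ' ψ a
    simp only [mul_add] at e1
    rw [integral_add (((bdd_Qf c β _ _ _ _).mul (bdd_Qf c β _ _ _ _)).integrable μ)
      (((bdd_Qf c β _ _ _ _).mul (bdd_sc c β _ _)).integrable μ)] at e1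
    simp only [smul_sub, bil_sub]
    rw [integral_sub ((bdd_bil c β _).integrable μ) ((bdd_bil c β _).integrable μ), ← e2]
    simp only [mul_comm (Qf c β a T' θ' φ' _)] at e1
    linarith
  rw [Finset.sum_congr rfl fun a _ => key a, Finset.sum_add_distrib,
    ← integral_finsetSum _ fun k _ => (bdd_bil c β _).integrable μ]
  have : ∀ σ, ∑ a : Fin 3, bil c β (fun e => (dd ψ e * dd ψ' e) • (Mthree a - Mtwo a)) σ = 0 := by
    intro σ
    rw [← bil_sum]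
    simp only [← Finset.smul_sum, sum_Mthree_sub, smul_zero, bil_zero]
  simp [this]

end Crest.Agent.R167
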