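import Crest.Prelude.Def_SpinON

/-!
# Row 167 (O(n), n ≥ 3, exponential decay in 2D): definitions

Overview of the proof.
* `flow c a θ t` rotates the spin at `x` by the angle `t * θ x` about the axis `a` of the
  3-space spanned by the coordinates `c 0, c 1, c 2`.  `HasX c a θ f f'` says that `f'` is the
  derivative of `f` along this flow.  Under every Gibbs kernel one has the Ward identity
  `E f' = E (f * sc a θ)`.
* `Qf a T θ φ = ∑ k, sc a (θ k) * sc (a+1) (φ k)`; when `(θ, φ)` is admissible for `ψ`,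
  `Qf + sc (a+2) ψ` is orthogonal to everything not depending on the supports.  Summing over
  dyadic scales, `Qf` is small compared with `ψ`, whence a contraction for odd observables.
* Iterating on nested annuli, the sign of one coordinate has a tiny conditional expectation;
  the embedded Ising model (GKS, Lieb) turns this into exponential decay.
-/

set_option autoImplicit false

namespace Crest.Agent.R167

open MeasureTheory Matrix Crest.ProbabilityR.SpinModel

abbrev Z2 : Type := ℤ × ℤ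
abbrev Sp (n : ℕ) : Type := EuclideanSpace ℝ (Fin n)
abbrev Sph (n : ℕ) : Type := Metric.sphere (0 : Sp n) 1
abbrev M3 : Type := Matrix (Fin 3) (Fin 3) ℝ

/-! ## Lattice geometry -/

/-- sup-distance on `ℤ²` (unfold it and use `omega`) -/
def dinf (p q : Z2) : ℕ := max (p.1 - q.1).natAbs (p.2 - q.2).natAbs

/-- the edges of the square lattice inside `V` -/
abbrev Edge (V : Finset Z2) : Type := {p : V × Fin 2 // (p.1 : Z2) + latticeDir p.2 ∈ V}

def src {V : Finset Z2} (e : Edge V) : V := e.1.1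

def tgt {V : Finset Z2} (e : Edge V) : V := ⟨(e.1.1 : Z2) + latticeDir e.1.2, e.2⟩

/-- the sites of `V` at sup-distance at most `r` from `u` -/
def box (V : Finset Z2) (u : Z2) (r : ℕ) : Finset V := Finset.univ.filter fun x => dinf x u ≤ r

/-- Lipschitz bound for a field on `ℤ²` -/
def Lip (θ : Z2 → ℝ) (g : ℝ) : Prop := ∀ p q, |θ p - θ q| ≤ g * (dinf p q : ℝ)

/-- the field `θ` vanishes on the sites of `V` outside `Λ` -/
def Supp {V : Finset Z2} (Λ : Finset V) (θ : Z2 → ℝ) : Prop := ∀ x : V, x ∉ Λ → θ x = 0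

/-- gradient of a field along an edge -/
def dd {V : Finset Z2} (θ : Z2 → ℝ) (e : Edge V) : ℝ := θ (src e) - θ (tgt e)

/-- Dirichlet energy of a field -/
def D2 (V : Finset Z2) (θ : Z2 → ℝ) : ℝ := ∑ e : Edge V, (dd θ e) ^ 2

/-- equals `1` on the box of radius `R` about `c`, `0` outside the box of radius `R + l`,
and is `1 / l`-Lipschitz -/
noncomputable def cut (c : Z2) (R l : ℕ) (p : Z2) : ℝ :=
  max 0 (min 1 (((R : ℝ) + l - dinf p c) / l))

/-! ## Rotations of three coordinates -/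

/-- the three chosen coordinates of a vector -/
def v3 {n : ℕ} (c : Fin 3 ↪ Fin n) (v : Sp n) : Fin 3 → ℝ := fun j => v (c j)

/-- generators of `so(3)`: `Lm a *ᵥ v = e_a × v`; `[Lm a, Lm (a+1)] = Lm (a+2)` -/
def Lm : Fin 3 → M3 :=
  ![!![0, 0, 0; 0, 0, -1; 0, 1, 0], !![0, 0, 1; 0, 0, 0; -1, 0, 0], !![0, -1, 0; 1, 0, 0; 0, 0, 0]]

/-- rotation by `t` about the axis `a` (Rodrigues' formula) -/
noncomputable def Rm (a : Fin 3) (t : ℝ) : M3 :=
  1 + Real.sin t • Lm a + (1 - Real.cos t) • (Lm a * Lm a)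

/-- `±1` -/
def sg (b : Bool) : ℝ := if b then 1 else -1

/-- reflection of the coordinate `0` (when `b = false`) -/
def Fm (b : Bool) : M3 := Matrix.diagonal ![sg b, 1, 1]

theorem exists_iso {n : ℕ} (c : Fin 3 ↪ Fin n) (O : M3) (hO : Oᵀ * O = 1) :
    ∃ R : Sp n ≃ₗᵢ[ℝ] Sp n, (∀ v, v3 c (R v) = O *ᵥ v3 c v) ∧
      ∀ v i, (∀ j, c j ≠ i) → R v i = v i := by
  classical
  let f : Sp n → Fin n → ℝ := fun v i =>
    if h : ∃ j, c j = i then (O *ᵥ v3 c v) h.choose else v i
  have hf1 : ∀ v j, f v (c j) = (O *ᵥ v3 c v) j := by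
    intro v j
    have h : ∃ j', c j' = c j := ⟨j, rfl⟩
    have : h.choose = j := c.injective h.choose_spec
    simp only [f, dif_pos h, this]
  have hf2 : ∀ v i, (∀ j, c j ≠ i) → f v i = v i := by
    intro v i hi
    have h : ¬ ∃ j', c j' = i := fun ⟨j, hj⟩ => hi j hj
    simp only [f, dif_neg h]
  let T : Sp n →ₗ[ℝ] Sp n :=
    { toFun := fun v => WithLp.toLp 2 (f v)
      map_add' := by
        intro v w
        ext i
        have : v3 c (v + w) = v3 c v + v3 c w := by ext j; simp [v3]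
        by_cases h : ∃ j, c j = i
        · obtain ⟨j, rfl⟩ := h
          simp [hf1, this, Matrix.mulVec_add]
        · have h' : ∀ j, c j ≠ i := fun j hj => h ⟨j, hj⟩
          simp [hf2 _ _ h']
      map_smul' := by
        intro r v
        ext i
        have : v3 c (r • v) = r • v3 c v := by ext j; simp [v3]
        by_cases h : ∃ j, c j = i
        · obtain ⟨j, rfl⟩ := h
          simp [hf1, this, Matrix.mulVec_smul]
        · have h' : ∀ j, c j ≠ i := fun j hj => h ⟨j, hj⟩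
          simp [hf2 _ _ h'] }
  have hT : ∀ v i, T v i = f v i := fun v i => rfl
  have hn : ∀ v, ‖T v‖ = ‖v‖ := by
    intro v
    rw [EuclideanSpace.norm_eq, EuclideanSpace.norm_eq]
    congr 1
    rw [← Finset.sum_add_sum_compl (Finset.univ.map c), ← Finset.sum_add_sum_compl (Finset.univ.map c)
      (fun i => ‖v i‖ ^ 2)]
    congr 1
    · rw [Finset.sum_map, Finset.sum_map]
      have h1 : (O *ᵥ v3 c v) ⬝ᵥ (O *ᵥ v3 c v) = v3 c v ⬝ᵥ v3 c v := by
        rw [Matrix.dotProduct_mulVec, Matrix.vecMul_mulVec, hO, Matrix.vecMul_one]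
      simp only [hT, hf1, Real.norm_eq_abs, sq_abs]
      simpa [dotProduct, sq, v3] using h1
    · refine Finset.sum_congr rfl fun i hi => ?_
      have h' : ∀ j, c j ≠ i := by
        intro j hj
        simp only [Finset.mem_compl, Finset.mem_map, Finset.mem_univ, true_and, not_exists] at hi
        exact hi j hj
      rw [hT, hf2 _ _ h']
  let T' : Sp n →ₗᵢ[ℝ] Sp n := ⟨T, hn⟩
  refine ⟨T'.toLinearIsometryEquiv rfl, fun v => ?_, fun v i hi => ?_⟩
  · ext j
    exact hf1 v j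
  · exact hf2 v i hi

/-- the isometry acting by the orthogonal matrix `O` on the coordinates `c 0, c 1, c 2` -/
noncomputable def iso {n : ℕ} (c : Fin 3 ↪ Fin n) (O : M3) : Sp n ≃ₗᵢ[ℝ] Sp n :=
  open Classical in
  if h : Oᵀ * O = 1 then (exists_iso c O h).choose else LinearIsometryEquiv.refl ℝ _

theorem v3_iso {n : ℕ} (c : Fin 3 ↪ Fin n) {O : M3} (hO : Oᵀ * O = 1) (v : Sp n) :
    v3 c (iso c O v) = O *ᵥ v3 c v := by
  rw [iso, dif_pos hO]; exact (exists_iso c O hO).choose_spec.1 v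

theorem iso_apply_of_ne {n : ℕ} (c : Fin 3 ↪ Fin n) (O : M3) (v : Sp n) {i : Fin n}
    (hi : ∀ j, c j ≠ i) : iso c O v i = v i := by
  by_cases hO : Oᵀ * O = 1
  · rw [iso, dif_pos hO]; exact (exists_iso c O hO).choose_spec.2 v i hi
  · rw [iso, dif_neg hO]; rfl

/-- action of an isometry on the sphere -/
noncomputable def actS {n : ℕ} (R : Sp n ≃ₗᵢ[ℝ] Sp n) (s : Sph n) : Sph n :=
  ⟨R s, by simp⟩

/-- site-wise action of orthogonal `3 × 3` matrices on configurations -/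
noncomputable def act {n : ℕ} {V : Finset Z2} (c : Fin 3 ↪ Fin n) (O : V → M3)
    (σ : SpinConfig n V) : SpinConfig n V := fun x => actS (iso c (O x)) (σ x)

/-- rotate the spin at `x` by the angle `t * θ x` about the axis `a` -/
noncomputable def flow {n : ℕ} {V : Finset Z2} (c : Fin 3 ↪ Fin n) (a : Fin 3) (θ : Z2 → ℝ)
    (t : ℝ) (σ : SpinConfig n V) : SpinConfig n V := act c (fun x => Rm a (t * θ x)) σ

/-- the global half-turn about the axis `2` (negates the coordinates `c 0`, `c 1`) -/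
noncomputable def halfTurn {n : ℕ} {V : Finset Z2} (c : Fin 3 ↪ Fin n) (σ : SpinConfig n V) :
    SpinConfig n V := act c (fun _ => Rm 2 Real.pi) σ

/-- negate the coordinate `c 0` at the sites where `ε` is `false` -/
noncomputable def flip {n : ℕ} {V : Finset Z2} (c : Fin 3 ↪ Fin n) (ε : V → Bool)
    (σ : SpinConfig n V) : SpinConfig n V := act c (fun x => Fm (ε x)) σ

/-- the coordinate `c 0` of the spin at `x` -/
def co {n : ℕ} {V : Finset Z2} (c : Fin 3 ↪ Fin n) (σ : SpinConfig n V) (x : V) : ℝ :=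
  (σ x : Sp n) (c 0)

/-! ## Energy, bilinear observables, derivatives along flows -/

/-- edge strengths in `[0, β₀]` -/
def Adm0 {V : Finset Z2} (β₀ : ℝ) (β : Edge V → ℝ) : Prop := ∀ e, 0 ≤ β e ∧ β e ≤ β₀

/-- the interaction -/
noncomputable def En {n : ℕ} {V : Finset Z2} (β : Edge V → ℝ) (σ : SpinConfig n V) : ℝ :=
  ∑ e : Edge V, β e * inner ℝ (σ (src e) : Sp n) (σ (tgt e) : Sp n)

/-- the part of the inner product carried by the other coordinates -/
noncomputable def perp {n : ℕ} (c : Fin 3 ↪ Fin n) (v w : Sp n) : ℝ :=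
  inner ℝ v w - v3 c w ⬝ᵥ v3 c v

/-- the bilinear observable of a matrix field on edges -/
noncomputable def bil {n : ℕ} {V : Finset Z2} (c : Fin 3 ↪ Fin n) (β : Edge V → ℝ)
    (M : Edge V → M3) (σ : SpinConfig n V) : ℝ :=
  ∑ e : Edge V, β e * (v3 c (σ (tgt e)) ⬝ᵥ (M e *ᵥ v3 c (σ (src e))))

/-- derivative of a matrix field along the flow `(a, θ)` -/
def dX {V : Finset Z2} (a : Fin 3) (θ : Z2 → ℝ) (M : Edge V → M3) : Edge V → M3 :=
  fun e => θ (src e) • (M e * Lm a) - θ (tgt e) • (Lm a * M e)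

/-- matrix field of the score -/
def sM {V : Finset Z2} (a : Fin 3) (θ : Z2 → ℝ) : Edge V → M3 := fun e => (-dd θ e) • Lm a

/-- the score of the flow `(a, θ)`: minus the derivative of the interaction -/
noncomputable def sc {n : ℕ} {V : Finset Z2} (c : Fin 3 ↪ Fin n) (β : Edge V → ℝ) (a : Fin 3)
    (θ : Z2 → ℝ) : SpinConfig n V → ℝ := bil c β (sM a θ)

/-- derivative of the score `(b, η)` along the flow `(a, θ)` -/
noncomputable def Yf {n : ℕ} {V : Finset Z2} (c : Fin 3 ↪ Fin n) (β : Edge V → ℝ) (a : Fin 3)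
    (θ : Z2 → ℝ) (b : Fin 3) (η : Z2 → ℝ) : SpinConfig n V → ℝ := bil c β (dX a θ (sM b η))

/-- bounded and measurable -/
def Bdd {n : ℕ} {V : Finset Z2} (f : SpinConfig n V → ℝ) : Prop :=
  Measurable f ∧ ∃ C, ∀ σ, |f σ| ≤ C

/-- `f'` is the derivative of `f` along the flow `(a, θ)` -/
def HasX {n : ℕ} {V : Finset Z2} (c : Fin 3 ↪ Fin n) (a : Fin 3) (θ : Z2 → ℝ)
    (f f' : SpinConfig n V → ℝ) : Prop :=
  ∀ σ, HasDerivAt (fun t => f (flow c a θ t σ)) (f' σ) 0

/-- quasi-invariance under the flows supported in `Λ` -/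
def QI {n : ℕ} {V : Finset Z2} (c : Fin 3 ↪ Fin n) (β : Edge V → ℝ) (Λ : Finset V)
    (μ : Measure (SpinConfig n V)) : Prop :=
  ∀ (a : Fin 3) (θ : Z2 → ℝ), Supp Λ θ → ∀ (t : ℝ) (F : SpinConfig n V → ℝ), Bdd F →
    ∫ σ, F (flow c a θ t σ) ∂μ =
      ∫ σ, F σ * Real.exp (En β (flow c a θ (-t) σ) - En β σ) ∂μ

/-- the Ward (integration by parts) identities for the flows supported in `Λ` -/
def Ward {n : ℕ} {V : Finset Z2} (c : Fin 3 ↪ Fin n) (β : Edge V → ℝ) (Λ : Finset V)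
    (μ : Measure (SpinConfig n V)) : Prop :=
  ∀ (a : Fin 3) (θ : Z2 → ℝ), Supp Λ θ → ∀ f f' : SpinConfig n V → ℝ, Bdd f → Bdd f' →
    HasX c a θ f f' → ∫ σ, f' σ ∂μ = ∫ σ, f σ * sc c β a θ σ ∂μ

/-! ## Commutator families -/

abbrev Ix : Type := Z2 × Bool

/-- the quadratic part of the commutator score -/
noncomputable def Qf {n : ℕ} {V : Finset Z2} (c : Fin 3 ↪ Fin n) (β : Edge V → ℝ) (a : Fin 3)
    (T : Finset Ix) (θ φ : Ix → Z2 → ℝ) (σ : SpinConfig n V) : ℝ :=
  ∑ k ∈ T, sc c β a (θ k) σ * sc c β (a + 1) (φ k) σ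

/-- the family `(θ, φ)` represents the gradient of `ψ` -/
def Adm (T : Finset Ix) (θ φ : Ix → Z2 → ℝ) (ψ : Z2 → ℝ) : Prop :=
  ∀ p q, dinf p q ≤ 1 → ∑ k ∈ T, θ k q * φ k p = ψ p - ψ q

/-- a commutator family at scale `l` in the annulus of size `L` about `u` -/
structure SF (u : Z2) (L l : ℕ) where
  T : Finset Ix
  θ : Ix → Z2 → ℝ
  φ : Ix → Z2 → ℝ
  mθ : Ix → ℝ
  mφ : Ix → ℝ
  ctr : Ix → Z2
  ψ : Z2 → ℝ
  adm : Adm T θ φ ψ
  suppθ : ∀ k p, 3 * l < dinf p (ctr k) → θ k p = 0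
  suppφ : ∀ k p, 3 * l < dinf p (ctr k) → φ k p = 0
  bθ : ∀ k p, |θ k p| ≤ mθ k
  bφ : ∀ k p, |φ k p| ≤ mφ k
  lipθ : ∀ k, Lip (θ k) (mθ k / l)
  lipφ : ∀ k, Lip (φ k) (mφ k / l)
  mm : ∀ k, mθ k * mφ k ≤ 8 * l / L
  ctr_lo : ∀ k ∈ T, 3 * L ≤ 2 * dinf (ctr k) u
  ctr_hi : ∀ k ∈ T, 2 * dinf (ctr k) u ≤ 7 * L
  card : T.card * l ^ 2 ≤ 128 * L ^ 2
  near : ∀ p, (T.filter fun k => dinf (ctr k) p ≤ 7 * l).card ≤ 450
  ψ_in : ∀ p, dinf p u ≤ L → ψ p = 2
  ψ_out : ∀ p, 4 * L < dinf p u → ψ p = 0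

/-- the tent function -/
noncomputable def tent (t : ℝ) : ℝ := max 0 (1 - |t|)

/-- centre of the cell `b` at scale `l` -/
def cen (u : Z2) (l : ℕ) (b : Z2) : Z2 := (u.1 + l * b.1, u.2 + l * b.2)

/-- partition of unity at scale `l` -/
noncomputable def chi (u : Z2) (l : ℕ) (b : Z2) (p : Z2) : ℝ :=
  tent (((p.1 - (cen u l b).1 : ℤ) : ℝ) / l) * tent (((p.2 - (cen u l b).2 : ℤ) : ℝ) / l)

/-- partner field of `chi` -/
noncomputable def phi (u : Z2) (L l : ℕ) (b : Z2) (p : Z2) : ℝ :=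
  cut (cen u l b) (2 * l) l p * (cut u (2 * L) L p - cut u (2 * L) L (cen u l b))

/-- the cells in the middle of the annulus -/
noncomputable def cells (u : Z2) (L l : ℕ) : Finset Z2 :=
  ((Finset.Icc (-(4 * L : ℤ)) (4 * L)) ×ˢ (Finset.Icc (-(4 * L : ℤ)) (4 * L))).filter
    fun b => 3 * L ≤ 2 * dinf (cen u l b) u ∧ 2 * dinf (cen u l b) u ≤ 7 * L

/-- the potential represented by the family at scale `l` -/
noncomputable def psiS (u : Z2) (L l : ℕ) (p : Z2) : ℝ :=
  2 * cut u (2 * L) L p -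
    ∑ b ∈ cells u L l, chi u l b p * (cut u (2 * L) L p - cut u (2 * L) L (cen u l b))

/-! ## Gibbs measure and kernels -/

/-- the Gibbs measure -/
noncomputable def gibbs (n : ℕ) {V : Finset Z2} (β : Edge V → ℝ) : Measure (SpinConfig n V) :=
  (referenceLaw n V).tilted (En β)

/-- the Gibbs kernel: resample the spins in `Λ`, keep `ξ` outside -/
noncomputable def kerM {n : ℕ} {V : Finset Z2} (β : Edge V → ℝ) (Λ : Finset V)
    (ξ : SpinConfig n V) : Measure (SpinConfig n V) :=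
  ((referenceLaw n V).map fun τ : SpinConfig n V => (Λ.piecewise τ ξ : SpinConfig n V)).tilted (En β)

noncomputable def kerE {n : ℕ} {V : Finset Z2} (β : Edge V → ℝ) (Λ : Finset V)
    (F : SpinConfig n V → ℝ) (ξ : SpinConfig n V) : ℝ := ∫ σ, F σ ∂kerM β Λ ξ

/-- `F` is a local replacement, of size `η`, for the sign of `co c σ x` -/
def Repl {n : ℕ} {V : Finset Z2} (c : Fin 3 ↪ Fin n) (β : Edge V → ℝ) (x : V) (r : ℕ) (η : ℝ)
    (F : SpinConfig n V → ℝ) : Prop :=
  Bdd F ∧ (∀ σ, |F σ| ≤ η) ∧ DependsOn F (box V x r : Set V) ∧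
    ∀ G : SpinConfig n V → ℝ, Bdd G → DependsOn G (box V x r : Set V)ᶜ →
      ∫ σ, Real.sign (co c σ x) * G σ ∂gibbs n β = ∫ σ, F σ * G σ ∂gibbs n β

/-! ## Ising models -/

/-- a monomial in the Ising spins -/
def mono {V : Finset Z2} (s : Multiset V) (ε : V → Bool) : ℝ := (s.map fun x => sg (ε x)).prod

noncomputable def isW {V : Finset Z2} (J : Edge V → ℝ) (ε : V → Bool) : ℝ :=
  Real.exp (∑ e : Edge V, J e * (sg (ε (src e)) * sg (ε (tgt e))))

/-- unnormalised correlation -/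
noncomputable def isZ {V : Finset Z2} (J : Edge V → ℝ) (s : Multiset V) : ℝ :=
  ∑ ε : V → Bool, mono s ε * isW J ε

/-- Ising correlation function -/
noncomputable def corr {V : Finset Z2} (J : Edge V → ℝ) (s : Multiset V) : ℝ := isZ J s / isZ J 0

/-- delete the edges touching `D` -/
def delE {V : Finset Z2} (D : Finset V) (J : Edge V → ℝ) : Edge V → ℝ :=
  fun e => if src e ∈ D ∨ tgt e ∈ D then 0 else J e

/-- points pairwise at distance at least `R` -/
def Far {V : Finset Z2} (R : ℕ) (P : Finset V) : Prop :=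
  ∀ x ∈ P, ∀ y ∈ P, x ≠ y → R ≤ dinf x y

/-- signed couplings of the embedded Ising model -/
def cpl {n : ℕ} {V : Finset Z2} (c : Fin 3 ↪ Fin n) (β : Edge V → ℝ) (σ : SpinConfig n V) :
    Edge V → ℝ := fun e => β e * (co c σ (src e) * co c σ (tgt e))

/-- ferromagnetic couplings of the embedded Ising model -/
def cplA {n : ℕ} {V : Finset Z2} (c : Fin 3 ↪ Fin n) (β : Edge V → ℝ) (σ : SpinConfig n V) :
    Edge V → ℝ := fun e => β e * (|co c σ (src e)| * |co c σ (tgt e)|)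

end Crest.Agent.R167
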