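import Crest.Agent.R167.Ker

/-! # Row 167: Gibbs kernels II -/

set_option autoImplicit false

namespace Crest.Agent.R167

open MeasureTheory Matrix Crest.ProbabilityR.SpinModel

variable {n : ℕ} {V : Finset Z2}

/-- measurability from `kerE_eq` and `MeasureTheory.StronglyMeasurable.integral_prod_right'`;
the bound from `kerM_prob`. -/
theorem kerE_bdd (hn : 1 ≤ n) (β : Edge V → ℝ) (Λ : Finset V) {F : SpinConfig n V → ℝ}
    (hF : Bdd F) : Bdd (kerE β Λ F) := by
  constructor
  · have h : kerE β Λ F = fun ξ => (∫ τ, F (Λ.piecewise τ ξ) *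
        Real.exp (En β (Λ.piecewise τ ξ : SpinConfig n V)) ∂referenceLaw n V) /
        ∫ τ, Real.exp (En β (Λ.piecewise τ ξ : SpinConfig n V)) ∂referenceLaw n V :=
      funext fun ξ => kerE_eq β Λ hF ξ
    rw [h]
    have h1 := ((hF.mul (bdd_En β).exp).1.comp (measurable_pw Λ)).stronglyMeasurable
    have h2 := (((bdd_En β).exp).1.comp (measurable_pw (n := n) Λ)).stronglyMeasurable
    exact (h1.integral_prod_right' (ν := referenceLaw n V)).measurable.div
      (h2.integral_prod_right' (ν := referenceLaw n V)).measurable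
  · obtain ⟨C, hC⟩ := hF.2
    refine ⟨C, fun ξ => ?_⟩
    have := kerM_prob hn β Λ ξ
    have h := norm_integral_le_of_norm_le_const (μ := kerM β Λ ξ) (f := F) (C := C)
      (Filter.Eventually.of_forall fun σ => hC σ)
    simpa [kerE] using h

/-- Markov property.  If `ξ`, `ξ'` agree on `box u (r + 1)`, then with `Λ = box u r`,
`En (Λ.piecewise τ ξ) - En (Λ.piecewise τ ξ')` does not depend on `τ`: an edge touching `Λ` has
both ends in `box u (r + 1)` (`dinf_src_tgt`, `dinf_triangle`) and contributes `0`; the other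
edges only see `ξ`, `ξ'`.  The constant cancels in `kerE_eq`. -/
theorem kerE_dependsOn (β : Edge V → ℝ) (u : Z2) (r : ℕ) {F : SpinConfig n V → ℝ} (hF : Bdd F)
    (hd : DependsOn F (box V u r : Set V)) :
    DependsOn (kerE β (box V u r) F) (box V u (r + 1) : Set V) := by
  intro ξ ξ' hξ
  have hξ' : ∀ x : V, dinf x u ≤ r + 1 → ξ x = ξ' x := fun x hx =>
    hξ x (by simpa [mem_box] using hx)
  have hpw : ∀ (τ : SpinConfig n V) (x : V), dinf x u ≤ r + 1 →
      ((box V u r).piecewise τ ξ : SpinConfig n V) x =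
        ((box V u r).piecewise τ ξ' : SpinConfig n V) x := by
    intro τ x hx
    by_cases h : x ∈ box V u r
    · rw [Finset.piecewise_eq_of_mem _ _ _ h, Finset.piecewise_eq_of_mem _ _ _ h]
    · rw [Finset.piecewise_eq_of_notMem _ _ _ h, Finset.piecewise_eq_of_notMem _ _ _ h, hξ' x hx]
  obtain ⟨κ, hκ⟩ : ∃ κ : ℝ, ∀ τ : SpinConfig n V,
      En β ((box V u r).piecewise τ ξ : SpinConfig n V) =
        κ + En β ((box V u r).piecewise τ ξ' : SpinConfig n V) := by
    refine ⟨∑ e : Edge V, if src e ∈ box V u r ∨ tgt e ∈ box V u r then 0 else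
      β e * inner ℝ (ξ (src e) : Sp n) (ξ (tgt e) : Sp n) -
        β e * inner ℝ (ξ' (src e) : Sp n) (ξ' (tgt e) : Sp n), fun τ => ?_⟩
    unfold En
    rw [← Finset.sum_add_distrib]
    refine Finset.sum_congr rfl fun e _ => ?_
    have h1 := dinf_src_tgt e
    have h2 := dinf_triangle (src e) (tgt e) u
    have h3 := dinf_triangle (tgt e) (src e) u
    rw [dinf_comm (tgt e : Z2) (src e)] at h3
    split_ifs with h
    · simp only [mem_box] at h
      rw [hpw τ (src e) (by omega), hpw τ (tgt e) (by omega), zero_add]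
    · rw [not_or] at h
      simp only [Finset.piecewise_eq_of_notMem _ _ _ h.1, Finset.piecewise_eq_of_notMem _ _ _ h.2]
      ring
  have hF' : ∀ τ : SpinConfig n V, F ((box V u r).piecewise τ ξ) =
      F ((box V u r).piecewise τ ξ') := fun τ => hd fun x hx => hpw τ x (by
        have : dinf x u ≤ r := by simpa [mem_box] using hx
        omega)
  rw [kerE_eq β _ hF, kerE_eq β _ hF]
  simp only [hκ, hF', Real.exp_add, mul_left_comm _ (Real.exp κ), integral_const_mul]
  rw [mul_div_mul_left _ _ (Real.exp_pos κ).ne']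

theorem Dlra_map (Λ : Finset V) :
    (((referenceLaw n V).prod (referenceLaw n V)).map
      fun p : SpinConfig n V × SpinConfig n V => (Λ.piecewise p.2 p.1 : SpinConfig n V)) =
      (referenceLaw n V) Set.univ • referenceLaw n V := by
  refine ext_of_generate_finite _ generateFrom_pi.symm isPiSystem_pi ?_ ?_
  · rintro _ ⟨s, hs, rfl⟩
    have hs' : ∀ i, MeasurableSet (s i) := fun i => hs i (Set.mem_univ i)
    rw [Measure.map_apply (measurable_pw Λ) (MeasurableSet.univ_pi hs')]
    have : (fun p : SpinConfig n V × SpinConfig n V => (Λ.piecewise p.2 p.1 : SpinConfig n V)) ⁻¹'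
        Set.univ.pi s = (Set.univ.pi fun i => if i ∈ Λ then Set.univ else s i) ×ˢ
          (Set.univ.pi fun i => if i ∈ Λ then s i else Set.univ) := by
      ext ⟨ξ, τ⟩
      simp only [Set.mem_preimage, Set.mem_pi, Set.mem_univ, true_imp_iff, Set.mem_prod,
        ← forall_and]
      refine forall_congr' fun i => ?_
      by_cases hi : i ∈ Λ <;> simp [Finset.piecewise, hi]
    rw [this, Measure.prod_prod, Measure.smul_apply, smul_eq_mul]
    unfold referenceLaw
    rw [Measure.pi_pi, Measure.pi_pi, Measure.pi_pi, Measure.pi_univ, ← Finset.prod_mul_distrib,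
      ← Finset.prod_mul_distrib]
    refine Finset.prod_congr rfl fun i _ => ?_
    by_cases hi : i ∈ Λ <;> simp [hi, mul_comm]
  · rw [Measure.map_apply (measurable_pw Λ) MeasurableSet.univ, Set.preimage_univ,
      ← Set.univ_prod_univ, Measure.prod_prod, Measure.smul_apply, smul_eq_mul]

/-- `(ξ, τ) ↦ Λ.piecewise τ ξ` pushes `ref × ref` to `ref univ • ref` (`Measure.pi_eq` after
normalisation, or `measurePreserving_piEquivPiSubtypeProd`, or `Measure.ext` on boxes: the
preimage of a box is a product of two boxes). -/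
theorem integral_pw {H : SpinConfig n V → ℝ} (hH : Bdd H) (Λ : Finset V) :
    (referenceLaw n V).real Set.univ * ∫ σ, H σ ∂referenceLaw n V =
      ∫ ξ, ∫ τ, H (Λ.piecewise τ ξ) ∂referenceLaw n V ∂referenceLaw n V := by
  have h1 : ∫ σ, H σ ∂(((referenceLaw n V).prod (referenceLaw n V)).map
      fun p : SpinConfig n V × SpinConfig n V => (Λ.piecewise p.2 p.1 : SpinConfig n V)) =
      ∫ p : SpinConfig n V × SpinConfig n V, H (Λ.piecewise p.2 p.1)
        ∂((referenceLaw n V).prod (referenceLaw n V)) :=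
    integral_map (measurable_pw Λ).aemeasurable hH.1.aestronglyMeasurable
  rw [Dlra_map, integral_smul_measure, smul_eq_mul] at h1
  obtain ⟨C, hC⟩ := hH.2
  rw [Measure.real, h1, integral_prod]
  exact Integrable.of_bound (hH.1.comp (measurable_pw Λ)).aestronglyMeasurable C
    (Filter.Eventually.of_forall fun p => hC _)

/-- DLR.  Apply `integral_pw` to `F G e^En` and to `kerE F * G e^En`; `G` and `kerE F` take the
same value at `Λ.piecewise τ ξ` as at `ξ`; both inner integrals equal
`G ξ * kerE F ξ * ∫ e^En (Λ.piecewise τ ξ)` (the latter integral is positive). -/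
theorem dlr (hn : 1 ≤ n) (β : Edge V → ℝ) (Λ : Finset V) {F G : SpinConfig n V → ℝ}
    (hF : Bdd F) (hG : Bdd G) (hd : DependsOn G (Λ : Set V)ᶜ) :
    ∫ σ, F σ * G σ ∂gibbs n β = ∫ σ, kerE β Λ F σ * G σ ∂gibbs n β := by
  have := ref_neZero hn V
  rw [integral_gibbs, integral_gibbs]
  congr 1
  have hpos : (referenceLaw n V).real Set.univ ≠ 0 := (measureReal_univ_pos (μ := referenceLaw n V)).ne'
  refine mul_left_cancel₀ hpos ?_
  rw [integral_pw ((hF.mul hG).mul (bdd_En β).exp) Λ,
    integral_pw (((kerE_bdd hn β Λ hF).mul hG).mul (bdd_En β).exp) Λ]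
  refine integral_congr_ae (Filter.Eventually.of_forall fun ξ => ?_)
  have hG' : ∀ τ : SpinConfig n V, G (Λ.piecewise τ ξ) = G ξ := fun τ =>
    hd fun i hi => Finset.piecewise_eq_of_notMem _ _ _ (by simpa using hi)
  have hK : ∀ τ : SpinConfig n V, kerE β Λ F (Λ.piecewise τ ξ) = kerE β Λ F ξ := fun τ => by
    simp only [kerE, kerM, Finset.piecewise_idem_right]
  have hm : Measurable fun τ : SpinConfig n V => (Λ.piecewise τ ξ : SpinConfig n V) :=
    (measurable_pw Λ).comp (measurable_const.prodMk measurable_id)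
  have hZ : 0 < ∫ τ, Real.exp (En β (Λ.piecewise τ ξ : SpinConfig n V)) ∂referenceLaw n V :=
    integral_exp_pos (((bdd_En β).exp.comp hm).integrable _)
  simp only [hG', hK]
  rw [integral_const_mul, kerE_eq β Λ hF ξ]
  have : ∀ τ : SpinConfig n V, F (Λ.piecewise τ ξ) * G ξ *
      Real.exp (En β (Λ.piecewise τ ξ : SpinConfig n V)) =
      G ξ * (F (Λ.piecewise τ ξ) * Real.exp (En β (Λ.piecewise τ ξ : SpinConfig n V))) :=
    fun τ => by ring
  simp only [this]
  rw [integral_const_mul]
  field_simp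

end Crest.Agent.R167
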