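import Crest.Agent.R167.Defs

/-! # Row 167: Ising correlation inequalities -/

set_option autoImplicit false

namespace Crest.Agent.R167

open MeasureTheory Matrix Crest.ProbabilityR.SpinModel

variable {V : Finset Z2}

theorem sg_mul_self (b : Bool) : sg b * sg b = 1 := by cases b <;> simp [sg]

theorem abs_sg (b : Bool) : |sg b| = 1 := by cases b <;> simp [sg]

theorem mono_zero (ε : V → Bool) : mono 0 ε = 1 := by simp [mono]

theorem mono_add (s t : Multiset V) (ε : V → Bool) : mono (s + t) ε = mono s ε * mono t ε := by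
  simp [mono]

theorem mono_cons (x : V) (s : Multiset V) (ε : V → Bool) :
    mono (x ::ₘ s) ε = sg (ε x) * mono s ε := by simp [mono]

theorem mono_pair (x y : V) (ε : V → Bool) : mono {x, y} ε = sg (ε x) * sg (ε y) := by
  simp [mono]

theorem mono_val (P : Finset V) (ε : V → Bool) : mono P.val ε = ∏ x ∈ P, sg (ε x) := rfl

theorem mono_mul_self (s : Multiset V) (ε : V → Bool) : mono s ε * mono s ε = 1 := by
  induction s using Multiset.induction_on with
  | empty => simp [mono_zero]
  | cons x s ih =>
    rw [mono_cons]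
    calc _ = (sg (ε x) * sg (ε x)) * (mono s ε * mono s ε) := by ring
      _ = 1 := by rw [sg_mul_self, ih, one_mul]

theorem abs_mono (s : Multiset V) (ε : V → Bool) : |mono s ε| = 1 := by
  induction s using Multiset.induction_on with
  | empty => simp [mono_zero]
  | cons x s ih => rw [mono_cons, abs_mul, abs_sg, ih, one_mul]

theorem isW_pos (J : Edge V → ℝ) (ε : V → Bool) : 0 < isW J ε := Real.exp_pos _

theorem isZ_pos (J : Edge V → ℝ) : 0 < isZ J 0 := by
  unfold isZ
  refine Finset.sum_pos (fun ε _ => ?_) Finset.univ_nonempty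
  rw [mono_zero, one_mul]; exact isW_pos J ε

theorem isZ_congr (J : Edge V → ℝ) {s t : Multiset V} (h : ∀ ε, mono s ε = mono t ε) :
    isZ J s = isZ J t := by
  unfold isZ; simp only [h]

theorem corr_congr (J : Edge V → ℝ) {s t : Multiset V} (h : ∀ ε, mono s ε = mono t ε) :
    corr J s = corr J t := by
  unfold corr; rw [isZ_congr J h]

theorem corr_zero (J : Edge V → ℝ) : corr J 0 = 1 := div_self (isZ_pos J).ne'

theorem corr_self (J : Edge V → ℝ) (x : V) : corr J {x, x} = 1 := by
  rw [← corr_zero J]
  exact corr_congr J fun ε => by rw [mono_pair, sg_mul_self, mono_zero]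

theorem abs_corr_le (J : Edge V → ℝ) (s : Multiset V) : |corr J s| ≤ 1 := by
  unfold corr
  rw [abs_div, abs_of_pos (isZ_pos J), div_le_one (isZ_pos J)]
  unfold isZ
  refine (Finset.abs_sum_le_sum_abs _ _).trans (le_of_eq ?_)
  refine Finset.sum_congr rfl fun ε _ => ?_
  rw [abs_mul, abs_mono, mono_zero, abs_of_pos (isW_pos J ε)]

theorem continuous_corr (s : Multiset V) : Continuous fun J : Edge V → ℝ => corr J s := by
  have h : ∀ t : Multiset V, Continuous fun J : Edge V → ℝ => isZ J t := by
    intro t
    unfold isZ isW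
    fun_prop
  exact (h s).div (h 0) fun J => (isZ_pos J).ne'

theorem sg_beq (a b : Bool) : sg (a == b) = sg a * sg b := by
  cases a <;> cases b <;> simp [sg]

theorem mono_beq (s : Multiset V) (ε η : V → Bool) :
    mono s (fun x => ε x == η x) = mono s ε * mono s η := by
  induction s using Multiset.induction_on with
  | empty => simp [mono_zero]
  | cons x s ih => rw [mono_cons, mono_cons, mono_cons, ih, sg_beq]; ring

/-- the gauge transformation -/
def gauge (η : V → Bool) : (V → Bool) ≃ (V → Bool) where
  toFun ε := fun x => ε x == η x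
  invFun ε := fun x => ε x == η x
  left_inv ε := by funext x; dsimp only; cases ε x <;> cases η x <;> rfl
  right_inv ε := by funext x; dsimp only; cases ε x <;> cases η x <;> rfl

theorem isW_beq (J : Edge V → ℝ) (ε η : V → Bool) :
    isW J (fun x => ε x == η x) =
      isW (fun e => J e * (sg (η (src e)) * sg (η (tgt e)))) ε := by
  unfold isW
  congr 1
  refine Finset.sum_congr rfl fun e _ => ?_
  rw [sg_beq, sg_beq]; ring

/-- substitute `ε x ↦ (ε x == η x)` (an involution of `V → Bool`, `sg (a == b) = sg a * sg b`) -/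
theorem isZ_gauge (J : Edge V → ℝ) (η : V → Bool) (s : Multiset V) :
    isZ (fun e => J e * (sg (η (src e)) * sg (η (tgt e)))) s = mono s η * isZ J s := by
  unfold isZ
  rw [← (gauge η).sum_comp (fun ε => mono s ε * isW J ε), Finset.mul_sum]
  refine Finset.sum_congr rfl fun ε _ => ?_
  change _ = mono s η * (mono s (fun x => ε x == η x) * isW J (fun x => ε x == η x))
  rw [mono_beq, isW_beq]
  calc _ = (mono s η * mono s η) * (mono s ε *
        isW (fun e => J e * (sg (η (src e)) * sg (η (tgt e)))) ε) := by
        rw [mono_mul_self, one_mul]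
    _ = _ := by ring

theorem corr_gauge (J : Edge V → ℝ) (η : V → Bool) (s : Multiset V) :
    corr (fun e => J e * (sg (η (src e)) * sg (η (tgt e)))) s = mono s η * corr J s := by
  unfold corr
  rw [isZ_gauge, isZ_gauge, mono_zero, one_mul, mul_div_assoc]

theorem mono_ne (s : Multiset V) (x : V) :
    mono s (fun z => decide (z ≠ x)) = (-1) ^ s.count x := by
  induction s using Multiset.induction_on with
  | empty => simp [mono_zero]
  | cons z s ih =>
    rw [mono_cons, ih]
    by_cases h : z = x
    · subst h; simp [sg, pow_succ]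
    · rw [Multiset.count_cons_of_ne (Ne.symm h)]; simp [sg, h]

/-- an isolated site: `isZ_gauge` with `η = (· ≠ x)` leaves `J` unchanged, and
`mono s η = (-1) ^ count x s` -/
theorem corr_eq_zero (J : Edge V → ℝ) {s : Multiset V} {x : V} (hx : Odd (s.count x))
    (hJ : ∀ e, src e = x ∨ tgt e = x → J e = 0) : corr J s = 0 := by
  have h := corr_gauge J (fun z => decide (z ≠ x)) s
  have e : (fun e : Edge V => J e * (sg (decide (src e ≠ x)) * sg (decide (tgt e ≠ x)))) = J := by
    funext e
    by_cases h1 : src e = x
    · rw [hJ e (Or.inl h1), zero_mul]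
    · by_cases h2 : tgt e = x
      · rw [hJ e (Or.inr h2), zero_mul]
      · simp [sg, h1, h2]
  rw [e, mono_ne, hx.neg_one_pow] at h
  linarith

/-- `exp (J s) = cosh J + s * sinh J` for `s = ±1` -/
theorem isZ_rec (J : Edge V → ℝ) (e : Edge V) (s : Multiset V) :
    isZ J s = Real.cosh (J e) * isZ (Function.update J e 0) s +
      Real.sinh (J e) * isZ (Function.update J e 0) (s + {src e, tgt e}) := by
  unfold isZ
  rw [Finset.mul_sum, Finset.mul_sum, ← Finset.sum_add_distrib]
  refine Finset.sum_congr rfl fun ε _ => ?_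
  have h1 : isW J ε = Real.exp (J e * (sg (ε (src e)) * sg (ε (tgt e)))) *
      isW (Function.update J e 0) ε := by
    unfold isW
    rw [← Real.exp_add]
    congr 1
    rw [← Finset.add_sum_erase _ _ (Finset.mem_univ e), ← Finset.add_sum_erase _
      (fun e' => Function.update J e 0 e' * (sg (ε (src e')) * sg (ε (tgt e'))))
      (Finset.mem_univ e), Function.update_self, zero_mul, zero_add]
    congr 1
    refine Finset.sum_congr rfl fun e' he' => ?_
    rw [Function.update_of_ne (Finset.ne_of_mem_erase he')]
  have h2 : Real.exp (J e * (sg (ε (src e)) * sg (ε (tgt e)))) =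
      Real.cosh (J e) + Real.sinh (J e) * (sg (ε (src e)) * sg (ε (tgt e))) := by
    rw [← sg_beq]
    cases (ε (src e) == ε (tgt e))
    · simp [sg, ← sub_eq_add_neg]
    · simp [sg]
  rw [h1, h2, mono_add, mono_pair]
  ring

/-- GKS I: induction on the number of edges with `J e ≠ 0`, for all `s` at once (`isZ_rec`); for
`J = 0` the sum vanishes if some count is odd (`corr_eq_zero`) and every monomial is `1`
otherwise. -/
theorem gks1 {J : Edge V → ℝ} (hJ : ∀ e, 0 ≤ J e) (s : Multiset V) : 0 ≤ isZ J s := by
  classical
  obtain ⟨m, hm⟩ : ∃ m, (Finset.univ.filter fun e => J e ≠ 0).card = m := ⟨_, rfl⟩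
  induction m generalizing J s with
  | zero =>
    have h0 : ∀ e, J e = 0 := by
      intro e
      by_contra h
      have : e ∈ Finset.univ.filter fun e => J e ≠ 0 := by simpa using h
      rw [Finset.card_eq_zero.1 hm] at this
      simp at this
    by_cases hodd : ∃ x, Odd (s.count x)
    · obtain ⟨x, hx⟩ := hodd
      have := corr_eq_zero J hx fun e _ => h0 e
      unfold corr at this
      rw [div_eq_zero_iff] at this
      rcases this with h | h
      · exact h.ge
      · exact absurd h (isZ_pos J).ne'
    · have : ∀ ε, mono s ε = mono 0 ε := by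
        intro ε
        rw [mono_zero, mono, Finset.prod_multiset_map_count]
        refine Finset.prod_eq_one fun x _ => ?_
        have hx : Even (s.count x) := by
          rw [← Nat.not_odd_iff_even]; exact fun h => hodd ⟨x, h⟩
        obtain ⟨k, hk⟩ := hx
        rw [hk, pow_add, ← mul_pow, sg_mul_self, one_pow]
      rw [isZ_congr J this]
      exact (isZ_pos J).le
  | succ m ih =>
    obtain ⟨e, he⟩ : (Finset.univ.filter fun e => J e ≠ 0).Nonempty := by
      rw [← Finset.card_pos]; omega
    have hJ' : ∀ e', 0 ≤ Function.update J e 0 e' := by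
      intro e'
      by_cases h : e' = e
      · subst h; simp
      · rw [Function.update_of_ne h]; exact hJ e'
    have hc : (Finset.univ.filter fun e' => Function.update J e 0 e' ≠ 0).card = m := by
      have : (Finset.univ.filter fun e' => Function.update J e 0 e' ≠ 0) =
          (Finset.univ.filter fun e => J e ≠ 0).erase e := by
        ext e'
        by_cases h : e' = e
        · subst h; simp
        · simp [h]
      rw [this, Finset.card_erase_of_mem he, hm]; rfl
    rw [isZ_rec J e s]
    exact add_nonneg (mul_nonneg (Real.cosh_pos _).le (ih hJ' _ hc))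
      (mul_nonneg (Real.sinh_nonneg_iff.2 (hJ e)) (ih hJ' _ hc))

theorem corr_nonneg {J : Edge V → ℝ} (hJ : ∀ e, 0 ≤ J e) (s : Multiset V) : 0 ≤ corr J s :=
  div_nonneg (gks1 hJ s) (isZ_pos J).le

/-- GKS II: in `Z(s+t) Z(0) - Z(s) Z(t)` substitute `ε' = (ε == ρ)` in the second copy:
it equals `∑ ρ, (1 - mono t ρ) * isZ (fun e => J e * (1 + sg (ρ (src e)) * sg (ρ (tgt e)))) (s + t)`,
nonnegative by `gks1`. -/
theorem gks2 {J : Edge V → ℝ} (hJ : ∀ e, 0 ≤ J e) (s t : Multiset V) :
    corr J s * corr J t ≤ corr J (s + t) := by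
  have hZ := isZ_pos J
  have key : isZ J (s + t) * isZ J 0 - isZ J s * isZ J t = ∑ ρ : V → Bool, (1 - mono t ρ) *
      isZ (fun e => J e * (1 + sg (ρ (src e)) * sg (ρ (tgt e)))) (s + t) := by
    have h1 : ∀ (u : Multiset V) (ε : V → Bool), isZ J u =
        ∑ ρ : V → Bool, mono u ρ * mono u ε * isW J (fun x => ρ x == ε x) := by
      intro u ε
      unfold isZ
      rw [← (gauge ε).sum_comp (fun ρ => mono u ρ * isW J ρ)]
      refine Finset.sum_congr rfl fun ρ _ => ?_
      change mono u (fun x => ρ x == ε x) * isW J (fun x => ρ x == ε x) = _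
      rw [mono_beq]
    have h2 : ∀ ρ ε : V → Bool, isW (fun e => J e * (1 + sg (ρ (src e)) * sg (ρ (tgt e)))) ε =
        isW J ε * isW J (fun x => ρ x == ε x) := by
      intro ρ ε
      unfold isW
      rw [← Real.exp_add, ← Finset.sum_add_distrib]
      congr 1
      refine Finset.sum_congr rfl fun e _ => ?_
      rw [sg_beq, sg_beq]; ring
    have h3 : isZ J (s + t) * isZ J 0 = ∑ ε : V → Bool, ∑ ρ : V → Bool,
        mono s ε * mono t ε * (isW J ε * isW J (fun x => ρ x == ε x)) := by
      conv_lhs => rw [isZ, Finset.sum_mul]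
      refine Finset.sum_congr rfl fun ε _ => ?_
      rw [h1 0 ε, Finset.mul_sum]
      refine Finset.sum_congr rfl fun ρ _ => ?_
      rw [mono_add, mono_zero, mono_zero]; ring
    have h4 : isZ J s * isZ J t = ∑ ε : V → Bool, ∑ ρ : V → Bool,
        mono t ρ * (mono s ε * mono t ε * (isW J ε * isW J (fun x => ρ x == ε x))) := by
      conv_lhs => rw [isZ, Finset.sum_mul]
      refine Finset.sum_congr rfl fun ε _ => ?_
      rw [h1 t ε, Finset.mul_sum]
      refine Finset.sum_congr rfl fun ρ _ => ?_
      ring
    rw [h3, h4, ← Finset.sum_sub_distrib]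
    simp only [← Finset.sum_sub_distrib]
    rw [Finset.sum_comm]
    refine Finset.sum_congr rfl fun ρ _ => ?_
    rw [isZ, Finset.mul_sum]
    refine Finset.sum_congr rfl fun ε _ => ?_
    rw [h2, mono_add]; ring
  have h0 : 0 ≤ isZ J (s + t) * isZ J 0 - isZ J s * isZ J t := by
    rw [key]
    refine Finset.sum_nonneg fun ρ _ => mul_nonneg ?_ (gks1 (fun e => mul_nonneg (hJ e) ?_) _)
    · have := abs_mono t ρ
      have := le_abs_self (mono t ρ)
      linarith
    · rw [← sg_beq]
      have := abs_sg (ρ (src e) == ρ (tgt e))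
      have := neg_abs_le (sg (ρ (src e) == ρ (tgt e)))
      linarith
  unfold corr
  rw [div_mul_div_comm, div_le_div_iff₀ (by positivity) hZ]
  nlinarith

/-- divide `isZ_rec` for `s` by `isZ_rec` for `0` -/
theorem corr_rec {J : Edge V → ℝ} (hJ : ∀ e, 0 ≤ J e) (e : Edge V) (s : Multiset V) :
    corr J s = (corr (Function.update J e 0) s +
        Real.tanh (J e) * corr (Function.update J e 0) (s + {src e, tgt e})) /
      (1 + Real.tanh (J e) * corr (Function.update J e 0) {src e, tgt e}) := by
  have h0 := isZ_pos J
  have h1 := isZ_pos (Function.update J e 0)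
  have hc := Real.cosh_pos (J e)
  have e0 := isZ_rec J e 0
  rw [zero_add] at e0
  have hd : 1 + Real.tanh (J e) * corr (Function.update J e 0) {src e, tgt e} =
      isZ J 0 / (Real.cosh (J e) * isZ (Function.update J e 0) 0) := by
    rw [e0, Real.tanh_eq_sinh_div_cosh, corr]; field_simp
  have hn : corr (Function.update J e 0) s +
      Real.tanh (J e) * corr (Function.update J e 0) (s + {src e, tgt e}) =
      isZ J s / (Real.cosh (J e) * isZ (Function.update J e 0) 0) := by
    rw [isZ_rec J e s, Real.tanh_eq_sinh_div_cosh, corr, corr]; field_simp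
  rw [hd, hn, corr]
  field_simp

theorem tanh_nonneg' {x : ℝ} (hx : 0 ≤ x) : 0 ≤ Real.tanh x := by
  rw [Real.tanh_eq_sinh_div_cosh]
  exact div_nonneg (Real.sinh_nonneg_iff.2 hx) (Real.cosh_pos x).le

theorem update_nonneg {J : Edge V → ℝ} (hJ : ∀ e, 0 ≤ J e) (e e' : Edge V) :
    0 ≤ Function.update J e 0 e' := by
  by_cases h : e' = e
  · subst h; simp
  · rw [Function.update_of_ne h]; exact hJ e'

theorem corr_update_le {J : Edge V → ℝ} (hJ : ∀ e, 0 ≤ J e) (e : Edge V) (s : Multiset V) :
    corr (Function.update J e 0) s ≤ corr J s := by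
  have hJ' := update_nonneg hJ e
  have ht := tanh_nonneg' (hJ e)
  have h1 := corr_nonneg hJ' {src e, tgt e}
  have h2 := gks2 hJ' s {src e, tgt e}
  rw [corr_rec hJ e s, le_div_iff₀ (by positivity)]
  nlinarith

/-- deleting edges decreases correlations: one edge by `corr_rec` and `gks2`, then induction on
the number of edges with `J' e ≠ J e` -/
theorem corr_mono {J J' : Edge V → ℝ} (hJ : ∀ e, 0 ≤ J e) (h : ∀ e, J' e = J e ∨ J' e = 0)
    (s : Multiset V) : corr J' s ≤ corr J s := by
  classical
  obtain ⟨m, hm⟩ : ∃ m, (Finset.univ.filter fun e => J' e ≠ J e).card = m := ⟨_, rfl⟩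
  induction m generalizing J with
  | zero =>
    have : J' = J := by
      funext e
      by_contra h
      have : e ∈ Finset.univ.filter fun e => J' e ≠ J e := by simpa using h
      rw [Finset.card_eq_zero.1 hm] at this
      simp at this
    rw [this]
  | succ m ih =>
    obtain ⟨e, he⟩ : (Finset.univ.filter fun e => J' e ≠ J e).Nonempty := by
      rw [← Finset.card_pos]; omega
    have he' : J' e = 0 := (h e).resolve_left (by simpa using he)
    refine (ih (update_nonneg hJ e) (fun e' => ?_) ?_).trans (corr_update_le hJ e s)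
    · by_cases h1 : e' = e
      · subst h1; right; exact he'
      · rw [Function.update_of_ne h1]; exact h e'
    · have : (Finset.univ.filter fun e' => J' e' ≠ Function.update J e 0 e') =
          (Finset.univ.filter fun e => J' e ≠ J e).erase e := by
        ext e'
        by_cases h : e' = e
        · subst h; simp [he']
        · simp [h]
      rw [this, Finset.card_erase_of_mem he, hm]; rfl

end Crest.Agent.R167
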