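import Crest.Agent.R167.Rot
import Crest.Agent.R167.Meas
import Crest.Agent.R167.Ising

/-! # Row 167: the embedded Ising model -/

set_option autoImplicit false

namespace Crest.Agent.R167

open MeasureTheory Matrix Crest.ProbabilityR.SpinModel

variable {n : ℕ} {V : Finset Z2} (c : Fin 3 ↪ Fin n) (β : Edge V → ℝ)

theorem emb_continuous_cpl : Continuous fun σ : SpinConfig n V => cpl c β σ :=
  continuous_pi fun e => continuous_const.mul
    ((continuous_co c (src e)).mul (continuous_co c (tgt e)))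

theorem bdd_corr_cpl (s : Multiset V) :
    Bdd fun σ : SpinConfig n V => corr (cpl c β σ) s :=
  Bdd.of_continuous ((continuous_corr s).comp (emb_continuous_cpl c β))

theorem bdd_corr_cplA (s : Multiset V) :
    Bdd fun σ : SpinConfig n V => corr (cplA c β σ) s :=
  Bdd.of_continuous ((continuous_corr s).comp (continuous_pi fun e => continuous_const.mul
    ((continuous_co c (src e)).abs.mul (continuous_co c (tgt e)).abs)))

/-- Average over `ε` the identity `∫ f e^En = ∫ f (flip ε σ) e^(En (flip ε σ))`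
(`measurePreserving_act`, `En_flip`). -/
theorem emb_avg (s : Multiset V) {f : SpinConfig n V → ℝ} (hf : Bdd f)
    (h : ∀ ε σ, f (flip c ε σ) = mono s ε * f σ) :
    (Fintype.card (V → Bool) : ℝ) * ∫ σ, f σ * Real.exp (En β σ) ∂referenceLaw n V =
      ∫ σ, f σ * (Real.exp (En β σ - ∑ e, cpl c β σ e) * isZ (cpl c β σ) s)
        ∂referenceLaw n V := by
  have hb : Bdd fun σ : SpinConfig n V => f σ * Real.exp (En β σ) := hf.mul (bdd_En β).exp
  have h1 : ∀ ε : V → Bool, ∫ σ, f σ * Real.exp (En β σ) ∂referenceLaw n V =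
      ∫ σ, f (flip c ε σ) * Real.exp (En β (flip c ε σ)) ∂referenceLaw n V := by
    intro ε
    have hm := measurePreserving_act (n := n) c (fun x : V => Fm (ε x))
    conv_lhs => rw [← hm.map_eq]
    rw [integral_map hm.measurable.aemeasurable hb.1.aestronglyMeasurable]
    rfl
  have h2 : (Fintype.card (V → Bool) : ℝ) * ∫ σ, f σ * Real.exp (En β σ) ∂referenceLaw n V =
      ∑ ε : V → Bool, ∫ σ, f (flip c ε σ) * Real.exp (En β (flip c ε σ)) ∂referenceLaw n V := by
    rw [← Finset.sum_congr rfl fun ε _ => h1 ε]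
    simp
  rw [h2, ← integral_finsetSum _ fun ε _ =>
    (hb.comp (g := flip c ε) (measurable_act c _)).integrable _]
  congr 1
  funext σ
  rw [isZ, Finset.mul_sum, Finset.mul_sum]
  refine Finset.sum_congr rfl fun ε _ => ?_
  rw [h, En_flip, Real.exp_add, isW]
  ring

/-- `emb_avg` for `(s, f)` and for `(0, f * corr (cpl σ) s)`; the latter function is invariant
under flips: `cpl (flip ε σ) e = cpl σ e * (sg * sg)` (`co_flip`), `corr_gauge`,
`mono_mul_self`. -/
theorem emb0 (s : Multiset V) {f : SpinConfig n V → ℝ} (hf : Bdd f)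
    (h : ∀ ε σ, f (flip c ε σ) = mono s ε * f σ) :
    ∫ σ, f σ ∂gibbs n β = ∫ σ, f σ * corr (cpl c β σ) s ∂gibbs n β := by
  have h1 := emb_avg c β s hf h
  have h2 := emb_avg c β 0 (hf.mul (bdd_corr_cpl c β s)) (by
    intro ε σ
    have e : cpl c β (flip c ε σ) =
        fun e => cpl c β σ e * (sg (ε (src e)) * sg (ε (tgt e))) := by
      funext e
      simp only [cpl, co_flip]; ring
    rw [h, e, corr_gauge, mono_zero]
    calc _ = (mono s ε * mono s ε) * (f σ * corr (cpl c β σ) s) := by ring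
      _ = _ := by rw [mono_mul_self])
  have h3 : ∀ σ : SpinConfig n V, f σ * corr (cpl c β σ) s *
      (Real.exp (En β σ - ∑ e, cpl c β σ e) * isZ (cpl c β σ) 0) =
      f σ * (Real.exp (En β σ - ∑ e, cpl c β σ e) * isZ (cpl c β σ) s) := by
    intro σ
    have := (isZ_pos (cpl c β σ)).ne'
    unfold corr
    field_simp
  simp only [h3] at h2
  have hc : (Fintype.card (V → Bool) : ℝ) ≠ 0 := by exact_mod_cast Fintype.card_ne_zero
  rw [integral_gibbs, integral_gibbs, mul_left_cancel₀ hc (h1.trans h2.symm)]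

theorem emb_sg_abs (t : ℝ) : sg (decide (0 ≤ t)) * |t| = t := by
  by_cases h : 0 ≤ t
  · simp [sg, h, abs_of_nonneg h]
  · simp [sg, h, abs_of_neg (not_le.1 h)]

theorem emb_mul_sg (t : ℝ) : t * sg (decide (0 ≤ t)) = |t| := by
  by_cases h : 0 ≤ t
  · simp [sg, h, abs_of_nonneg h]
  · simp [sg, h, abs_of_neg (not_le.1 h)]

/-- with `η x = decide (0 ≤ co c σ x)`, `co c σ x = sg (η x) * |co c σ x|`, so
`cpl σ = cplA σ * (sg η * sg η)`; `corr_gauge` -/
theorem corr_cpl (σ : SpinConfig n V) (s : Multiset V) :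
    corr (cpl c β σ) s = mono s (fun x => decide (0 ≤ co c σ x)) * corr (cplA c β σ) s := by
  rw [← corr_gauge]
  congr 1
  funext e
  simp only [cpl, cplA]
  conv_lhs => rw [← emb_sg_abs (co c σ (src e)), ← emb_sg_abs (co c σ (tgt e))]
  ring

theorem emb_two (x y : V) :
    ∫ σ, co c σ x * co c σ y ∂gibbs n β =
      ∫ σ, |co c σ x| * |co c σ y| * corr (cplA c β σ) {x, y} ∂gibbs n β := by
  rw [emb0 c β {x, y} ((bdd_co c x).mul (bdd_co c y)) (by
    intro ε σ
    rw [co_flip, co_flip, mono_pair]; ring)]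
  congr 1
  funext σ
  rw [corr_cpl, mono_pair, ← emb_mul_sg, ← emb_mul_sg]
  ring

/-- pointwise: if some `co c σ x`, `x ∈ P`, vanishes then `corr (cplA σ) P.val = 0`
(`corr_eq_zero`, the count is `1`); otherwise `sign (co x) * sg (η x) = 1` for all `x ∈ P`. -/
theorem emb_sign (P : Finset V) :
    ∫ σ, ∏ x ∈ P, Real.sign (co c σ x) ∂gibbs n β =
      ∫ σ, corr (cplA c β σ) P.val ∂gibbs n β := by
  rw [emb0 c β P.val (Bdd.prod fun x _ => bdd_sign c x) (by
    intro ε σ
    rw [mono_val, ← Finset.prod_mul_distrib]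
    refine Finset.prod_congr rfl fun x _ => ?_
    rw [co_flip]
    cases ε x <;> simp [sg, Real.sign_neg])]
  congr 1
  funext σ
  rw [corr_cpl, mono_val, ← mul_assoc, ← Finset.prod_mul_distrib]
  by_cases h0 : ∃ x ∈ P, co c σ x = 0
  · obtain ⟨x, hx, h0⟩ := h0
    rw [corr_eq_zero (cplA c β σ) (x := x), mul_zero]
    · rw [Multiset.count_eq_one_of_mem P.nodup hx]; exact odd_one
    · intro e he
      rcases he with he | he <;> simp [cplA, he, h0]
  · rw [Finset.prod_eq_one, one_mul]
    intro x hx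
    have hne : co c σ x ≠ 0 := fun h => h0 ⟨x, hx, h⟩
    rcases lt_or_gt_of_ne hne with h | h
    · simp [Real.sign_of_neg h, sg, not_le.2 h]
    · simp [Real.sign_of_pos h, sg, h.le]

end Crest.Agent.R167
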