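import Crest.Agent.R167.Mom
import Crest.Agent.R167.Count

/-! # Row 167: localised bound for the derivative of a score -/

set_option autoImplicit false

namespace Crest.Agent.R167

open MeasureTheory Matrix Crest.ProbabilityR.SpinModel

variable {n : ℕ} {V : Finset Z2} {c : Fin 3 ↪ Fin n} {β : Edge V → ℝ} {Λ : Finset V}
  {μ : Measure (SpinConfig n V)} {β₀ : ℝ}

/-- only the gradient of `η` on the edges touching the support of `θ` matters -/
theorem Yf_congr (a b : Fin 3) {θ η η' : Z2 → ℝ}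
    (h : ∀ e : Edge V, (θ (src e) = 0 ∧ θ (tgt e) = 0) ∨ dd η e = dd η' e) :
    Yf c β a θ b η = Yf c β a θ b η' := by
  unfold Yf
  congr 1
  funext e
  rcases h e with ⟨h1, h2⟩ | h1
  · simp [dX, h1, h2]
  · simp [dX, sM, h1]

/-- far supports do not interact (`Yf_congr` with `η' = 0`, `dinf_src_tgt`) -/
theorem Yf_eq_zero (a b : Fin 3) {θ η : Z2 → ℝ} {p q : Z2} {r s : ℕ}
    (hθ : ∀ z, r < dinf z p → θ z = 0) (hη : ∀ z, s < dinf z q → η z = 0)
    (hpq : r + s + 1 < dinf p q) (σ : SpinConfig n V) : Yf c β a θ b η σ = 0 := by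
  rw [Yf_congr a b (η' := fun _ => 0) fun e => ?_]
  · have : dX a θ (sM (V := V) b fun _ => 0) = fun _ => 0 := by
      funext e
      simp [dX, sM, dd]
    rw [Yf, this, bil_zero]
  · have h1 := dinf_src_tgt e
    by_cases h2 : r < dinf (src e) p ∧ r < dinf (tgt e) p
    · exact Or.inl ⟨hθ _ h2.1, hθ _ h2.2⟩
    · right
      have h3 := dinf_triangle (src e) (tgt e) p
      have h4 := dinf_triangle (tgt e) (src e) p
      have h5 := dinf_triangle p (src e) q
      have h6 := dinf_triangle p (tgt e) q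
      rw [dinf_comm (tgt e) (src e)] at h4
      rw [dinf_comm p (src e)] at h5
      rw [dinf_comm p (tgt e)] at h6
      unfold dd
      rw [hη _ (by omega), hη _ (by omega)]

/-- Replace `η` by `η' z = cut p (4 l) l z * (η z - η p)` (`Yf_congr`, `cut_eq_one`); by
`cutoff_spec`, `|η'| ≤ 5 l g`, `Lip η' (6 g)`, and `η'` vanishes for `5 l ≤ dinf z p`.  Then
`D2 θ ≤ 162 m²`, `D2 η' ≤ 12168 l² g²` (`D2_le`) and `momY`. -/
theorem loc [IsProbabilityMeasure μ] (hβ : Adm0 β₀ β) (hβ₀ : 0 ≤ β₀) (hW : Ward c β Λ μ)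
    (a b : Fin 3) {θ η : Z2 → ℝ} {p : Z2} {l : ℕ} (hl : 1 ≤ l) {m g : ℝ}
    (hΛ : ∀ x : V, dinf x p ≤ 5 * l → x ∈ Λ) (h0 : ∀ z, 3 * l < dinf z p → θ z = 0)
    (hm : ∀ z, |θ z| ≤ m) (hθ : Lip θ (m / l)) (hη : Lip η g) :
    ∫ σ, Yf c β a θ b η σ ^ 2 ∂μ ≤ (5000 * (β₀ + 1) * (m * g * l)) ^ 2 := by
  have hl' : (1 : ℝ) ≤ l := by exact_mod_cast hl
  have hg := hη.nonneg
  have hm0 : 0 ≤ m := (abs_nonneg _).trans (hm p)
  obtain ⟨hb, hL⟩ := cutoff_spec p (4 * l) hl hη
  have hz : ∀ z, 5 * l < dinf z p → cut p (4 * l) l z * (η z - η p) = 0 := fun z hz => by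
    rw [cut_eq_zero (by omega), zero_mul]
  have e1 : g * ((((4 * l : ℕ) : ℝ) + l) / l + 1) = 6 * g := by
    push_cast
    field_simp
    ring
  have e2 : g * (((4 * l : ℕ) : ℝ) + l) = 5 * (g * l) := by
    push_cast
    ring
  rw [e1] at hL
  rw [e2] at hb
  rw [Yf_congr a b (η' := fun z => cut p (4 * l) l z * (η z - η p)) fun e => ?_]
  swap
  · have h1 := dinf_src_tgt e
    by_cases h2 : 3 * l < dinf (src e) p ∧ 3 * l < dinf (tgt e) p
    · exact Or.inl ⟨h0 _ h2.1, h0 _ h2.2⟩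
    · right
      have h3 := dinf_triangle (src e) (tgt e) p
      have h4 := dinf_triangle (tgt e) (src e) p
      rw [dinf_comm (tgt e) (src e)] at h4
      simp only [dd]
      rw [cut_eq_one hl (c := p) (R := 4 * l) (p := src e) (by omega),
        cut_eq_one hl (c := p) (R := 4 * l) (p := tgt e) (by omega)]
      ring
  have hs : ∀ {f : Z2 → ℝ}, (∀ z, 5 * l < dinf z p → f z = 0) → Supp Λ f := fun hf x hx =>
    hf _ (not_le.1 fun h => hx (hΛ x h))
  refine (momY hβ hβ₀ hW a b (hs fun z hz => h0 z (by omega)) (hs hz) hm hb).trans ?_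
  have hD1 : D2 V θ ≤ 162 * m ^ 2 := by
    refine (D2_le V h0 hθ).trans ?_
    have : (2 * ((3 * l : ℕ) : ℝ) + 3) * (m / l) ≤ 9 * m := by
      push_cast
      rw [← mul_div_assoc, div_le_iff₀ (by positivity)]
      nlinarith
    have h2 := pow_le_pow_left₀ (by positivity) this 2
    rw [mul_pow] at h2
    linarith
  have hD2 : D2 V (fun z => cut p (4 * l) l z * (η z - η p)) ≤ 12168 * (g * l) ^ 2 := by
    refine (D2_le V hz hL).trans ?_
    have : (2 * ((5 * l : ℕ) : ℝ) + 3) * (6 * g) ≤ 78 * (g * l) := by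
      push_cast
      nlinarith
    have h2 := pow_le_pow_left₀ (by positivity) this 2
    rw [mul_pow] at h2
    linarith
  have hD0 : ∀ f : Z2 → ℝ, 0 ≤ D2 V f := fun f => Finset.sum_nonneg fun _ _ => sq_nonneg _
  calc _ ≤ 12 * β₀ ^ 2 * (162 * m ^ 2) * (12168 * (g * l) ^ 2) +
        4 * β₀ * (2 * m ^ 2 * (12168 * (g * l) ^ 2) + (5 * (g * l)) ^ 2 * (162 * m ^ 2)) := by
        have := hD0 θ
        have := hD0 fun z => cut p (4 * l) l z * (η z - η p)
        gcongr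
    _ = (23654592 * β₀ ^ 2 + 113544 * β₀) * (m * g * l) ^ 2 := by ring
    _ ≤ (5000 * (β₀ + 1)) ^ 2 * (m * g * l) ^ 2 := by
        gcongr
        nlinarith
    _ = _ := by ring

end Crest.Agent.R167
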