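import Crest.Agent.R167.Cross
import Crest.Agent.R167.Loc

/-! # Row 167: estimates for pairs of scales -/

set_option autoImplicit false

namespace Crest.Agent.R167

open MeasureTheory Matrix Crest.ProbabilityR.SpinModel

variable {n : ℕ} {V : Finset Z2} {c : Fin 3 ↪ Fin n} {β : Edge V → ℝ}
  {μ : Measure (SpinConfig n V)} {β₀ : ℝ} {u : Z2} {L l l' : ℕ}

/-- the constant of the scale estimate -/
def Kc (β₀ : ℝ) : ℝ := 30000000 * (5000 * (β₀ + 1)) ^ 2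

theorem SF.supp (F : SF u L l) (hL : 10 * l ≤ L) {k : Ix} (hk : k ∈ F.T) :
    Supp (box V u (4 * L)) (F.θ k) ∧ Supp (box V u (4 * L)) (F.φ k) := by
  have h : ∀ x : V, x ∉ box V u (4 * L) → 3 * l < dinf x (F.ctr k) := by
    intro x hx
    rw [mem_box] at hx
    have h1 := dinf_triangle x (F.ctr k) u
    have h2 := F.ctr_hi k hk
    omega
  exact ⟨fun x hx => F.suppθ k x (h x hx), fun x hx => F.suppφ k x (h x hx)⟩

theorem SF.supp_ψ (F : SF u L l) : Supp (box V u (4 * L)) F.ψ := by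
  intro x hx
  rw [mem_box] at hx
  exact F.ψ_out x (not_le.1 hx)

theorem SF.zero_in (F : SF u L l) (hl : 1 ≤ l) (hL : 10 * l ≤ L) {k : Ix} (hk : k ∈ F.T) {p : Z2}
    (hp : dinf p u ≤ L) : F.θ k p = 0 ∧ F.φ k p = 0 := by
  have h : 3 * l < dinf p (F.ctr k) := by
    have h1 := dinf_triangle (F.ctr k) p u
    have h2 := F.ctr_lo k hk
    rw [dinf_comm (F.ctr k) p] at h1
    omega
  exact ⟨F.suppθ k p h, F.suppφ k p h⟩

/-- `loc` four times (centre `F.ctr k`, scale `l`, gradients `F'.mθ k' / l'`, `F'.mφ k' / l'`),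
`abs_integral_mul_le` twice, and `F.mm`, `F'.mm` (the sizes are nonnegative by `bθ`, `bφ`). -/
theorem pair_le [IsProbabilityMeasure μ] (hβ : Adm0 β₀ β) (hβ₀ : 0 ≤ β₀)
    (hW : Ward c β (box V u (4 * L)) μ) (F : SF u L l) (F' : SF u L l') (hl : 1 ≤ l)
    (hll : l ≤ l') (hL : 10 * l' ≤ L) (a : Fin 3) {k : Ix} (hk : k ∈ F.T) (k' : Ix) :
    |∫ σ, Cr c β a (F.θ k) (F.φ k) (F'.θ k') (F'.φ k') σ ∂μ| ≤
      128 * (5000 * (β₀ + 1)) ^ 2 * (l : ℝ) ^ 3 / ((L : ℝ) ^ 2 * l') := by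
  have hΛ : ∀ x : V, dinf x (F.ctr k) ≤ 5 * l → x ∈ box V u (4 * L) := by
    intro x hx
    rw [mem_box]
    have h1 := dinf_triangle x (F.ctr k) u
    have h2 := F.ctr_hi k hk
    omega
  have hl0 : (0 : ℝ) < l := by exact_mod_cast hl
  have hl0' : (0 : ℝ) < l' := by exact_mod_cast hl.trans hll
  have hL0 : (0 : ℝ) < L := by exact_mod_cast (by omega : 0 < L)
  have m1 : 0 ≤ F.mθ k := (abs_nonneg _).trans (F.bθ k u)
  have m2 : 0 ≤ F.mφ k := (abs_nonneg _).trans (F.bφ k u)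
  have m3 : 0 ≤ F'.mθ k' := (abs_nonneg _).trans (F'.bθ k' u)
  have m4 : 0 ≤ F'.mφ k' := (abs_nonneg _).trans (F'.bφ k' u)
  have e1 := loc hβ hβ₀ hW a a hl hΛ (F.suppθ k) (F.bθ k) (F.lipθ k) (F'.lipθ k')
  have e2 := loc hβ hβ₀ hW (a + 1) (a + 1) hl hΛ (F.suppφ k) (F.bφ k) (F.lipφ k) (F'.lipφ k')
  have e3 := loc hβ hβ₀ hW (a + 1) a hl hΛ (F.suppφ k) (F.bφ k) (F.lipφ k) (F'.lipθ k')
  have e4 := loc hβ hβ₀ hW a (a + 1) hl hΛ (F.suppθ k) (F.bθ k) (F.lipθ k) (F'.lipφ k')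
  have f1 := abs_integral_mul_le μ (bdd_Yf c β _ _ _ _) (bdd_Yf c β _ _ _ _) (by positivity)
    (by positivity) e1 e2
  have f2 := abs_integral_mul_le μ (bdd_Yf c β _ _ _ _) (bdd_Yf c β _ _ _ _) (by positivity)
    (by positivity) e3 e4
  have hmm : (F.mθ k * F.mφ k) * (F'.mθ k' * F'.mφ k') ≤ (8 * l / L) * (8 * l' / L) :=
    mul_le_mul (F.mm k) (F'.mm k') (by positivity) (by positivity)
  simp only [Cr]
  rw [integral_add (((bdd_Yf c β _ _ _ _).mul (bdd_Yf c β _ _ _ _)).integrable μ)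
    (((bdd_Yf c β _ _ _ _).mul (bdd_Yf c β _ _ _ _)).integrable μ)]
  refine (abs_add_le _ _).trans ((add_le_add f1 f2).trans ?_)
  calc _ = 2 * (5000 * (β₀ + 1)) ^ 2 * ((l : ℝ) / l') ^ 2 *
        ((F.mθ k * F.mφ k) * (F'.mθ k' * F'.mφ k')) := by ring
    _ ≤ 2 * (5000 * (β₀ + 1)) ^ 2 * ((l : ℝ) / l') ^ 2 * ((8 * l / L) * (8 * l' / L)) :=
        mul_le_mul_of_nonneg_left hmm (by positivity)
    _ = _ := by field_simp; ring

/-- `Yf_eq_zero` -/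
theorem pair_zero (F : SF u L l) (F' : SF u L l') (hl : 1 ≤ l) (hll : l ≤ l') (a : Fin 3)
    {k k' : Ix} (h : 7 * l' < dinf (F'.ctr k') (F.ctr k)) (σ : SpinConfig n V) :
    Cr c β a (F.θ k) (F.φ k) (F'.θ k') (F'.φ k') σ = 0 := by
  have h' : 3 * l + 3 * l' + 1 < dinf (F.ctr k) (F'.ctr k') := by
    rw [dinf_comm]; omega
  rw [Cr, Yf_eq_zero a a (F.suppθ k) (F'.suppθ k') h' σ,
    Yf_eq_zero (a + 1) a (F.suppφ k) (F'.suppθ k') h' σ, zero_mul, zero_mul, add_zero]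

/-- `cross`, `pair_le`, `pair_zero`, `F'.near`, `F.card`: `3 * 128 * 128 * 450 ≤ 3 * 10 ^ 7` -/
theorem est [IsProbabilityMeasure μ] (hβ : Adm0 β₀ β) (hβ₀ : 0 ≤ β₀)
    (hW : Ward c β (box V u (4 * L)) μ) (F : SF u L l) (F' : SF u L l') (hl : 1 ≤ l)
    (hll : l ≤ l') (hL : 10 * l' ≤ L) :
    ∑ a : Fin 3, ∫ σ, Qf c β a F.T F.θ F.φ σ * Qf c β a F'.T F'.θ F'.φ σ ∂μ ≤
      Kc β₀ * l / l' := by
  have hL' : 10 * l ≤ L := by omega
  rw [cross hW F.adm (fun k hk => F.supp hL' hk) F'.adm (fun k hk => F'.supp hL hk) F'.supp_ψ]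
  have hl0 : (0 : ℝ) < l := by exact_mod_cast hl
  have hl0' : (0 : ℝ) < l' := by exact_mod_cast hl.trans hll
  have hL0 : (0 : ℝ) < L := by exact_mod_cast (show 0 < L by omega)
  obtain ⟨C, hC⟩ : ∃ C : ℝ, C = (5000 * (β₀ + 1)) ^ 2 := ⟨_, rfl⟩
  have hC0 : 0 ≤ C := by rw [hC]; positivity
  obtain ⟨B, hB⟩ : ∃ B : ℝ, B = 128 * C * (l : ℝ) ^ 3 / ((L : ℝ) ^ 2 * l') := ⟨_, rfl⟩
  have hB0 : 0 ≤ B := by rw [hB]; positivity
  have h1 : ∀ a : Fin 3, ∀ k ∈ F.T,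
      ∑ k' ∈ F'.T, ∫ σ, Cr c β a (F.θ k) (F.φ k) (F'.θ k') (F'.φ k') σ ∂μ ≤ 450 * B := by
    intro a k hk
    rw [← Finset.sum_filter_add_sum_filter_not F'.T fun k' => dinf (F'.ctr k') (F.ctr k) ≤ 7 * l']
    have e2 : ∑ k' ∈ F'.T with ¬dinf (F'.ctr k') (F.ctr k) ≤ 7 * l',
        ∫ σ, Cr c β a (F.θ k) (F.φ k) (F'.θ k') (F'.φ k') σ ∂μ = 0 := by
      refine Finset.sum_eq_zero fun k' hk' => ?_
      have hk'' := (Finset.mem_filter.1 hk').2
      simp only [pair_zero F F' hl hll a (not_le.1 hk''), integral_zero]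
    rw [e2, add_zero]
    refine (Finset.sum_le_card_nsmul _ _ B fun k' _ => ?_).trans ?_
    · refine (le_abs_self _).trans ?_
      rw [hB, hC]
      exact pair_le hβ hβ₀ hW F F' hl hll hL a hk k'
    · rw [nsmul_eq_mul]
      refine mul_le_mul_of_nonneg_right ?_ hB0
      exact_mod_cast F'.near (F.ctr k)
  have h2 : (F.T.card : ℝ) * (450 * B) ≤ 128 * 128 * 450 * C * l / l' := by
    have hc : (F.T.card : ℝ) * (l : ℝ) ^ 2 ≤ 128 * (L : ℝ) ^ 2 := by exact_mod_cast F.card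
    have e : (F.T.card : ℝ) * (450 * B) =
        ((F.T.card : ℝ) * (l : ℝ) ^ 2) * (450 * 128 * C * l / ((L : ℝ) ^ 2 * l')) := by
      rw [hB]; ring
    rw [e]
    refine (mul_le_mul_of_nonneg_right hc (by positivity)).trans (le_of_eq ?_)
    field_simp
  have h3 : ∀ a : Fin 3, ∑ k ∈ F.T, ∑ k' ∈ F'.T,
      ∫ σ, Cr c β a (F.θ k) (F.φ k) (F'.θ k') (F'.φ k') σ ∂μ ≤ 128 * 128 * 450 * C * l / l' := by
    intro a
    refine (Finset.sum_le_card_nsmul _ _ _ (h1 a)).trans ?_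
    rw [nsmul_eq_mul]
    exact h2
  refine (Finset.sum_le_card_nsmul _ _ _ fun a _ => h3 a).trans ?_
  rw [Finset.card_univ, Fintype.card_fin, nsmul_eq_mul, Kc, ← hC]
  have : 0 ≤ C * l / l' := by positivity
  calc ((3 : ℕ) : ℝ) * (128 * 128 * 450 * C * l / l') = 22118400 * (C * l / l') := by
        push_cast; ring
    _ ≤ 30000000 * (C * l / l') := by linarith
    _ = _ := by ring

theorem est_sum_le (N : ℕ) : ∑ i ∈ Finset.range N, ∑ j ∈ Finset.range N,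
    ((2 : ℝ) ^ min i j / 2 ^ max i j) ≤ 3 * N := by
  induction N with
  | zero => simp
  | succ N ih =>
    have h1 : ∑ j ∈ Finset.range N, ((2 : ℝ) ^ j / 2 ^ N) ≤ 1 := by
      rw [← Finset.sum_div, div_le_one (by positivity), geom_sum_eq (by norm_num)]
      norm_num
    have h2 : ∑ i ∈ Finset.range N, ((2 : ℝ) ^ min i N / 2 ^ max i N) ≤ 1 := by
      refine le_trans (le_of_eq (Finset.sum_congr rfl fun i hi => ?_)) h1
      have := (Finset.mem_range.1 hi).le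
      rw [min_eq_left this, max_eq_right this]
    have h3 : ∑ j ∈ Finset.range N, ((2 : ℝ) ^ min N j / 2 ^ max N j) ≤ 1 := by
      simpa only [min_comm, max_comm] using h2
    simp only [Finset.sum_range_succ, Finset.sum_add_distrib, min_self, max_self]
    rw [div_self (by positivity)]
    push_cast
    linarith

/-- The `a = 0` term is at most the sum over `a` of the (nonnegative) second moments; expand the
square, apply `est` to each pair `(i, j)` (in the right order), and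
`∑ i j, 2 ^ min i j / 2 ^ max i j ≤ 3 N`. -/
theorem tot [IsProbabilityMeasure μ] (hβ : Adm0 β₀ β) (hβ₀ : 0 ≤ β₀)
    (hW : Ward c β (box V u (4 * L)) μ) {N : ℕ} (hL : 10 * 2 ^ N ≤ L)
    (F : ∀ j : Fin N, SF u L (2 ^ (j : ℕ))) :
    ∫ σ, (∑ j, Qf c β 0 (F j).T (F j).θ (F j).φ σ) ^ 2 ∂μ ≤ 3 * Kc β₀ * N := by
  obtain ⟨Q, hQ⟩ : ∃ Q : Fin 3 → Fin N → SpinConfig n V → ℝ,
      Q = fun a j => Qf c β a (F j).T (F j).θ (F j).φ := ⟨_, rfl⟩
  have hb : ∀ a j, Bdd (Q a j) := fun a j => by rw [hQ]; exact bdd_Qf c β _ _ _ _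
  have hK : 0 ≤ Kc β₀ := by rw [Kc]; positivity
  have h1 : ∀ a, ∫ σ, (∑ j, Q a j σ) ^ 2 ∂μ = ∑ i, ∑ j, ∫ σ, Q a i σ * Q a j σ ∂μ := by
    intro a
    have e : ∀ σ, (∑ j, Q a j σ) ^ 2 = ∑ i, ∑ j, Q a i σ * Q a j σ := fun σ => by
      rw [sq, Finset.sum_mul_sum]
    simp only [e]
    rw [integral_finsetSum _ fun i _ =>
      (Bdd.sum fun j _ => (hb a i).mul (hb a j)).integrable μ]
    exact Finset.sum_congr rfl fun i _ =>
      integral_finsetSum _ fun j _ => ((hb a i).mul (hb a j)).integrable μ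
  have hle : ∀ i j : Fin N, i ≤ j → ∑ a, ∫ σ, Q a i σ * Q a j σ ∂μ ≤
      Kc β₀ * (2 ^ (i : ℕ) / 2 ^ (j : ℕ)) := by
    intro i j hij
    have hj : 10 * 2 ^ (j : ℕ) ≤ L :=
      le_trans (Nat.mul_le_mul_left _ (Nat.pow_le_pow_right (by norm_num) j.2.le)) hL
    have := est hβ hβ₀ hW (F i) (F j) Nat.one_le_two_pow
      (Nat.pow_le_pow_right (by norm_num) hij) hj
    rw [hQ]
    refine this.trans (le_of_eq ?_)
    push_cast
    ring
  have h2 : ∀ i j : Fin N, ∑ a, ∫ σ, Q a i σ * Q a j σ ∂μ ≤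
      Kc β₀ * (2 ^ min (i : ℕ) j / 2 ^ max (i : ℕ) j) := by
    intro i j
    rcases le_total i j with hij | hij
    · rw [min_eq_left (show (i : ℕ) ≤ j from hij), max_eq_right (show (i : ℕ) ≤ j from hij)]
      exact hle i j hij
    · rw [min_eq_right (show (j : ℕ) ≤ i from hij), max_eq_left (show (j : ℕ) ≤ i from hij)]
      simpa only [mul_comm (Q _ j _)] using hle j i hij
  have h3 : ∫ σ, (∑ j, Q 0 j σ) ^ 2 ∂μ ≤ ∑ a, ∫ σ, (∑ j, Q a j σ) ^ 2 ∂μ :=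
    Finset.single_le_sum (f := fun a => ∫ σ, (∑ j, Q a j σ) ^ 2 ∂μ)
      (fun a _ => integral_nonneg fun σ => sq_nonneg _) (Finset.mem_univ 0)
  have h4 : ∑ a, ∫ σ, (∑ j, Q a j σ) ^ 2 ∂μ = ∑ i, ∑ j, ∑ a, ∫ σ, Q a i σ * Q a j σ ∂μ := by
    simp only [h1]
    rw [Finset.sum_comm]
    exact Finset.sum_congr rfl fun i _ => Finset.sum_comm
  have h5 : ∑ i : Fin N, ∑ j : Fin N, ((2 : ℝ) ^ min (i : ℕ) j / 2 ^ max (i : ℕ) j) ≤ 3 * N := by
    refine le_trans (le_of_eq ?_) (est_sum_le N)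
    rw [← Fin.sum_univ_eq_sum_range
      (fun i => ∑ j ∈ Finset.range N, ((2 : ℝ) ^ min i j / 2 ^ max i j)) N]
    exact Finset.sum_congr rfl fun i _ => Fin.sum_univ_eq_sum_range
      (fun j => (2 : ℝ) ^ min (i : ℕ) j / 2 ^ max (i : ℕ) j) N
  have h6 : ∫ σ, (∑ j, Q 0 j σ) ^ 2 ∂μ ≤ 3 * Kc β₀ * N := by
    refine h3.trans (h4.le.trans ((Finset.sum_le_sum fun i _ =>
      Finset.sum_le_sum fun j _ => h2 i j).trans ?_))
    simp only [← Finset.mul_sum]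
    calc _ ≤ Kc β₀ * (3 * N) := mul_le_mul_of_nonneg_left h5 hK
      _ = _ := by ring
  rw [hQ] at h6
  exact h6

end Crest.Agent.R167
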