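import Crest.Agent.R167.Rot
import Crest.Agent.R167.Meas
import Crest.Agent.R167.Geo

/-! # Row 167: Gibbs kernels I -/

set_option autoImplicit false

namespace Crest.Agent.R167

open MeasureTheory Matrix Crest.ProbabilityR.SpinModel

variable {n : ℕ} {V : Finset Z2}

theorem measurable_pw (Λ : Finset V) :
    Measurable fun p : SpinConfig n V × SpinConfig n V =>
      (Λ.piecewise p.2 p.1 : SpinConfig n V) := by
  refine measurable_pi_lambda _ fun x => ?_
  by_cases hx : x ∈ Λ
  · simp only [Finset.piecewise_eq_of_mem _ _ _ hx]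
    exact (measurable_pi_apply x).comp measurable_snd
  · simp only [Finset.piecewise_eq_of_notMem _ _ _ hx]
    exact (measurable_pi_apply x).comp measurable_fst

theorem ker_measurable_pw (Λ : Finset V) (ξ : SpinConfig n V) :
    Measurable fun τ : SpinConfig n V => (Λ.piecewise τ ξ : SpinConfig n V) :=
  (measurable_pw Λ).comp (measurable_const.prodMk measurable_id)

theorem ker_integral_act (c : Fin 3 ↪ Fin n) (O : V → M3) {H : SpinConfig n V → ℝ}
    (hH : Measurable H) :
    ∫ τ, H (act c O τ) ∂referenceLaw n V = ∫ τ, H τ ∂referenceLaw n V := by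
  have h := measurePreserving_act (V := V) c O
  rw [← integral_map h.measurable.aemeasurable hH.aestronglyMeasurable, h.map_eq]

/-- `integral_tilted`, `integral_map` -/
theorem kerE_eq (β : Edge V → ℝ) (Λ : Finset V) {F : SpinConfig n V → ℝ} (hF : Bdd F)
    (ξ : SpinConfig n V) :
    kerE β Λ F ξ =
      (∫ τ, F (Λ.piecewise τ ξ) * Real.exp (En β (Λ.piecewise τ ξ : SpinConfig n V))
          ∂referenceLaw n V) /
        ∫ τ, Real.exp (En β (Λ.piecewise τ ξ : SpinConfig n V)) ∂referenceLaw n V := by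
  have hm := (ker_measurable_pw (n := n) Λ ξ).aemeasurable (μ := referenceLaw n V)
  have hE := (bdd_En (n := n) β).exp.1
  rw [kerE, kerM, integral_tilted, integral_map hm hE.aestronglyMeasurable, integral_map hm,
    ← integral_div]
  · refine integral_congr_ae (Filter.Eventually.of_forall fun τ => ?_)
    simp only [smul_eq_mul]
    ring
  · exact ((hE.div_const _).smul hF.1).aestronglyMeasurable

/-- `isProbabilityMeasure_tilted` -/
theorem kerM_prob (hn : 1 ≤ n) (β : Edge V → ℝ) (Λ : Finset V) (ξ : SpinConfig n V) :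
    IsProbabilityMeasure (kerM β Λ ξ) := by
  have hm := (ker_measurable_pw (n := n) Λ ξ).aemeasurable (μ := referenceLaw n V)
  have h0 := ref_neZero hn V
  have : NeZero ((referenceLaw n V).map
      fun τ : SpinConfig n V => (Λ.piecewise τ ξ : SpinConfig n V)) :=
    ⟨(Measure.map_ne_zero_iff hm).2 h0.out⟩
  exact isProbabilityMeasure_tilted ((bdd_En β).exp.integrable _)

theorem ker_flow_pw (c : Fin 3 ↪ Fin n) (a : Fin 3) {Λ : Finset V} {θ : Z2 → ℝ} (hθ : Supp Λ θ)
    (t : ℝ) (τ ξ : SpinConfig n V) :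
    flow c a θ t (Λ.piecewise τ ξ) = Λ.piecewise (flow c a θ t τ) ξ := by
  funext x
  by_cases hx : x ∈ Λ
  · rw [Finset.piecewise_eq_of_mem _ _ _ hx]
    simp only [flow, act, Finset.piecewise_eq_of_mem _ _ _ hx]
  · rw [flow_apply_of_zero c a t _ (hθ x hx), Finset.piecewise_eq_of_notMem _ _ _ hx,
      Finset.piecewise_eq_of_notMem _ _ _ hx]

/-- Both sides are `kerE` of bounded functions.  For `θ` supported in `Λ`,
`flow t (Λ.piecewise τ ξ) = Λ.piecewise (flow t τ) ξ` (`flow_apply_of_zero`); change variables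
`τ ↦ flow (-t) τ` (`measurePreserving_act`, `flow_add`, `flow_zero`). -/
theorem kerM_QI (c : Fin 3 ↪ Fin n) (β : Edge V → ℝ) (Λ : Finset V) (ξ : SpinConfig n V) :
    QI c β Λ (kerM β Λ ξ) := by
  intro a θ hθ t F hF
  have hfl : ∀ s : ℝ, Measurable (flow c a θ s : SpinConfig n V → SpinConfig n V) := fun s =>
    measurable_act c _
  have b1 : Bdd fun σ => F (flow c a θ t σ) := hF.comp (hfl t)
  have b2 : Bdd fun σ => F σ * Real.exp (En β (flow c a θ (-t) σ) - En β σ) :=
    hF.mul (((bdd_En β).comp (hfl (-t))).sub (bdd_En β)).exp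
  have e1 := kerE_eq β Λ b1 ξ
  have e2 := kerE_eq β Λ b2 ξ
  unfold kerE at e1 e2
  rw [e1, e2]
  congr 1
  have b3 : Bdd fun σ => F σ * Real.exp (En β (flow c a θ (-t) σ)) :=
    hF.mul ((bdd_En β).comp (hfl (-t))).exp
  have e3 := ker_integral_act c (fun x : V => Rm a (t * θ x))
    (b3.1.comp (ker_measurable_pw Λ ξ))
  simp only [Function.comp_apply] at e3
  have e4 : ∀ τ : SpinConfig n V, act c (fun x : V => Rm a (t * θ x)) τ = flow c a θ t τ :=
    fun _ => rfl
  simp only [e4, ← ker_flow_pw c a hθ, flow_add, neg_add_cancel, flow_zero] at e3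
  rw [e3]
  refine integral_congr_ae (Filter.Eventually.of_forall fun τ => ?_)
  simp only
  rw [mul_assoc, ← Real.exp_add, sub_add_cancel]

/-- `halfTurn (Λ.piecewise τ ξ) = Λ.piecewise (halfTurn τ) (halfTurn ξ)`, `En_act_const`,
`measurePreserving_act` -/
theorem kerE_odd (c : Fin 3 ↪ Fin n) (β : Edge V → ℝ) (Λ : Finset V) {F : SpinConfig n V → ℝ}
    (hF : Bdd F) (hodd : ∀ σ, F (halfTurn c σ) = -F σ) (ξ : SpinConfig n V) :
    kerE β Λ F (halfTurn c ξ) = -kerE β Λ F ξ := by
  have hpw : ∀ τ : SpinConfig n V,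
      (Λ.piecewise (act c (fun _ => Rm 2 Real.pi) τ) (halfTurn c ξ) : SpinConfig n V) =
        halfTurn c (Λ.piecewise τ ξ) := by
    intro τ
    funext x
    by_cases hx : x ∈ Λ
    · simp only [halfTurn, act, Finset.piecewise_eq_of_mem _ _ _ hx]
    · simp only [halfTurn, act, Finset.piecewise_eq_of_notMem _ _ _ hx]
  have hE : ∀ σ : SpinConfig n V, En β (halfTurn c σ) = En β σ := fun σ => En_act_const c β _ σ
  have e1 := ker_integral_act c (fun _ : V => Rm 2 Real.pi)
    ((hF.mul (bdd_En β).exp).1.comp (ker_measurable_pw Λ (halfTurn c ξ)))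
  have e2 := ker_integral_act c (fun _ : V => Rm 2 Real.pi)
    ((bdd_En β).exp.1.comp (ker_measurable_pw Λ (halfTurn c ξ)))
  simp only [Function.comp_apply, hpw, hE, hodd] at e1 e2
  rw [kerE_eq β Λ hF, kerE_eq β Λ hF, ← e1, ← e2, ← neg_div, ← integral_neg]
  simp only [neg_mul]

end Crest.Agent.R167
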