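import Crest.Agent.R167.Ising

/-! # Row 167: Lieb's inequality -/

set_option autoImplicit false

namespace Crest.Agent.R167

open MeasureTheory Matrix Crest.ProbabilityR.SpinModel

variable {V : Finset Z2}

/-- restriction of the couplings to a set of edges -/
def liebR (J : Edge V → ℝ) (W : Finset (Edge V)) : Edge V → ℝ := fun e => if e ∈ W then J e else 0

theorem liebR_nonneg {J : Edge V → ℝ} (hJ : ∀ e, 0 ≤ J e) (W : Finset (Edge V)) (e : Edge V) :
    0 ≤ liebR J W e := by
  unfold liebR; split_ifs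
  · exact hJ e
  · exact le_rfl

theorem delE_nonneg {J : Edge V → ℝ} (hJ : ∀ e, 0 ≤ J e) (D : Finset V) (e : Edge V) :
    0 ≤ delE D J e := by
  unfold delE; split_ifs
  · exact le_rfl
  · exact hJ e

theorem delE_or (J : Edge V → ℝ) (D : Finset V) (e : Edge V) :
    delE D J e = J e ∨ delE D J e = 0 := by
  unfold delE; split_ifs
  · exact Or.inr rfl
  · exact Or.inl rfl

theorem lieb_aux {J : Edge V → ℝ} (hJ : ∀ e, 0 ≤ J e) (D S : Finset V)
    (h1 : ∀ e, src e ∈ D → tgt e ∉ D → tgt e ∈ S) (h2 : ∀ e, tgt e ∈ D → src e ∉ D → src e ∈ S)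
    {a : V} (ha : a ∈ D) (m : ℕ) : ∀ W : Finset (Edge V), W.card = m → ∀ y, y ∉ D →
    corr (liebR J W) {a, y} ≤ ∑ z ∈ S, corr J {a, z} * corr (delE D (liebR J W)) {z, y} := by
  induction m using Nat.strong_induction_on with
  | _ m ih =>
  intro W hW y hy
  have hnn : ∀ z ∈ S, 0 ≤ corr J {a, z} * corr (delE D (liebR J W)) {z, y} := fun z _ =>
    mul_nonneg (corr_nonneg hJ _) (corr_nonneg (delE_nonneg (liebR_nonneg hJ W) D) _)
  by_cases hyS : y ∈ S
  · refine le_trans ?_ (Finset.single_le_sum hnn hyS)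
    rw [corr_self, mul_one]
    refine corr_mono hJ (fun e => ?_) _
    unfold liebR; split_ifs
    · exact Or.inl rfl
    · exact Or.inr rfl
  by_cases hex : ∃ e ∈ W, src e = y ∨ tgt e = y
  swap
  · have hay : a ≠ y := fun h => hy (h ▸ ha)
    rw [corr_eq_zero (liebR J W) (x := y)]
    · exact Finset.sum_nonneg hnn
    · simp [hay.symm]
    · intro e he
      unfold liebR
      rw [if_neg fun h => hex ⟨e, h, he⟩]
  obtain ⟨e, heW, he⟩ := hex
  obtain ⟨y', hy', hsD, htD, hmono⟩ : ∃ y', y' ∉ D ∧ src e ∉ D ∧ tgt e ∉ D ∧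
      ∀ (z : V) (ε : V → Bool), mono ({z, y} + {src e, tgt e}) ε = mono {z, y'} ε := by
    rcases he with he | he
    · have h3 : tgt e ∉ D := fun h => hyS (he ▸ h2 e h (he ▸ hy))
      refine ⟨tgt e, h3, he ▸ hy, h3, fun z ε => ?_⟩
      rw [mono_add, mono_pair, mono_pair, mono_pair, he]
      calc _ = sg (ε z) * sg (ε (tgt e)) * (sg (ε y) * sg (ε y)) := by ring
        _ = _ := by rw [sg_mul_self, mul_one]
    · have h3 : src e ∉ D := fun h => hyS (he ▸ h1 e h (he ▸ hy))
      refine ⟨src e, h3, h3, he ▸ hy, fun z ε => ?_⟩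
      rw [mono_add, mono_pair, mono_pair, mono_pair, he]
      calc _ = sg (ε z) * sg (ε (src e)) * (sg (ε y) * sg (ε y)) := by ring
        _ = _ := by rw [sg_mul_self, mul_one]
  have hc : (W.erase e).card < m := by
    rw [← hW]; exact Finset.card_erase_lt_of_mem heW
  have i1 := ih _ hc (W.erase e) rfl y hy
  have i2 := ih _ hc (W.erase e) rfl y' hy'
  have u1 : Function.update (liebR J W) e 0 = liebR J (W.erase e) := by
    funext e'
    by_cases h : e' = e
    · subst h; simp [liebR]
    · simp [liebR, h]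
  have u2 : Function.update (delE D (liebR J W)) e 0 = delE D (liebR J (W.erase e)) := by
    funext e'
    by_cases h : e' = e
    · subst h; simp [liebR, delE]
    · simp [liebR, delE, h]
  have v1 : liebR J W e = J e := by simp [liebR, heW]
  have v2 : delE D (liebR J W) e = J e := by simp [delE, hsD, htD, v1]
  have ht := tanh_nonneg' (hJ e)
  have n1 := liebR_nonneg hJ (W.erase e)
  have n2 := delE_nonneg n1 D
  have d1 := corr_nonneg n2 {src e, tgt e}
  have d2 := corr_mono n1 (delE_or _ D) {src e, tgt e}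
  have r2 : ∀ z, corr (delE D (liebR J W)) {z, y} =
      (corr (delE D (liebR J (W.erase e))) {z, y} +
        Real.tanh (J e) * corr (delE D (liebR J (W.erase e))) {z, y'}) /
      (1 + Real.tanh (J e) * corr (delE D (liebR J (W.erase e))) {src e, tgt e}) := by
    intro z
    rw [corr_rec (delE_nonneg (liebR_nonneg hJ W) D) e, u2, v2, corr_congr _ (hmono z)]
  rw [corr_rec (liebR_nonneg hJ W) e, u1, v1, corr_congr _ (hmono a)]
  simp only [r2, ← mul_div_assoc, ← Finset.sum_div, mul_add, Finset.sum_add_distrib]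
  have e3 : ∑ z ∈ S, corr J {a, z} *
      (Real.tanh (J e) * corr (delE D (liebR J (W.erase e))) {z, y'}) =
      Real.tanh (J e) * ∑ z ∈ S, corr J {a, z} * corr (delE D (liebR J (W.erase e))) {z, y'} := by
    rw [Finset.mul_sum]
    exact Finset.sum_congr rfl fun z _ => by ring
  rw [e3]
  have p1 := corr_nonneg n1 {a, y}
  have p2 := corr_nonneg n1 {a, y'}
  refine div_le_div₀ ((add_nonneg p1 (mul_nonneg ht p2)).trans ?_) ?_ (by positivity) ?_
  · gcongr
  · gcongr
  · gcongr

/-- Prove by induction on the finite set `W` of edges, for all `y ∉ D`, with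
`J_W e = if e ∈ W then J e else 0`:
`corr J_W {a, y} ≤ ∑ z ∈ S, corr J {a, z} * corr (delE D J_W) {z, y}`.
* `y ∈ S`: the term `z = y` suffices (`corr_self`, `corr_mono`, `corr_nonneg`).
* no edge of `W` touches `y`: the left side vanishes (`corr_eq_zero`, `a ≠ y`).
* otherwise take `e ∈ W` touching `y` with other end `y'`; `y' ∉ D` as `y ∉ S`.  Apply
  `corr_rec` at `e` to both sides (`update J_W e 0 = J_(W.erase e)`, it commutes with `delE D`,
  `mono ({a, y} + {src e, tgt e}) = mono {a, y'}`), the induction hypothesis for `y` and `y'`, and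
  `corr_mono` for the denominators. -/
theorem lieb {J : Edge V → ℝ} (hJ : ∀ e, 0 ≤ J e) (D S : Finset V)
    (h1 : ∀ e, src e ∈ D → tgt e ∉ D → tgt e ∈ S) (h2 : ∀ e, tgt e ∈ D → src e ∉ D → src e ∈ S)
    {a y : V} (ha : a ∈ D) (hy : y ∉ D) :
    corr J {a, y} ≤ ∑ z ∈ S, corr J {a, z} * corr (delE D J) {z, y} := by
  have := lieb_aux hJ D S h1 h2 ha _ Finset.univ rfl y hy
  have e : liebR J Finset.univ = J := by funext e; simp [liebR]
  rwa [e] at this

end Crest.Agent.R167
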