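import Crest.Agent.R167.Lieb
import Crest.Agent.R167.Count

/-! # Row 167: self-avoiding expansion of the two-point function -/

set_option autoImplicit false

namespace Crest.Agent.R167

open MeasureTheory Matrix Crest.ProbabilityR.SpinModel

variable {V : Finset Z2}

/-- the sites at distance less than `R` from `Q` -/
def nb (R : ℕ) (Q : Finset V) : Finset V := Finset.univ.filter fun z => ∃ q ∈ Q, dinf z q < R

theorem mem_nb {R : ℕ} {Q : Finset V} {z : V} : z ∈ nb R Q ↔ ∃ q ∈ Q, dinf z q < R := by
  simp [nb]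

/-- One step: `lieb` for `delE (nb R Q) J`, `D = nb R {a}`, `S = {z | dinf z a = R}`; the terms
with `z ∈ nb R Q` vanish (`corr_eq_zero`), `delE (nb R {a}) (delE (nb R Q) J) =
delE (nb R (insert a Q)) J`, and `corr_mono`. -/
theorem step {R : ℕ} (hR : 1 ≤ R) (Q : Finset V) {a y : V} (hy : R ≤ dinf a y)
    {J : Edge V → ℝ} (hJ : ∀ e, 0 ≤ J e) :
    corr (delE (nb R Q) J) {a, y} ≤
      ∑ z ∈ Finset.univ.filter (fun z : V => dinf z a = R ∧ ∀ q ∈ Q, R ≤ dinf z q),
        corr J {a, z} * corr (delE (nb R (insert a Q)) J) {z, y} := by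
  have hJ' := delE_nonneg hJ (nb R Q)
  have hD : ∀ z : V, z ∈ nb R {a} ↔ dinf z a < R := by intro z; simp [mem_nb]
  have h := lieb hJ' (nb R {a}) (Finset.univ.filter fun z : V => dinf z a = R)
    (fun e h1 h2 => by
      rw [hD] at h1 h2
      have := dinf_triangle (tgt e) (src e) a
      have h3 := dinf_src_tgt e
      rw [dinf_comm] at h3
      simp only [Finset.mem_filter, Finset.mem_univ, true_and]
      omega)
    (fun e h1 h2 => by
      rw [hD] at h1 h2
      have := dinf_triangle (src e) (tgt e) a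
      have h3 := dinf_src_tgt e
      simp only [Finset.mem_filter, Finset.mem_univ, true_and]
      omega)
    (a := a) (y := y) (by rw [hD, dinf_self]; omega) (by rw [hD, dinf_comm]; omega)
  have e : delE (nb R {a}) (delE (nb R Q) J) = delE (nb R (insert a Q)) J := by
    funext e
    have : ∀ z : V, z ∈ nb R (insert a Q) ↔ z ∈ nb R {a} ∨ z ∈ nb R Q := by
      intro z; simp [mem_nb]
    simp only [delE, this]
    split_ifs <;> first | rfl | tauto
  rw [e] at h
  refine h.trans ?_
  rw [← Finset.filter_filter, Finset.sum_filter (fun z : V => ∀ q ∈ Q, R ≤ dinf z q)]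
  refine Finset.sum_le_sum fun z hz => ?_
  have hz' : dinf z a = R := by simpa using hz
  split_ifs with hq
  · exact mul_le_mul_of_nonneg_right (corr_mono hJ (delE_or J _) _)
      (corr_nonneg (delE_nonneg hJ _) _)
  · have hza : z ≠ a := by
      rintro rfl
      rw [dinf_self] at hz'; omega
    have hzn : z ∈ nb R Q := by
      rw [mem_nb]
      push Not at hq
      exact hq
    rw [corr_eq_zero (delE (nb R Q) J) (x := z), zero_mul]
    · simp [hza]
    · intro e he
      unfold delE
      rw [if_pos]
      rcases he with he | he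
      · exact Or.inl (he ▸ hzn)
      · exact Or.inr (he ▸ hzn)

theorem paths_join {ι : Type} (S : Finset ι) (B : ℕ) (Pr : Finset V → Prop)
    (g : ι → (Edge V → ℝ) → ℝ)
    (h : ∀ i ∈ S, ∃ l : List (Finset V), l.length ≤ B ∧ (∀ P ∈ l, Pr P) ∧
      ∀ J : Edge V → ℝ, (∀ e, 0 ≤ J e) → g i J ≤ (l.map fun P => corr J P.val).sum) :
    ∃ l : List (Finset V), l.length ≤ S.card * B ∧ (∀ P ∈ l, Pr P) ∧
      ∀ J : Edge V → ℝ, (∀ e, 0 ≤ J e) → ∑ i ∈ S, g i J ≤ (l.map fun P => corr J P.val).sum := by
  classical
  induction S using Finset.induction_on with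
  | empty => exact ⟨[], by simp, by simp, by simp⟩
  | insert i S hi ih =>
    obtain ⟨l, h1, h2, h3⟩ := ih fun j hj => h j (Finset.mem_insert_of_mem hj)
    obtain ⟨l', h1', h2', h3'⟩ := h i (Finset.mem_insert_self _ _)
    refine ⟨l' ++ l, ?_, ?_, fun J hJ => ?_⟩
    · rw [List.length_append, Finset.card_insert_of_notMem hi]; nlinarith
    · intro P hP
      rcases List.mem_append.1 hP with hP | hP
      · exact h2' P hP
      · exact h2 P hP
    · rw [Finset.sum_insert hi, List.map_append, List.sum_append]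
      exact add_le_add (h3' J hJ) (h3 J hJ)

theorem paths_far_insert {R : ℕ} {Q : Finset V} (hQ : Far R Q) {a : V}
    (ha : ∀ q ∈ Q, R ≤ dinf a q) : Far R (insert a Q) := by
  intro x hx y hy hxy
  rcases Finset.mem_insert.1 hx with rfl | hx' <;> rcases Finset.mem_insert.1 hy with rfl | hy'
  · exact absurd rfl hxy
  · exact ha y hy'
  · rw [dinf_comm]; exact ha x hx'
  · exact hQ x hx' y hy' hxy

theorem paths_card (R : ℕ) (Q : Finset V) (a : V) :
    (Finset.univ.filter (fun z : V => dinf z a = R ∧ ∀ q ∈ Q, R ≤ dinf z q)).card ≤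
      4 * (2 * R + 1) :=
  (Finset.card_le_card fun z hz => by
    simp only [Finset.mem_filter, Finset.mem_univ, true_and] at hz ⊢
    exact hz.1).trans (card_sphere_le V a R)

/-- Induction on `k`.  `k = 0`: `l = [Q]`.  Step: apply `step` twice (from `a` to `a₁`, from `a₁`
to `a₂`; at most `4 (2 R + 1)` choices each by `card_sphere_le`), bound `corr J {a₁, a₂} ≤ 1`,
`corr J Q.val * corr J {a, a₁} ≤ corr J (insert a₁ (insert a Q)).val` (`gks2`), and use the
induction hypothesis for `(insert a₁ (insert a Q), a₂)`; concatenate the lists (`choose`,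
`List.flatMap` over `Finset.toList`). -/
theorem paths_aux {R : ℕ} (hR : 1 ≤ R) (y : V) (k : ℕ) : ∀ (Q : Finset V) (a : V), Far R Q →
    (∀ q ∈ Q, R ≤ dinf a q) → 2 * k * R ≤ dinf a y →
    ∃ l : List (Finset V), l.length ≤ (4 * (2 * R + 1)) ^ (2 * k) ∧
      (∀ P ∈ l, P.card = Q.card + 2 * k ∧ Far R P) ∧
      ∀ J : Edge V → ℝ, (∀ e, 0 ≤ J e) →
        corr J Q.val * corr (delE (nb R Q) J) {a, y} ≤ (l.map fun P => corr J P.val).sum := by
  induction k with
  | zero =>
    intro Q a hQ _ _
    refine ⟨[Q], by simp, by simpa using hQ, fun J hJ => ?_⟩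
    simp only [List.map_cons, List.map_nil, List.sum_cons, List.sum_nil, add_zero]
    exact mul_le_of_le_one_right (corr_nonneg hJ _) ((le_abs_self _).trans (abs_corr_le _ _))
  | succ k ih =>
    intro Q a hQ ha hay
    have hQ1 := paths_far_insert hQ ha
    have haQ : a ∉ Q := fun h => by have := ha a h; rw [dinf_self] at this; omega
    have hk : 2 * (k + 1) * R = 2 * k * R + 2 * R := by ring
    obtain ⟨l, h1, h2, h3⟩ := paths_join
      (Finset.univ.filter (fun z : V => dinf z a = R ∧ ∀ q ∈ Q, R ≤ dinf z q))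
      (4 * (2 * R + 1) * (4 * (2 * R + 1)) ^ (2 * k))
      (fun P => P.card = Q.card + 2 * (k + 1) ∧ Far R P)
      (fun a₁ J => corr J Q.val * (corr J {a, a₁} * corr (delE (nb R (insert a Q)) J) {a₁, y}))
      (by
        intro a₁ ha₁
        simp only [Finset.mem_filter, Finset.mem_univ, true_and] at ha₁
        have ha₁' : ∀ q ∈ insert a Q, R ≤ dinf a₁ q := by
          intro q hq
          rcases Finset.mem_insert.1 hq with rfl | hq
          · exact ha₁.1.ge
          · exact ha₁.2 q hq
        have hQ2 := paths_far_insert hQ1 ha₁'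
        have ha₁Q : a₁ ∉ insert a Q := fun h => by
          have := ha₁' a₁ h; rw [dinf_self] at this; omega
        have t1 := dinf_triangle a a₁ y
        have t2 := ha₁.1
        rw [dinf_comm] at t2
        obtain ⟨l, h1, h2, h3⟩ := paths_join
          (Finset.univ.filter (fun z : V => dinf z a₁ = R ∧ ∀ q ∈ insert a Q, R ≤ dinf z q))
          ((4 * (2 * R + 1)) ^ (2 * k)) (fun P => P.card = Q.card + 2 * (k + 1) ∧ Far R P)
          (fun a₂ J => corr J (insert a₁ (insert a Q)).val *
            corr (delE (nb R (insert a₁ (insert a Q))) J) {a₂, y})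
          (by
            intro a₂ ha₂
            simp only [Finset.mem_filter, Finset.mem_univ, true_and] at ha₂
            have t3 := dinf_triangle a₁ a₂ y
            have t4 := ha₂.1
            rw [dinf_comm] at t4
            obtain ⟨l, h1, h2, h3⟩ := ih (insert a₁ (insert a Q)) a₂ hQ2 (by
              intro q hq
              rcases Finset.mem_insert.1 hq with rfl | hq
              · exact ha₂.1.ge
              · exact ha₂.2 q hq) (by omega)
            refine ⟨l, h1, fun P hP => ⟨?_, (h2 P hP).2⟩, h3⟩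
            rw [(h2 P hP).1, Finset.card_insert_of_notMem ha₁Q, Finset.card_insert_of_notMem haQ]
            ring)
        refine ⟨l, h1.trans (Nat.mul_le_mul_right _ (paths_card _ _ _)), h2, fun J hJ => ?_⟩
        refine le_trans ?_ (h3 J hJ)
        have s2 := step hR (insert a Q) (a := a₁) (y := y) (by omega) hJ
        have g : corr J Q.val * corr J {a, a₁} ≤ corr J (insert a₁ (insert a Q)).val := by
          refine (gks2 hJ _ _).trans (le_of_eq (corr_congr J fun ε => ?_))
          rw [mono_add, mono_pair, mono_val, mono_val, Finset.prod_insert ha₁Q,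
            Finset.prod_insert haQ]
          ring
        have s3 : corr (delE (nb R (insert a Q)) J) {a₁, y} ≤
            ∑ z ∈ Finset.univ.filter (fun z : V => dinf z a₁ = R ∧ ∀ q ∈ insert a Q, R ≤ dinf z q),
              corr (delE (nb R (insert a₁ (insert a Q))) J) {z, y} :=
          s2.trans (Finset.sum_le_sum fun z _ => mul_le_of_le_one_left
            (corr_nonneg (delE_nonneg hJ _) _) ((le_abs_self _).trans (abs_corr_le _ _)))
        rw [← mul_assoc, ← Finset.mul_sum]
        exact mul_le_mul g s3 (corr_nonneg (delE_nonneg hJ _) _) (corr_nonneg hJ _))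
    refine ⟨l, h1.trans ?_, h2, fun J hJ => le_trans ?_ (h3 J hJ)⟩
    · refine (Nat.mul_le_mul_right _ (paths_card _ _ _)).trans (le_of_eq ?_)
      ring
    · rw [← Finset.mul_sum]
      exact mul_le_mul_of_nonneg_left (step hR Q (by omega) hJ) (corr_nonneg hJ _)

theorem paths {R : ℕ} (hR : 1 ≤ R) (k : ℕ) {x y : V} (h : 2 * k * R ≤ dinf x y) :
    ∃ l : List (Finset V), l.length ≤ (4 * (2 * R + 1)) ^ (2 * k) ∧
      (∀ P ∈ l, P.card = 2 * k ∧ Far R P) ∧
      ∀ J : Edge V → ℝ, (∀ e, 0 ≤ J e) → corr J {x, y} ≤ (l.map fun P => corr J P.val).sum := by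
  obtain ⟨l, h1, h2, h3⟩ := paths_aux hR y k ∅ x (fun _ hx => by simp at hx)
    (fun _ hq => by simp at hq) h
  refine ⟨l, h1, fun P hP => by simpa using h2 P hP, fun J hJ => ?_⟩
  have := h3 J hJ
  have e : delE (nb R (∅ : Finset V)) J = J := by
    funext e; simp [delE, nb]
  rw [e, Finset.empty_val, corr_zero, one_mul] at this
  exact this

end Crest.Agent.R167
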