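import Crest.Agent.R167.One
import Crest.Agent.R167.Paths
import Crest.Agent.R167.Emb

/-! # Row 167: assembly -/

set_option autoImplicit false

namespace Crest.Agent.R167

open MeasureTheory Matrix Crest.ProbabilityR.SpinModel

theorem main_cplA_nonneg {n : ℕ} {V : Finset Z2} (c : Fin 3 ↪ Fin n) {β : Edge V → ℝ} {β₀ : ℝ}
    (hβ : Adm0 β₀ β) (σ : SpinConfig n V) (e : Edge V) : 0 ≤ cplA c β σ e :=
  mul_nonneg (hβ e).1 (mul_nonneg (abs_nonneg _) (abs_nonneg _))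

theorem main_two_nonneg {n : ℕ} {V : Finset Z2} (c : Fin 3 ↪ Fin n) {β : Edge V → ℝ} {β₀ : ℝ}
    (hβ : Adm0 β₀ β) (x y : V) : 0 ≤ ∫ σ, co c σ x * co c σ y ∂gibbs n β := by
  rw [emb_two]
  exact integral_nonneg fun σ => mul_nonneg (mul_nonneg (abs_nonneg _) (abs_nonneg _))
    (corr_nonneg (main_cplA_nonneg c hβ σ) _)

theorem main_list_integral {n : ℕ} {V : Finset Z2} (μ : Measure (SpinConfig n V))
    [IsFiniteMeasure μ] (f : Finset V → SpinConfig n V → ℝ) (hf : ∀ P, Bdd (f P)) (B : ℝ)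
    (l : List (Finset V)) (hl : ∀ P ∈ l, ∫ σ, f P σ ∂μ ≤ B) :
    Bdd (fun σ => (l.map fun P => f P σ).sum) ∧
      ∫ σ, (l.map fun P => f P σ).sum ∂μ ≤ l.length * B := by
  induction l with
  | nil => simpa using Bdd.const (0 : ℝ)
  | cons P l ih =>
    obtain ⟨h1, h2⟩ := ih fun P hP => hl P (List.mem_cons_of_mem _ hP)
    have h3 := hl P List.mem_cons_self
    simp only [List.map_cons, List.sum_cons, List.length_cons]
    refine ⟨(hf P).add h1, ?_⟩
    rw [integral_add ((hf P).integrable μ) (h1.integrable μ)]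
    push_cast
    linarith

theorem main_two_le (β₀ : ℝ) (hβ₀ : 0 ≤ β₀) : ∃ R : ℕ, 1 ≤ R ∧
    ∀ (n : ℕ) (V : Finset Z2) (c : Fin 3 ↪ Fin n) (β : Edge V → ℝ), Adm0 β₀ β →
      ∀ (x y : V) (k : ℕ), 2 * k * R ≤ dinf x y →
        ∫ σ, co c σ x * co c σ y ∂gibbs n β ≤ (1 / 4) ^ k := by
  obtain ⟨r, η, hη, hsm, hrep⟩ := one_point β₀ hβ₀
  refine ⟨2 * r + 1, by omega, fun n V c β hβ x y k hk => ?_⟩
  have hn : 1 ≤ n := (c 0).pos
  have := gibbs_prob hn β
  obtain ⟨l, hlen, hP, hJ⟩ := paths (by omega : 1 ≤ 2 * r + 1) k hk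
  obtain ⟨hb, hint⟩ := main_list_integral (gibbs n β) (fun P σ => corr (cplA c β σ) P.val)
    (fun P => bdd_corr_cplA c β _) (η ^ (2 * k)) l (by
      intro P hPl
      rw [← emb_sign, ← (hP P hPl).1]
      exact (le_abs_self _).trans
        (prod_sign_le hn c β P (hP P hPl).2 fun x _ => hrep n V c β hβ x))
  rw [emb_two]
  have h1 : ∫ σ, |co c σ x| * |co c σ y| * corr (cplA c β σ) {x, y} ∂gibbs n β ≤
      ∫ σ, (l.map fun P => corr (cplA c β σ) P.val).sum ∂gibbs n β := by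
    refine integral_mono ?_ (hb.integrable _) fun σ => ?_
    · exact (((bdd_co c x).abs.mul (bdd_co c y).abs).mul (bdd_corr_cplA c β _)).integrable _
    · have h0 := corr_nonneg (main_cplA_nonneg c hβ σ) {x, y}
      have h2 : |co c σ x| * |co c σ y| ≤ 1 :=
        mul_le_one₀ (abs_co_le c σ x) (abs_nonneg _) (abs_co_le c σ y)
      exact (mul_le_of_le_one_left h0 h2).trans (hJ _ (main_cplA_nonneg c hβ σ))
  refine h1.trans (hint.trans ?_)
  have h3 : (l.length : ℝ) ≤ (4 * (2 * (2 * r + 1) + 1) : ℝ) ^ (2 * k) := by exact_mod_cast hlen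
  calc (l.length : ℝ) * η ^ (2 * k) ≤ (4 * (2 * (2 * r + 1) + 1) : ℝ) ^ (2 * k) * η ^ (2 * k) := by
        gcongr
    _ = ((4 * (2 * (2 * r + 1) + 1) : ℝ) * η) ^ (2 * k) := (mul_pow _ _ _).symm
    _ ≤ (1 / 2) ^ (2 * k) := by gcongr
    _ = (1 / 4) ^ k := by rw [pow_mul]; norm_num

theorem main_exists_emb {n : ℕ} (hn : 3 ≤ n) (p : Fin n) : ∃ c : Fin 3 ↪ Fin n, c 0 = p := by
  let c0 : Fin 3 ↪ Fin n := Fin.castLEEmb hn
  exact ⟨c0.trans (Equiv.swap (c0 0) p).toEmbedding, by simp⟩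

theorem main_interaction (n : ℕ) (V : Finset Z2) (b : Z2 → Fin 2 → ℝ) (σ : SpinConfig n V) :
    interaction n V b σ = En (fun e : Edge V => b e.1.1 e.1.2) σ := by
  unfold interaction En
  rw [← Fintype.sum_prod_type', Finset.sum_dite]
  simp only [Finset.sum_const_zero, add_zero]
  refine Fintype.sum_equiv (Equiv.subtypeEquivRight (by simp)) _ _ fun e => rfl

theorem main_bdd_coord {n : ℕ} {V : Finset Z2} (x : V) (p : Fin n) :
    Bdd fun σ : SpinConfig n V => (σ x : Sp n) p :=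
  Bdd.of_continuous (by fun_prop)

theorem main_twoPoint {n : ℕ} (V : Finset Z2) (b : Z2 → Fin 2 → ℝ) (hn : 1 ≤ n) (x y : V) :
    twoPoint n V b x y = ∑ p : Fin n, ∫ σ, (σ x : Sp n) p * (σ y : Sp n) p
      ∂gibbs n (fun e : Edge V => b e.1.1 e.1.2) := by
  have := gibbs_prob hn (fun e : Edge V => b e.1.1 e.1.2)
  rw [← integral_finsetSum _ fun p _ =>
    ((main_bdd_coord x p).mul (main_bdd_coord y p)).integrable _, integral_gibbs]
  unfold twoPoint partitionFn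
  simp only [main_interaction]
  congr 2
  funext σ
  congr 1
  rw [PiLp.inner_apply]
  refine Finset.sum_congr rfl fun p _ => ?_
  simp [mul_comm]

theorem main_sqrt_le (x y : Z2) :
    Real.sqrt (((x.1 - y.1 : ℤ) : ℝ) ^ 2 + ((x.2 - y.2 : ℤ) : ℝ) ^ 2) ≤ 2 * dinf x y := by
  have h1 : |((x.1 - y.1 : ℤ) : ℝ)| ≤ dinf x y := by
    have : |x.1 - y.1| ≤ (dinf x y : ℤ) := by
      unfold dinf; rw [Int.abs_eq_natAbs]; exact_mod_cast le_max_left _ _
    exact_mod_cast this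
  have h2 : |((x.2 - y.2 : ℤ) : ℝ)| ≤ dinf x y := by
    have : |x.2 - y.2| ≤ (dinf x y : ℤ) := by
      unfold dinf; rw [Int.abs_eq_natAbs]; exact_mod_cast le_max_right _ _
    exact_mod_cast this
  have h3 := sq_le_sq' (abs_le.1 h1).1 (abs_le.1 h1).2
  have h4 := sq_le_sq' (abs_le.1 h2).1 (abs_le.1 h2).2
  rw [Real.sqrt_le_left (by positivity)]
  nlinarith [sq_nonneg (dinf x y : ℝ)]

theorem main (n : ℕ) (hn : 3 ≤ n) (β : ℝ) (hβ : 0 < β) :
    ∃ A m : ℝ, 0 < m ∧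
      ∀ (V : Finset (ℤ × ℤ)) (b : ℤ × ℤ → Fin 2 → ℝ),
        (∀ u i, 0 ≤ b u i ∧ b u i ≤ β) →
        ∀ x y : V,
          0 ≤ twoPoint n V b x y ∧
          twoPoint n V b x y ≤
            A * Real.exp (-m * Real.sqrt ((((x : ℤ × ℤ).1 - (y : ℤ × ℤ).1 : ℤ) : ℝ) ^ 2 +
              (((x : ℤ × ℤ).2 - (y : ℤ × ℤ).2 : ℤ) : ℝ) ^ 2)) := by
  obtain ⟨R, hR, h⟩ := main_two_le β hβ.le
  have hR' : (0 : ℝ) < R := by exact_mod_cast hR
  refine ⟨n * Real.exp 1, 1 / (4 * R), by positivity, fun V b hb x y => ?_⟩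
  have hadm : Adm0 β (fun e : Edge V => b e.1.1 e.1.2) := fun e => hb _ _
  rw [main_twoPoint V b (by omega)]
  refine ⟨Finset.sum_nonneg fun p _ => ?_, ?_⟩
  · obtain ⟨c, rfl⟩ := main_exists_emb hn p
    exact main_two_nonneg c hadm x y
  · obtain ⟨k, hk⟩ : ∃ k, k = dinf x y / (2 * R) := ⟨_, rfl⟩
    have hk1 : 2 * k * R ≤ dinf x y := by
      rw [hk, mul_comm 2, mul_assoc]; exact Nat.div_mul_le_self _ _
    have hk2 : dinf x y < 2 * R * (k + 1) := by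
      rw [hk]; exact Nat.lt_mul_div_succ _ (by omega)
    have hk3 : (dinf x y : ℝ) ≤ 2 * R * (k + 1) := by exact_mod_cast hk2.le
    have hs := main_sqrt_le x y
    have h4 : ((1 : ℝ) / 4) ^ k ≤ Real.exp 1 * Real.exp (-(1 / (4 * R)) *
        Real.sqrt ((((x : ℤ × ℤ).1 - (y : ℤ × ℤ).1 : ℤ) : ℝ) ^ 2 +
              (((x : ℤ × ℤ).2 - (y : ℤ × ℤ).2 : ℤ) : ℝ) ^ 2)) := by
      have e1 : (1 : ℝ) / 4 ≤ Real.exp (-1) := by
        rw [Real.exp_neg, one_div]
        exact inv_anti₀ (Real.exp_pos _) (by linarith [Real.exp_one_lt_d9])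
      calc ((1 : ℝ) / 4) ^ k ≤ Real.exp (-1) ^ k := by gcongr
        _ = Real.exp (-k) := by rw [← Real.exp_nat_mul]; congr 1; ring
        _ ≤ _ := by
          rw [← Real.exp_add]
          apply Real.exp_le_exp.2
          have : 1 / (4 * R) * Real.sqrt ((((x : ℤ × ℤ).1 - (y : ℤ × ℤ).1 : ℤ) : ℝ) ^ 2 +
              (((x : ℤ × ℤ).2 - (y : ℤ × ℤ).2 : ℤ) : ℝ) ^ 2) ≤ k + 1 := by
            rw [one_div_mul_eq_div, div_le_iff₀ (by positivity)]
            nlinarith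
          linarith
    calc _ ≤ ∑ _p : Fin n, ((1 : ℝ) / 4) ^ k := by
          refine Finset.sum_le_sum fun p _ => ?_
          obtain ⟨c, rfl⟩ := main_exists_emb hn p
          exact h n V c _ hadm x y k hk1
      _ = n * ((1 : ℝ) / 4) ^ k := by simp
      _ ≤ _ := by rw [mul_assoc]; gcongr

end Crest.Agent.R167
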