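import Crest.Agent.R167.Bil

/-! # Row 167: moment bounds for scores -/

set_option autoImplicit false

namespace Crest.Agent.R167

open MeasureTheory Matrix Crest.ProbabilityR.SpinModel

variable {n : ℕ} {V : Finset Z2} {c : Fin 3 ↪ Fin n} {β : Edge V → ℝ} {Λ : Finset V}
  {μ : Measure (SpinConfig n V)} {β₀ : ℝ}

/-- the matrix field is `(- dd θ e * dd η e) • Lm a * Lm a`, whose entries have total absolute
value `2 |dd θ e| |dd η e|`; use `abs_bil_le`. -/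
theorem abs_Yf_same_le (hβ : Adm0 β₀ β) (hβ₀ : 0 ≤ β₀) (a : Fin 3) (θ η : Z2 → ℝ)
    (σ : SpinConfig n V) :
    |Yf c β a θ a η σ| ≤ 2 * β₀ * ∑ e : Edge V, |dd θ e| * |dd η e| := by
  refine (abs_bil_le c β hβ (dX a θ (sM a η)) σ).trans (le_of_eq ?_)
  rw [mul_comm 2 β₀, mul_assoc, Finset.mul_sum _ _ (2 : ℝ)]
  congr 1
  refine Finset.sum_congr rfl fun e _ => ?_
  have h : dX a θ (sM a η) e = (-(dd θ e * dd η e)) • (Lm a * Lm a) := by
    simp only [dX, sM, smul_mul_assoc, mul_smul_comm, dd]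
    module
  rw [h]
  fin_cases a <;> simp [Lm, Fin.sum_univ_three, abs_mul] <;> ring

theorem Mom_D2_nonneg (V : Finset Z2) (θ : Z2 → ℝ) : 0 ≤ D2 V θ :=
  Finset.sum_nonneg fun _ _ => sq_nonneg _

theorem Mom_Yf_self_le (hβ : Adm0 β₀ β) (hβ₀ : 0 ≤ β₀) (a : Fin 3) (θ : Z2 → ℝ)
    (σ : SpinConfig n V) : Yf c β a θ a θ σ ≤ 2 * β₀ * D2 V θ := by
  refine (le_abs_self _).trans ((abs_Yf_same_le hβ hβ₀ a θ θ σ).trans (le_of_eq ?_))
  congr 1
  refine Finset.sum_congr rfl fun e _ => ?_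
  rw [abs_mul_abs_self, sq]

theorem Mom_integral_le [IsProbabilityMeasure μ] {f : SpinConfig n V → ℝ} (hf : Bdd f) {C : ℝ}
    (h : ∀ σ, f σ ≤ C) : ∫ σ, f σ ∂μ ≤ C := by
  have := integral_mono (hf.integrable μ) ((Bdd.const C).integrable μ) h
  simpa using this

/-- Ward with `f = sc` -/
theorem mom2 [IsProbabilityMeasure μ] (hβ : Adm0 β₀ β) (hβ₀ : 0 ≤ β₀) (hW : Ward c β Λ μ)
    (a : Fin 3) {θ : Z2 → ℝ} (hθ : Supp Λ θ) :
    ∫ σ, sc c β a θ σ ^ 2 ∂μ ≤ 2 * β₀ * D2 V θ := by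
  have e1 := hW a θ hθ _ _ (bdd_sc c β a θ) (bdd_Yf c β a θ a θ) (hasX_sc c β a θ a θ)
  simp only [sq]
  rw [← e1]
  exact Mom_integral_le (bdd_Yf c β a θ a θ) (Mom_Yf_self_le hβ hβ₀ a θ)

/-- Ward with `f = sc ^ 3`: `E s⁴ = 3 E (s² Y) ≤ 3 (2 β₀ D) E s²` -/
theorem mom4 [IsProbabilityMeasure μ] (hβ : Adm0 β₀ β) (hβ₀ : 0 ≤ β₀) (hW : Ward c β Λ μ)
    (a : Fin 3) {θ : Z2 → ℝ} (hθ : Supp Λ θ) :
    ∫ σ, sc c β a θ σ ^ 4 ∂μ ≤ 12 * β₀ ^ 2 * D2 V θ ^ 2 := by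
  have bs := bdd_sc c β a θ
  have bY := bdd_Yf c β a θ a θ
  have x := hasX_sc c β a θ a θ
  have e1 := hW a θ hθ _ _ ((bs.mul bs).mul bs)
    (((((bY.mul bs).add (bs.mul bY))).mul bs).add ((bs.mul bs).mul bY)) ((x.mul x).mul x)
  have e2 : ∫ σ, sc c β a θ σ ^ 4 ∂μ =
      ∫ σ, sc c β a θ σ * sc c β a θ σ * sc c β a θ σ * sc c β a θ σ ∂μ := by
    congr 1; funext σ; ring
  have hD := Mom_D2_nonneg V θ
  have hK : 0 ≤ 2 * β₀ * D2 V θ := by positivity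
  have e3 : ∫ σ, ((Yf c β a θ a θ σ * sc c β a θ σ + sc c β a θ σ * Yf c β a θ a θ σ) *
      sc c β a θ σ + sc c β a θ σ * sc c β a θ σ * Yf c β a θ a θ σ) ∂μ ≤
      ∫ σ, (3 * (2 * β₀ * D2 V θ)) * sc c β a θ σ ^ 2 ∂μ := by
    refine integral_mono (((((bY.mul bs).add (bs.mul bY)).mul bs).add
      ((bs.mul bs).mul bY)).integrable μ) (((Bdd.const _).mul (bs.pow 2)).integrable μ) fun σ => ?_
    have h1 := Mom_Yf_self_le (c := c) hβ hβ₀ a θ σ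
    have h2 := mul_le_mul_of_nonneg_right h1 (sq_nonneg (sc c β a θ σ))
    dsimp only
    nlinarith
  rw [integral_const_mul] at e3
  have h2 := mom2 hβ hβ₀ hW a hθ
  have h3 := mul_le_mul_of_nonneg_left h2 (show 0 ≤ 3 * (2 * β₀ * D2 V θ) by positivity)
  rw [e2, ← e1]
  refine e3.trans (h3.trans (le_of_eq ?_))
  ring

/-- Cauchy–Schwarz (`abs_integral_mul_le` for the squares) and `mom4` -/
theorem momP [IsProbabilityMeasure μ] (hβ : Adm0 β₀ β) (hβ₀ : 0 ≤ β₀) (hW : Ward c β Λ μ)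
    (a b : Fin 3) {θ η : Z2 → ℝ} (hθ : Supp Λ θ) (hη : Supp Λ η) :
    ∫ σ, (sc c β a θ σ * sc c β b η σ) ^ 2 ∂μ ≤ 12 * β₀ ^ 2 * D2 V θ * D2 V η := by
  have bs := bdd_sc c β a θ
  have bt := bdd_sc c β b η
  have hD := Mom_D2_nonneg V θ
  have hD' := Mom_D2_nonneg V η
  have h12 : Real.sqrt 12 ^ 2 = 12 := Real.sq_sqrt (by norm_num)
  have h1 : ∫ σ, (sc c β a θ σ ^ 2) ^ 2 ∂μ ≤ (Real.sqrt 12 * β₀ * D2 V θ) ^ 2 := by
    have := mom4 hβ hβ₀ hW a hθ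
    simp only [← pow_mul, mul_pow, h12]
    exact this
  have h2 : ∫ σ, (sc c β b η σ ^ 2) ^ 2 ∂μ ≤ (Real.sqrt 12 * β₀ * D2 V η) ^ 2 := by
    have := mom4 hβ hβ₀ hW b hη
    simp only [← pow_mul, mul_pow, h12]
    exact this
  have h3 := abs_integral_mul_le μ (bs.pow 2) (bt.pow 2) (by positivity) (by positivity) h1 h2
  simp only [mul_pow]
  refine (le_abs_self _).trans (h3.trans (le_of_eq ?_))
  have : Real.sqrt 12 * β₀ * D2 V θ * (Real.sqrt 12 * β₀ * D2 V η) =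
      Real.sqrt 12 ^ 2 * β₀ ^ 2 * D2 V θ * D2 V η := by ring
  rw [this, h12]

theorem Mom_LKL {a b : Fin 3} (hab : a ≠ b) : Lm a * (Lm b * Lm a) = 0 := by
  fin_cases a <;> fin_cases b <;> first
    | exact absurd rfl hab
    | (ext i j; fin_cases i <;> fin_cases j <;> simp [Lm, Matrix.mul_apply, Fin.sum_univ_three])

theorem Mom_LLKK {a b : Fin 3} (hab : a ≠ b) :
    Lm b * (Lm b * (Lm a * Lm a)) = Lm a * (Lm a * (Lm b * Lm b)) := by
  fin_cases a <;> fin_cases b <;> first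
    | exact absurd rfl hab
    | (ext i j; fin_cases i <;> fin_cases j <;> simp [Lm, Matrix.mul_apply, Fin.sum_univ_three])

theorem Mom_entries {a b : Fin 3} (hab : a ≠ b) (s t : ℝ) :
    ∑ i, ∑ j, |(s • (Lm b * (Lm a * (Lm a * Lm b))) + t • (Lm a * (Lm a * (Lm b * Lm b)))) i j| =
      |s| + |t| := by
  fin_cases a <;> fin_cases b <;> first
    | exact absurd rfl hab
    | (simp [Lm, Fin.sum_univ_three]; try ring)

theorem Mom_bracket {x y u v m p : ℝ} (hx : |x| ≤ m) (hy : |y| ≤ m) (hv : |v| ≤ p) :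
    |u * x ^ 2 - v * y ^ 2| ≤ m ^ 2 * |u - v| + 2 * m * p * |x - y| := by
  have h1 : u * x ^ 2 - v * y ^ 2 = x ^ 2 * (u - v) + (x + y) * v * (x - y) := by ring
  have hm : 0 ≤ m := (abs_nonneg _).trans hx
  have h2 : |x ^ 2| ≤ m ^ 2 := by
    rw [abs_pow]; exact pow_le_pow_left₀ (abs_nonneg _) hx 2
  have h3 : |x + y| ≤ 2 * m := (abs_add_le _ _).trans (by linarith)
  rw [h1]
  refine (abs_add_le _ _).trans (add_le_add ?_ ?_)
  · rw [abs_mul]; exact mul_le_mul_of_nonneg_right h2 (abs_nonneg _)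
  · rw [abs_mul, abs_mul]
    exact mul_le_mul_of_nonneg_right (mul_le_mul h3 hv (abs_nonneg _) (by positivity))
      (abs_nonneg _)

/-- For `a ≠ b` (`fin_cases`), with `x = src e`, `y = tgt e`, the matrix at `e` is diagonal:
`- dd η e * (η x * θ x ^ 2 - η y * θ y ^ 2)` at `(a, a)`,
`- dd η e * (η x * θ y ^ 2 - η y * θ x ^ 2)` at the third index, `0` elsewhere.  Each bracket is
at most `m² |dd η e| + 2 m p |dd θ e|`, and `2 m p |dη| |dθ| ≤ m² dη² + p² dθ²`. -/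
theorem abs_XXY_le (hβ : Adm0 β₀ β) (hβ₀ : 0 ≤ β₀) {a b : Fin 3} (hab : a ≠ b) {θ η : Z2 → ℝ}
    {m p : ℝ} (hm : ∀ z, |θ z| ≤ m) (hp : ∀ z, |η z| ≤ p) (σ : SpinConfig n V) :
    |bil c β (dX b η (dX a θ (dX a θ (sM b η)))) σ| ≤
      2 * β₀ * (2 * m ^ 2 * D2 V η + p ^ 2 * D2 V θ) := by
  refine (abs_bil_le c β hβ _ σ).trans ?_
  rw [mul_comm 2 β₀, mul_assoc]
  refine mul_le_mul_of_nonneg_left ?_ hβ₀
  unfold D2
  rw [Finset.mul_sum, Finset.mul_sum, ← Finset.sum_add_distrib, Finset.mul_sum]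
  refine Finset.sum_le_sum fun e _ => ?_
  have k1 := Mom_LKL hab
  have k2 := Mom_LLKK hab
  have k3 : Lm a * (Lm b * (Lm a * Lm b)) = 0 := by
    rw [← mul_assoc (Lm b), ← mul_assoc (Lm a), k1, zero_mul]
  have h : dX b η (dX a θ (dX a θ (sM b η))) e =
      (-dd η e * (η (src e) * θ (src e) ^ 2 - η (tgt e) * θ (tgt e) ^ 2)) •
        (Lm b * (Lm a * (Lm a * Lm b))) +
      (-dd η e * (η (src e) * θ (tgt e) ^ 2 - η (tgt e) * θ (src e) ^ 2)) •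
        (Lm a * (Lm a * (Lm b * Lm b))) := by
    simp only [dX, sM, sub_mul, mul_sub, smul_mul_assoc, mul_smul_comm, mul_assoc, k1, k2, k3,
      mul_zero, smul_zero, zero_mul]
    module
  rw [h, Mom_entries hab, abs_mul, abs_mul, abs_neg]
  have b1 := Mom_bracket (u := η (src e)) (hm (src e)) (hm (tgt e)) (hp (tgt e))
  have b2 := Mom_bracket (u := η (src e)) (hm (tgt e)) (hm (src e)) (hp (tgt e))
  rw [abs_sub_comm (θ (tgt e))] at b2
  change _ ≤ m ^ 2 * |dd η e| + 2 * m * p * |dd θ e| at b1 b2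
  have c1 := mul_le_mul_of_nonneg_left b1 (abs_nonneg (dd η e))
  have c2 := mul_le_mul_of_nonneg_left b2 (abs_nonneg (dd η e))
  rw [← sq_abs (dd η e), ← sq_abs (dd θ e)]
  nlinarith [sq_nonneg (m * |dd η e| - p * |dd θ e|)]

/-- `a = b`: `abs_Yf_same_le` and `Finset.sum_mul_sq_le_sq_mul_sq`.  `a ≠ b`: with `Y = Yf`,
Ward `(a, θ)` for `Y * sc b η` and Ward `(b, η)` for `X Y = bil (dX a θ (dX a θ (sM b η)))` give
`E Y² = E (Y * sc b η * sc a θ) - E (bil (dX b η ..))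
  ≤ E Y² / 2 + E (sc a θ * sc b η)² / 2 + ..`; use `momP`, `abs_XXY_le`. -/
theorem momY [IsProbabilityMeasure μ] (hβ : Adm0 β₀ β) (hβ₀ : 0 ≤ β₀) (hW : Ward c β Λ μ)
    (a b : Fin 3) {θ η : Z2 → ℝ} (hθ : Supp Λ θ) (hη : Supp Λ η) {m p : ℝ}
    (hm : ∀ z, |θ z| ≤ m) (hp : ∀ z, |η z| ≤ p) :
    ∫ σ, Yf c β a θ b η σ ^ 2 ∂μ ≤ 12 * β₀ ^ 2 * D2 V θ * D2 V η +
      4 * β₀ * (2 * m ^ 2 * D2 V η + p ^ 2 * D2 V θ) := by
  have hD := Mom_D2_nonneg V θ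
  have hD' := Mom_D2_nonneg V η
  have bY := bdd_Yf c β a θ b η
  by_cases hab : a = b
  · subst hab
    refine Mom_integral_le (bY.pow 2) fun σ => ?_
    have h1 := abs_Yf_same_le (c := c) hβ hβ₀ a θ η σ
    have h2 := Finset.sum_mul_sq_le_sq_mul_sq (Finset.univ : Finset (Edge V))
      (fun e => |dd θ e|) (fun e => |dd η e|)
    simp only [sq_abs] at h2
    change _ ≤ D2 V θ * D2 V η at h2
    have h3 := pow_le_pow_left₀ (abs_nonneg _) h1 2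
    rw [sq_abs, mul_pow] at h3
    have h4 := mul_le_mul_of_nonneg_left h2 (sq_nonneg (2 * β₀))
    have h5 : 0 ≤ 4 * β₀ * (2 * m ^ 2 * D2 V η + p ^ 2 * D2 V θ) := by positivity
    have h6 : 0 ≤ β₀ ^ 2 * (D2 V θ * D2 V η) := by positivity
    nlinarith
  · have bS := bdd_sc c β b η
    have bT := bdd_sc c β a θ
    have bX := bdd_bil c β (dX a θ (dX a θ (sM b η)))
    have bZ := bdd_bil c β (dX b η (dX a θ (dX a θ (sM b η))))
    have xY : HasX c a θ (Yf c β a θ b η) (bil c β (dX a θ (dX a θ (sM b η)))) :=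
      hasX_bil c β a θ _
    have e1 := hW a θ hθ _ _ (bY.mul bS) ((bX.mul bS).add (bY.mul bY))
      (xY.mul (hasX_sc c β a θ b η))
    have e2 := hW b η hη _ _ bX bZ (hasX_bil c β b η _)
    rw [integral_add ((bX.mul bS).integrable μ) ((bY.mul bY).integrable μ), ← e2] at e1
    have h1 : ∫ σ, -bil c β (dX b η (dX a θ (dX a θ (sM b η)))) σ ∂μ ≤
        2 * β₀ * (2 * m ^ 2 * D2 V η + p ^ 2 * D2 V θ) :=
      Mom_integral_le bZ.neg fun σ =>
        (neg_le_abs _).trans (abs_XXY_le hβ hβ₀ hab hm hp σ)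
    rw [integral_neg] at h1
    have h2 : ∫ σ, Yf c β a θ b η σ * sc c β b η σ * sc c β a θ σ ∂μ ≤
        ∫ σ, ((1 / 2 : ℝ) * Yf c β a θ b η σ ^ 2 +
          (1 / 2 : ℝ) * (sc c β a θ σ * sc c β b η σ) ^ 2) ∂μ := by
      refine integral_mono (((bY.mul bS).mul bT).integrable μ)
        ((((Bdd.const _).mul (bY.pow 2)).add ((Bdd.const _).mul ((bT.mul bS).pow 2))).integrable μ)
        fun σ => ?_
      dsimp only
      nlinarith [sq_nonneg (Yf c β a θ b η σ - sc c β a θ σ * sc c β b η σ)]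
    rw [integral_add (((Bdd.const _).mul (bY.pow 2)).integrable μ)
      (((Bdd.const _).mul ((bT.mul bS).pow 2)).integrable μ), integral_const_mul,
      integral_const_mul] at h2
    have h3 := momP hβ hβ₀ hW a b hθ hη
    have e3 : ∫ σ, Yf c β a θ b η σ * Yf c β a θ b η σ ∂μ = ∫ σ, Yf c β a θ b η σ ^ 2 ∂μ := by
      simp only [sq]
    rw [e3] at e1
    linarith

end Crest.Agent.R167
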