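import Crest.Agent.R167.Dlr
import Crest.Agent.R167.Contr

/-! # Row 167: local replacements of the signs -/

set_option autoImplicit false

namespace Crest.Agent.R167

open MeasureTheory Matrix Crest.ProbabilityR.SpinModel

/-- Take `L₀` from `contraction`.  By induction on `k` there is an odd `F` with
`Repl c β x (5 ^ k * L₀) ((1 / 10) ^ k) F`: start from the sign itself (`co_halfTurn`,
`Real.sign_neg`), and pass to `kerE β (box x (4 * L)) F`, `L = 5 ^ k * L₀` (`contraction` with
`kerM_QI`, `kerM_prob`; `kerE_bdd`, `kerE_odd`, `kerE_dependsOn` with `4 L + 1 ≤ 5 L`, `dlr`,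
`DependsOn.mono`).  Finally `16 * 5 ^ k * L₀ + 12 ≤ 28 * 5 ^ k * L₀`; choose `k` with
`56 * L₀ ≤ 2 ^ k`. -/
theorem one_point (β₀ : ℝ) (hβ₀ : 0 ≤ β₀) : ∃ (r : ℕ) (η : ℝ), 0 ≤ η ∧
    (4 * (2 * (2 * r + 1) + 1) : ℝ) * η ≤ 1 / 2 ∧
    ∀ (n : ℕ) (V : Finset Z2) (c : Fin 3 ↪ Fin n) (β : Edge V → ℝ), Adm0 β₀ β → ∀ x : V,
      ∃ F, Repl c β x r η F := by
  obtain ⟨L₀, hL₀, hc⟩ := contraction β₀ hβ₀
  obtain ⟨k, hk⟩ : ∃ k : ℕ, 56 * L₀ ≤ 2 ^ k := ⟨56 * L₀, Nat.lt_two_pow_self.le⟩
  refine ⟨5 ^ k * L₀, (1 / 10) ^ k, by positivity, ?_, fun n V c β hβ x => ?_⟩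
  · have h1 : (1 : ℝ) ≤ 5 ^ k * L₀ := by
      have : 1 ≤ 5 ^ k * L₀ := Nat.mul_pos (by positivity) hL₀
      exact_mod_cast this
    have h2 : (56 : ℝ) * L₀ ≤ 2 ^ k := by exact_mod_cast hk
    have h3 : (5 : ℝ) ^ k * (1 / 10) ^ k * 2 ^ k = 1 := by
      rw [← mul_pow, ← mul_pow]; norm_num
    have h4 : (0 : ℝ) < (1 / 10) ^ k := by positivity
    have h5 : (0 : ℝ) < 5 ^ k * (1 / 10) ^ k := by positivity
    push_cast
    calc _ ≤ (28 * (5 ^ k * L₀) : ℝ) * (1 / 10) ^ k :=
          mul_le_mul_of_nonneg_right (by linarith) h4.le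
      _ = (5 ^ k * (1 / 10) ^ k) * (56 * L₀) / 2 := by ring
      _ ≤ (5 ^ k * (1 / 10) ^ k) * 2 ^ k / 2 := by gcongr
      _ = 1 / 2 := by rw [h3]
  · have hn : 1 ≤ n := (c 0).pos
    have key : ∀ j : ℕ, ∃ F, Repl c β x (5 ^ j * L₀) ((1 / 10) ^ j) F ∧
        ∀ σ, F (halfTurn c σ) = -F σ := by
      intro j
      induction j with
      | zero =>
        refine ⟨fun σ => Real.sign (co c σ x), ⟨bdd_sign c x, fun σ => ?_, ?_, fun _ _ _ => rfl⟩,
          fun σ => ?_⟩
        · rcases Real.sign_apply_eq (co c σ x) with h | h | h <;> simp [h]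
        · intro σ σ' h
          have := h x (by simp [mem_box, dinf_self])
          simp only [co, this]
        · simp only [co_halfTurn, Real.sign_neg]
      | succ j ih =>
        obtain ⟨F, ⟨hF, hM, hd, hG⟩, hodd⟩ := ih
        obtain ⟨L, hL⟩ : ∃ L, L = 5 ^ j * L₀ := ⟨_, rfl⟩
        have hL1 : L₀ ≤ L := by rw [hL]; exact Nat.le_mul_of_pos_left _ (by positivity)
        have hL5 : 5 ^ (j + 1) * L₀ = 5 * L := by rw [hL]; ring
        rw [← hL] at hd hG
        rw [hL5]
        have sub : ∀ {r r' : ℕ}, r ≤ r' → (box V x r : Set V) ⊆ (box V x r' : Set V) := by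
          intro r r' h z hz
          simp only [Finset.mem_coe, mem_box] at hz ⊢
          omega
        refine ⟨kerE β (box V x (4 * L)) F, ⟨kerE_bdd hn β _ hF, fun ξ => ?_, ?_, ?_⟩,
          kerE_odd c β _ hF hodd⟩
        · have := hc n V c β hβ x L hL1 _ (kerM_prob hn β (box V x (4 * L)) ξ)
            (kerM_QI c β _ ξ) F _ hF hM hd hodd
          rw [pow_succ]
          unfold kerE
          linarith
        · exact (kerE_dependsOn β x (4 * L) hF (hd.mono (sub (by omega)))).mono (sub (by omega))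
        · intro G hGb hGd
          rw [hG G hGb (hGd.mono (Set.compl_subset_compl.2 (sub (by omega))))]
          exact dlr hn β _ hF hGb (hGd.mono (Set.compl_subset_compl.2 (sub (by omega))))
    obtain ⟨F, hF, _⟩ := key k
    exact ⟨F, hF⟩

/-- Choose `F x` for `x ∈ P`.  By induction on `P' ⊆ P`,
`E ∏_{P} sign = E (∏_{P'} F * ∏_{P \ P'} sign)`: the boxes of radius `r` about distinct points of
`P` are disjoint. -/
theorem prod_sign_le {n : ℕ} (hn : 1 ≤ n) {V : Finset Z2} (c : Fin 3 ↪ Fin n) (β : Edge V → ℝ)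
    {r : ℕ} {η : ℝ} (P : Finset V) (hP : Far (2 * r + 1) P)
    (h : ∀ x ∈ P, ∃ F, Repl c β x r η F) :
    |∫ σ, ∏ x ∈ P, Real.sign (co c σ x) ∂gibbs n β| ≤ η ^ P.card := by
  classical
  have := gibbs_prob hn β
  choose! F hF using h
  have key : ∀ P' : Finset V, P' ⊆ P → ∫ σ, ∏ x ∈ P, Real.sign (co c σ x) ∂gibbs n β =
      ∫ σ, (∏ x ∈ P', F x σ) * ∏ x ∈ P \ P', Real.sign (co c σ x) ∂gibbs n β := by
    intro P'
    induction P' using Finset.induction_on with
    | empty => intro _; simp
    | insert x P' hx ih =>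
      intro hsub
      have hxP : x ∈ P := hsub (Finset.mem_insert_self _ _)
      have hP' : P' ⊆ P := (Finset.subset_insert _ _).trans hsub
      have e : P \ P' = insert x (P \ insert x P') := by
        ext z
        simp only [Finset.mem_sdiff, Finset.mem_insert]
        by_cases h : z = x
        · subst h; simp [hxP, hx]
        · simp [h]
      have hx' : x ∉ P \ insert x P' := by simp
      rw [ih hP', e]
      have h4 := (hF x hxP).2.2.2
        (fun σ => (∏ y ∈ P', F y σ) * ∏ y ∈ P \ insert x P', Real.sign (co c σ y))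
        ((Bdd.prod fun y hy => (hF y (hP' hy)).1).mul (Bdd.prod fun y _ => bdd_sign c y)) (by
          intro σ σ' h
          have e1 : ∏ y ∈ P', F y σ = ∏ y ∈ P', F y σ' := by
            refine Finset.prod_congr rfl fun y hy => (hF y (hP' hy)).2.2.1 fun z hz => h z ?_
            have h1 := hP x hxP y (hP' hy) fun h => hx (h ▸ hy)
            have h2 := dinf_triangle x z y
            rw [dinf_comm x z] at h2
            simp only [Set.mem_compl_iff, Finset.mem_coe, mem_box] at hz ⊢
            omega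
          have e2 : ∏ y ∈ P \ insert x P', Real.sign (co c σ y) =
              ∏ y ∈ P \ insert x P', Real.sign (co c σ' y) := by
            refine Finset.prod_congr rfl fun y hy => ?_
            have hy' := Finset.mem_sdiff.1 hy
            have h1 := hP y hy'.1 x hxP fun h => hy'.2 (h ▸ Finset.mem_insert_self _ _)
            have := h y (by
              simp only [Set.mem_compl_iff, Finset.mem_coe, mem_box]
              omega)
            simp only [co, this]
          simp only [e1, e2])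
      simp only [Finset.prod_insert hx', Finset.prod_insert hx]
      calc _ = ∫ σ, Real.sign (co c σ x) * ((∏ y ∈ P', F y σ) *
            ∏ y ∈ P \ insert x P', Real.sign (co c σ y)) ∂gibbs n β := by
            congr 1; funext σ; ring
        _ = _ := by rw [h4]; congr 1; funext σ; ring
  rw [key P Finset.Subset.rfl]
  simp only [Finset.sdiff_self, Finset.prod_empty, mul_one]
  have hb : ∀ σ, ‖∏ x ∈ P, F x σ‖ ≤ η ^ P.card := by
    intro σ
    rw [Real.norm_eq_abs, Finset.abs_prod, ← Finset.prod_const]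
    exact Finset.prod_le_prod (fun _ _ => abs_nonneg _) fun x hx => (hF x hx).2.1 σ
  simpa using norm_integral_le_of_norm_le_const (μ := gibbs n β) (Filter.Eventually.of_forall hb)

end Crest.Agent.R167
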