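import Crest.Agent.R167.Defs

/-! # Row 167: rotations and the site-wise action -/

set_option autoImplicit false

namespace Crest.Agent.R167

open MeasureTheory Matrix Crest.ProbabilityR.SpinModel

variable {n : ℕ} {V : Finset Z2} (c : Fin 3 ↪ Fin n)

theorem Lm_comm (a : Fin 3) : Lm a * Lm (a + 1) - Lm (a + 1) * Lm a = Lm (a + 2) := by
  fin_cases a <;> ext i j <;> fin_cases i <;> fin_cases j <;> simp [Lm]

theorem Lm_transpose (a : Fin 3) : (Lm a)ᵀ = -Lm a := by
  fin_cases a <;> ext i j <;> fin_cases i <;> fin_cases j <;> simp [Lm]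

theorem Rm_zero (a : Fin 3) : Rm a 0 = 1 := by
  simp [Rm]

theorem Rot_Lm_cube (a : Fin 3) : Lm a * Lm a * Lm a = -Lm a := by
  fin_cases a <;> ext i j <;> fin_cases i <;> fin_cases j <;>
    simp [Lm, Matrix.mul_apply, Fin.sum_univ_three]

theorem Rm_add (a : Fin 3) (s t : ℝ) : Rm a s * Rm a t = Rm a (s + t) := by
  have h3 := Rot_Lm_cube a
  have h3' : Lm a * (Lm a * Lm a) = -Lm a := by rw [← Matrix.mul_assoc, h3]
  have h4 : Lm a * Lm a * (Lm a * Lm a) = -(Lm a * Lm a) := by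
    rw [← Matrix.mul_assoc, h3, Matrix.neg_mul]
  simp only [Rm, Matrix.add_mul, Matrix.mul_add, Matrix.one_mul, Matrix.mul_one, Matrix.smul_mul,
    Matrix.mul_smul, h3, h3', h4, Real.sin_add, Real.cos_add]
  module

theorem Rm_orth (a : Fin 3) (t : ℝ) : (Rm a t)ᵀ * Rm a t = 1 := by
  have h : (Rm a t)ᵀ = Rm a (-t) := by
    simp only [Rm, Matrix.transpose_add, Matrix.transpose_one, Matrix.transpose_smul,
      Matrix.transpose_mul, Lm_transpose, Real.sin_neg, Real.cos_neg, Matrix.neg_mul,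
      Matrix.mul_neg, neg_neg, smul_neg, neg_smul]
  rw [h, Rm_add, neg_add_cancel, Rm_zero]

theorem Rm_pi : Rm 2 Real.pi = Matrix.diagonal ![-1, -1, 1] := by
  ext i j
  fin_cases i <;> fin_cases j <;> simp [Rm, Lm]

theorem Fm_orth (b : Bool) : (Fm b)ᵀ * Fm b = 1 := by
  ext i j
  cases b <;> fin_cases i <;> fin_cases j <;> simp [Fm, sg, Matrix.mul_apply, Fin.sum_univ_three]

theorem hasDerivAt_Rm (a : Fin 3) (r : ℝ) (v : Fin 3 → ℝ) (j : Fin 3) :
    HasDerivAt (fun t : ℝ => (Rm a (t * r) *ᵥ v) j) (r * (Lm a *ᵥ v) j) 0 := by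
  have e : (fun t : ℝ => (Rm a (t * r) *ᵥ v) j) = fun t : ℝ =>
      v j + Real.sin (t * r) * (Lm a *ᵥ v) j + (1 - Real.cos (t * r)) * ((Lm a * Lm a) *ᵥ v) j := by
    funext t
    simp only [Rm, Matrix.add_mulVec, Matrix.one_mulVec, Matrix.smul_mulVec, Pi.add_apply,
      Pi.smul_apply, smul_eq_mul]
  rw [e]
  have h0 : HasDerivAt (fun t : ℝ => t * r) r 0 := by simpa using (hasDerivAt_id (0 : ℝ)).mul_const r
  have h1 := (h0.sin.mul_const ((Lm a *ᵥ v) j)).const_add (v j)
  have h2 := (h0.cos.const_sub 1).mul_const (((Lm a * Lm a) *ᵥ v) j)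
  refine (h1.add h2).congr_deriv ?_
  simp

theorem abs_v3_le (s : Sph n) (j : Fin 3) : |v3 c (s : Sp n) j| ≤ 1 := by
  have h : ‖(s : Sp n)‖ = 1 := by simp
  have := PiLp.norm_apply_le (s : Sp n) (c j)
  rw [h, Real.norm_eq_abs] at this
  exact this

theorem abs_co_le (σ : SpinConfig n V) (x : V) : |co c σ x| ≤ 1 := by
  exact abs_v3_le c (σ x) 0

theorem v3_act {O : V → M3} (σ : SpinConfig n V) {x : V} (hO : (O x)ᵀ * O x = 1) :
    v3 c (act c O σ x : Sp n) = O x *ᵥ v3 c (σ x : Sp n) := by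
  exact v3_iso c hO _

theorem act_apply_of_ne (O : V → M3) (σ : SpinConfig n V) (x : V) {i : Fin n}
    (hi : ∀ j, c j ≠ i) : (act c O σ x : Sp n) i = (σ x : Sp n) i := by
  exact iso_apply_of_ne c (O x) _ hi

/-- two spins agree when the three chosen coordinates and all the others agree -/
theorem sph_ext {s s' : Sph n} (h1 : v3 c (s : Sp n) = v3 c (s' : Sp n))
    (h2 : ∀ i, (∀ j, c j ≠ i) → (s : Sp n) i = (s' : Sp n) i) : s = s' := by
  apply Subtype.ext
  ext i
  by_cases h : ∃ j, c j = i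
  · obtain ⟨j, rfl⟩ := h
    exact congrFun h1 j
  · exact h2 i fun j hj => h ⟨j, hj⟩

theorem act_apply_of_eq_one {O : V → M3} (σ : SpinConfig n V) {x : V} (h : O x = 1) :
    act c O σ x = σ x := by
  refine sph_ext c ?_ fun i hi => act_apply_of_ne c O σ x hi
  rw [v3_act c σ (by rw [h, Matrix.transpose_one, Matrix.mul_one]), h, Matrix.one_mulVec]

theorem act_act {O O' : V → M3} (hO : ∀ x, (O x)ᵀ * O x = 1) (hO' : ∀ x, (O' x)ᵀ * O' x = 1)
    (σ : SpinConfig n V) : act c O (act c O' σ) = act c (fun x => O x * O' x) σ := by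
  funext x
  refine sph_ext c ?_ fun i hi => ?_
  · have h : (O x * O' x)ᵀ * (O x * O' x) = 1 := by
      rw [Matrix.transpose_mul, Matrix.mul_assoc, ← Matrix.mul_assoc (O x)ᵀ, hO, Matrix.one_mul, hO']
    rw [v3_act c _ (hO x), v3_act c _ (hO' x), v3_act c (O := fun x => O x * O' x) σ h,
      Matrix.mulVec_mulVec]
  · rw [act_apply_of_ne c _ _ _ hi, act_apply_of_ne c _ _ _ hi, act_apply_of_ne c _ _ _ hi]

theorem flow_zero (a : Fin 3) (θ : Z2 → ℝ) (σ : SpinConfig n V) : flow c a θ 0 σ = σ := by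
  funext x
  exact act_apply_of_eq_one c σ (by rw [zero_mul, Rm_zero])

theorem flow_add (a : Fin 3) (θ : Z2 → ℝ) (s t : ℝ) (σ : SpinConfig n V) :
    flow c a θ s (flow c a θ t σ) = flow c a θ (s + t) σ := by
  unfold flow
  rw [act_act c (fun x => Rm_orth _ _) (fun x => Rm_orth _ _)]
  simp only [Rm_add, add_mul]

theorem flow_apply_of_zero (a : Fin 3) {θ : Z2 → ℝ} (t : ℝ) (σ : SpinConfig n V) {x : V}
    (h : θ x = 0) : flow c a θ t σ x = σ x := by
  exact act_apply_of_eq_one c σ (by rw [h, mul_zero, Rm_zero])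

theorem co_halfTurn (σ : SpinConfig n V) (x : V) : co c (halfTurn c σ) x = -co c σ x := by
  have h := congrFun (v3_act c (O := fun _ => Rm 2 Real.pi) σ (x := x) (Rm_orth _ _)) 0
  rw [Rm_pi, Matrix.mulVec_diagonal] at h
  simpa [v3, co, halfTurn, Rm_pi] using h

theorem co_flip (ε : V → Bool) (σ : SpinConfig n V) (x : V) :
    co c (flip c ε σ) x = sg (ε x) * co c σ x := by
  have h := congrFun (v3_act c (O := fun x => Fm (ε x)) σ (x := x) (Fm_orth _)) 0
  rw [Fm, Matrix.mulVec_diagonal] at h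
  exact h

theorem rot_perp_eq (v w : Sp n) : perp c v w = ∑ i ∈ (Finset.univ.map c)ᶜ, w i * v i := by
  unfold perp
  rw [PiLp.inner_apply, ← Finset.sum_add_sum_compl (Finset.univ.map c), Finset.sum_map]
  simp [dotProduct, v3]

/-- `perp c v w = ∑ i ∉ range c, v i * w i` (split `inner` with `Finset.sum_add_sum_compl` along
`univ.map c`), which only sees the other coordinates. -/
theorem perp_act (O : V → M3) (σ : SpinConfig n V) (x y : V) :
    perp c (act c O σ x : Sp n) (act c O σ y) = perp c (σ x : Sp n) (σ y) := by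
  rw [rot_perp_eq, rot_perp_eq]
  refine Finset.sum_congr rfl fun i hi => ?_
  have h' : ∀ j, c j ≠ i := by
    intro j hj
    simp only [Finset.mem_compl, Finset.mem_map, Finset.mem_univ, true_and, not_exists] at hi
    exact hi j hj
  rw [act_apply_of_ne c O σ x h', act_apply_of_ne c O σ y h']

theorem En_eq (β : Edge V → ℝ) (σ : SpinConfig n V) :
    En β σ = bil c β (fun _ => 1) σ + ∑ e, β e * perp c (σ (src e) : Sp n) (σ (tgt e)) := by
  unfold En bil perp
  rw [← Finset.sum_add_distrib]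
  refine Finset.sum_congr rfl fun e _ => ?_
  rw [Matrix.one_mulVec]
  ring

/-- invariance under a global isometry (`LinearIsometryEquiv.inner_map_map`) -/
theorem En_act_const (β : Edge V → ℝ) (O : M3) (σ : SpinConfig n V) :
    En β (act c (fun _ => O) σ) = En β σ := by
  unfold En
  refine Finset.sum_congr rfl fun e _ => ?_
  exact congrArg _ ((iso c O).inner_map_map _ _)

theorem En_flip (β : Edge V → ℝ) (ε : V → Bool) (σ : SpinConfig n V) :
    En β (flip c ε σ) = (En β σ - ∑ e, cpl c β σ e) +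
      ∑ e, cpl c β σ e * (sg (ε (src e)) * sg (ε (tgt e))) := by
  rw [En_eq c β (flip c ε σ), En_eq c β σ]
  unfold bil flip
  simp only [perp_act, ← Finset.sum_add_distrib, ← Finset.sum_sub_distrib]
  refine Finset.sum_congr rfl fun e _ => ?_
  rw [v3_act c σ (Fm_orth _), v3_act c σ (Fm_orth _)]
  simp only [Matrix.one_mulVec, Fm, dotProduct, Fin.sum_univ_three, Matrix.mulVec_diagonal, cpl, co,
    v3, Matrix.cons_val_zero, Matrix.cons_val_one, Matrix.cons_val]
  ring

end Crest.Agent.R167
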